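import Vale.Agent.P256.H387.Herm

/-! Calculus of complex two-sided kernels: finite rank kernels `FRC`, germs `GC`, the order
`SLe` (difference is a sum of squares along the filters), the module `Dom T` of kernels `g`
with `|g|² ≤ C T`, the small kernels `Sml T`, units, weights and absorption. -/

set_option linter.all false

namespace Vale.Agent.P256.H387

open Filter Topology Matrix Vale.Agent.P256 Vale.Agent.P256.H326
open scoped ComplexOrder ComplexConjugate

variable {L X : Type*} {F : Filter L} {G : Filter X}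

/-! ### complex finite rank kernels -/

/-- complex finite rank kernels -/
def FRC (h : L → X → ℂ) : Prop := FR (fun l x => (h l x).re) ∧ FR (fun l x => (h l x).im)

theorem FRC.congr {h h' : L → X → ℂ} (H : FRC h) (e : ∀ l x, h' l x = h l x) : FRC h' :=
  ⟨H.1.congr fun l x => by rw [e], H.2.congr fun l x => by rw [e]⟩

theorem FRC.left (a : L → ℂ) : FRC (fun l (_ : X) => a l) :=
  ⟨FR.left _, FR.left _⟩

theorem FRC.right (f : X → ℂ) : FRC (fun (_ : L) x => f x) :=
  ⟨FR.right _, FR.right _⟩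

theorem FRC.const (c : ℂ) : FRC (fun (_ : L) (_ : X) => c) := FRC.left fun _ => c

theorem FRC.add {h h' : L → X → ℂ} (H : FRC h) (H' : FRC h') : FRC (fun l x => h l x + h' l x) :=
  ⟨(H.1.add H'.1).congr fun l x => by simp, (H.2.add H'.2).congr fun l x => by simp⟩

theorem FRC.mul {h h' : L → X → ℂ} (H : FRC h) (H' : FRC h') : FRC (fun l x => h l x * h' l x) :=
  ⟨((H.1.mul H'.1).sub (H.2.mul H'.2)).congr fun l x => by simp [Complex.mul_re],
    ((H.1.mul H'.2).add (H.2.mul H'.1)).congr fun l x => by simp [Complex.mul_im]⟩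

theorem FRC.neg {h : L → X → ℂ} (H : FRC h) : FRC (fun l x => -h l x) :=
  ⟨H.1.neg.congr fun l x => by simp, H.2.neg.congr fun l x => by simp⟩

theorem FRC.sub {h h' : L → X → ℂ} (H : FRC h) (H' : FRC h') : FRC (fun l x => h l x - h' l x) :=
  (H.add H'.neg).congr fun l x => sub_eq_add_neg _ _

theorem FRC.conj {h : L → X → ℂ} (H : FRC h) : FRC (fun l x => conj (h l x)) :=
  ⟨H.1.congr fun l x => by simp, H.2.neg.congr fun l x => by simp⟩

theorem FRC.sum {ι : Type*} (s : Finset ι) {h : ι → L → X → ℂ} (H : ∀ i ∈ s, FRC (h i)) :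
    FRC (fun l x => ∑ i ∈ s, h i l x) :=
  ⟨(FR.sum s fun i hi => (H i hi).1).congr fun l x => by simp [Complex.re_sum],
    (FR.sum s fun i hi => (H i hi).2).congr fun l x => by simp [Complex.im_sum]⟩

theorem FRC.ofReal {h : L → X → ℝ} (H : FR h) : FRC (fun l x => (h l x : ℂ)) :=
  ⟨H.congr fun l x => by simp, (FR.const 0).congr fun l x => by simp⟩

theorem FRC.mulfun (a : L → ℂ) (f : X → ℂ) : FRC (fun l x => a l * f x) :=
  (FRC.left a).mul (FRC.right f)

/-! ### complex germs -/

/-- complex germs of finite rank kernels with limit `c` -/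
def GC (F : Filter L) (G : Filter X) (h : L → X → ℂ) (c : ℂ) : Prop :=
  GermFR F G (fun l x => (h l x).re) c.re ∧ GermFR F G (fun l x => (h l x).im) c.im

theorem GC.congr {h h' : L → X → ℂ} {c : ℂ} (H : GC F G h c) (e : ∀ l x, h' l x = h l x) :
    GC F G h' c :=
  ⟨H.1.congr (fun l x => by rw [e]) rfl, H.2.congr (fun l x => by rw [e]) rfl⟩

theorem GC.left {a : L → ℂ} {c : ℂ} (ha : Tendsto a F (𝓝 c)) : GC F G (fun l _ => a l) c :=
  ⟨GermFR.left ((Complex.continuous_re.tendsto c).comp ha),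
    GermFR.left ((Complex.continuous_im.tendsto c).comp ha)⟩

theorem GC.right {f : X → ℂ} {c : ℂ} (hf : Tendsto f G (𝓝 c)) : GC F G (fun _ x => f x) c :=
  ⟨GermFR.right ((Complex.continuous_re.tendsto c).comp hf),
    GermFR.right ((Complex.continuous_im.tendsto c).comp hf)⟩

theorem GC.const (c : ℂ) : GC F G (fun _ _ => c) c := GC.left tendsto_const_nhds

theorem GC.add {h h' : L → X → ℂ} {c c' : ℂ} (H : GC F G h c) (H' : GC F G h' c') :
    GC F G (fun l x => h l x + h' l x) (c + c') :=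
  ⟨(H.1.add H'.1).congr (fun l x => by simp) (by simp),
    (H.2.add H'.2).congr (fun l x => by simp) (by simp)⟩

theorem GC.neg {h : L → X → ℂ} {c : ℂ} (H : GC F G h c) : GC F G (fun l x => -h l x) (-c) :=
  ⟨H.1.neg.congr (fun l x => by simp) (by simp), H.2.neg.congr (fun l x => by simp) (by simp)⟩

theorem GC.sub {h h' : L → X → ℂ} {c c' : ℂ} (H : GC F G h c) (H' : GC F G h' c') :
    GC F G (fun l x => h l x - h' l x) (c - c') := by
  have := (H.add H'.neg)
  rw [sub_eq_add_neg]
  exact this.congr fun l x => sub_eq_add_neg _ _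

theorem GC.mul {h h' : L → X → ℂ} {c c' : ℂ} (H : GC F G h c) (H' : GC F G h' c') :
    GC F G (fun l x => h l x * h' l x) (c * c') :=
  ⟨((H.1.mul H'.1).sub (H.2.mul H'.2)).congr (fun l x => by simp [Complex.mul_re])
      (by simp [Complex.mul_re]),
    ((H.1.mul H'.2).add (H.2.mul H'.1)).congr (fun l x => by simp [Complex.mul_im])
      (by simp [Complex.mul_im])⟩

theorem GC.conj {h : L → X → ℂ} {c : ℂ} (H : GC F G h c) :
    GC F G (fun l x => conj (h l x)) (conj c) :=
  ⟨H.1.congr (fun l x => by simp) (by simp), H.2.neg.congr (fun l x => by simp) (by simp)⟩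

theorem GC.sum {ι : Type*} (s : Finset ι) {h : ι → L → X → ℂ} {c : ι → ℂ}
    (H : ∀ i ∈ s, GC F G (h i) (c i)) : GC F G (fun l x => ∑ i ∈ s, h i l x) (∑ i ∈ s, c i) :=
  ⟨(GermFR.sum s fun i hi => (H i hi).1).congr (fun l x => by simp [Complex.re_sum])
      (by simp [Complex.re_sum]),
    (GermFR.sum s fun i hi => (H i hi).2).congr (fun l x => by simp [Complex.im_sum])
      (by simp [Complex.im_sum])⟩

theorem GC.ofReal {h : L → X → ℝ} {c : ℝ} (H : GermFR F G h c) :
    GC F G (fun l x => (h l x : ℂ)) (c : ℂ) :=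
  ⟨H.congr (fun l x => by simp) (by simp), (GermFR.const 0).congr (fun l x => by simp) (by simp)⟩

theorem gfr_fr {h : L → X → ℝ} {c : ℝ} (H : GermFR F G h c) : FR h := by
  obtain ⟨n, a, f, a0, f0, ha, hf, hh, hc⟩ := H
  exact ⟨n, a, f, hh⟩

theorem GC.frc {h : L → X → ℂ} {c : ℂ} (H : GC F G h c) : FRC h := ⟨gfr_fr H.1, gfr_fr H.2⟩

theorem GC.normSq {h : L → X → ℂ} {c : ℂ} (H : GC F G h c) :
    GermFR F G (fun l x => Complex.normSq (h l x)) (Complex.normSq c) :=
  ((H.1.mul H.1).add (H.2.mul H.2)).congr (fun l x => by rw [Complex.normSq_apply])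
    (by rw [Complex.normSq_apply])

/-- a bounded complex kernel: a germ with some limit (automatic for ultrafilters) -/
def BC (F : Filter L) (G : Filter X) (h : L → X → ℂ) : Prop := ∃ c, GC F G h c

/-! ### the order -/

/-- `a ≤ b`: the difference is a sum of squares along the filters -/
def SLe (F : Filter L) (G : Filter X) (a b : L → X → ℝ) : Prop :=
  SosF F G (fun l x => b l x - a l x)

theorem SLe.refl (a : L → X → ℝ) : SLe F G a a :=
  SosF.zero.congr' fun l x => by ring

theorem SLe.trans {a b c : L → X → ℝ} (H : SLe F G a b) (H' : SLe F G b c) : SLe F G a c :=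
  (SosF.add H H').congr' fun l x => by ring

theorem SLe.add {a b a' b' : L → X → ℝ} (H : SLe F G a b) (H' : SLe F G a' b') :
    SLe F G (fun l x => a l x + a' l x) (fun l x => b l x + b' l x) :=
  (SosF.add H H').congr' fun l x => by ring

theorem SLe.mul_left {a b s : L → X → ℝ} (hs : SosF F G s) (H : SLe F G a b) :
    SLe F G (fun l x => s l x * a l x) (fun l x => s l x * b l x) :=
  (SosF.mul hs H).congr' fun l x => by ring

theorem SLe.smul {a b : L → X → ℝ} {c : ℝ} (hc : 0 ≤ c) (H : SLe F G a b) :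
    SLe F G (fun l x => c * a l x) (fun l x => c * b l x) := SLe.mul_left (SosF.const hc) H

theorem SLe.of_sos {a b : L → X → ℝ} (H : SosF F G (fun l x => b l x - a l x)) : SLe F G a b := H

theorem SLe.congr_left {a a' b : L → X → ℝ} (H : SLe F G a b) (e : EqF F G a' a) :
    SLe F G a' b := by
  refine SosF.congr H ?_
  obtain ⟨A, hA, B, hB, e⟩ := e
  exact ⟨A, hA, B, hB, fun l hl x hx => by beta_reduce; rw [e l hl x hx]⟩

theorem SLe.congr_right {a b b' : L → X → ℝ} (H : SLe F G a b) (e : EqF F G b' b) :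
    SLe F G a b' := by
  refine SosF.congr H ?_
  obtain ⟨A, hA, B, hB, e⟩ := e
  exact ⟨A, hA, B, hB, fun l hl x hx => by beta_reduce; rw [e l hl x hx]⟩

theorem SLe.sosF {a b : L → X → ℝ} (H : SLe F G a b) (ha : SosF F G a) : SosF F G b :=
  (SosF.add H ha).congr' fun l x => by ring

theorem SLe.mono_const {a T : L → X → ℝ} {c c' : ℝ} (hT : SosF F G T) (h : c ≤ c')
    (H : SLe F G a (fun l x => c * T l x)) : SLe F G a (fun l x => c' * T l x) := by
  refine H.trans ((SosF.smul (sub_nonneg.2 h) hT).congr' fun l x => ?_)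
  ring

theorem gfr_lt {h : L → X → ℝ} {c C : ℝ} (H : GermFR F G h c) (hc : c < C) :
    SLe F G h (fun _ _ => C) := by
  have h1 : GermFR F G (fun l x => C - h l x) (C - c) := (GermFR.const C).sub H
  exact GermFR.sosF h1 (by linarith)

theorem gfr_gt {h : L → X → ℝ} {c C : ℝ} (H : GermFR F G h c) (hc : C < c) :
    SLe F G (fun _ _ => C) h := by
  have h1 : GermFR F G (fun l x => h l x - C) (c - C) := H.sub (GermFR.const C)
  exact GermFR.sosF h1 (by linarith)

theorem sosF_normSq {g : L → X → ℂ} (H : FRC g) :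
    SosF F G (fun l x => Complex.normSq (g l x)) :=
  ((SosF.sq H.1).add (SosF.sq H.2)).congr' fun l x => by rw [Complex.normSq_apply]; ring

/-- product with a bounded kernel -/
theorem sle_bdd_mul {h g : L → X → ℂ} {c : ℂ} (H : GC F G h c) (hg : FRC g) {C : ℝ}
    (hC : Complex.normSq c < C) :
    SLe F G (fun l x => Complex.normSq (h l x * g l x)) (fun l x => C * Complex.normSq (g l x)) := by
  have h1 := SLe.mul_left (sosF_normSq hg) (gfr_lt H.normSq hC)
  refine SosF.congr' h1 fun l x => ?_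
  beta_reduce
  rw [Complex.normSq_mul]; ring

/-- lower bound for the product with a unit -/
theorem sle_unit_mul {h g : L → X → ℂ} {c : ℂ} (H : GC F G h c) (hg : FRC g) {C : ℝ}
    (hC : C < Complex.normSq c) :
    SLe F G (fun l x => C * Complex.normSq (g l x)) (fun l x => Complex.normSq (h l x * g l x)) := by
  have h1 := SLe.mul_left (sosF_normSq hg) (gfr_gt H.normSq hC)
  refine SosF.congr' h1 fun l x => ?_
  beta_reduce
  rw [Complex.normSq_mul]; ring

theorem sle_add_sq {g h : L → X → ℂ} (hg : FRC g) (hh : FRC h) :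
    SLe F G (fun l x => Complex.normSq (g l x + h l x))
      (fun l x => 2 * Complex.normSq (g l x) + 2 * Complex.normSq (h l x)) := by
  refine SosF.congr' (sosF_normSq (hg.sub hh)) fun l x => ?_
  simp only [Complex.normSq_apply, Complex.add_re, Complex.add_im, Complex.sub_re, Complex.sub_im]
  ring

/-- `2 Re (g conj h) ≤ δ |g|² + δ⁻¹ |h|²` -/
theorem sle_cross {g h : L → X → ℂ} (hg : FRC g) (hh : FRC h) {δ : ℝ} (hδ : 0 < δ) :
    SLe F G (fun l x => 2 * (g l x * conj (h l x)).re)
      (fun l x => δ * Complex.normSq (g l x) + δ⁻¹ * Complex.normSq (h l x)) := by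
  have h1 : FRC (fun l x => ((Real.sqrt δ : ℝ) : ℂ) * g l x - ((Real.sqrt δ : ℝ) : ℂ)⁻¹ * h l x) :=
    ((FRC.const _).mul hg).sub ((FRC.const _).mul hh)
  refine SosF.congr' (sosF_normSq h1) fun l x => ?_
  have h2 : Real.sqrt δ * Real.sqrt δ = δ := Real.mul_self_sqrt hδ.le
  have h3 : (Real.sqrt δ)⁻¹ * (Real.sqrt δ)⁻¹ = δ⁻¹ := by rw [← mul_inv, h2]
  have h4 : Real.sqrt δ * (Real.sqrt δ)⁻¹ = 1 := mul_inv_cancel₀ (Real.sqrt_pos.2 hδ).ne'
  simp only [Complex.normSq_apply, Complex.sub_re, Complex.sub_im, Complex.mul_re, Complex.mul_im,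
    Complex.conj_re, Complex.conj_im, ← Complex.ofReal_inv, Complex.ofReal_re, Complex.ofReal_im,
    zero_mul, sub_zero, add_zero]
  linear_combination (-((g l x).re * (g l x).re + (g l x).im * (g l x).im)) * h2 -
    ((h l x).re * (h l x).re + (h l x).im * (h l x).im) * h3 +
    (2 * ((g l x).re * (h l x).re + (g l x).im * (h l x).im)) * h4

/-! ### the module of dominated kernels -/

/-- `|g|² ≤ C T` -/
def Dom (F : Filter L) (G : Filter X) (T : L → X → ℝ) (g : L → X → ℂ) : Prop :=
  FRC g ∧ ∃ C : ℝ, 0 ≤ C ∧ SLe F G (fun l x => Complex.normSq (g l x)) (fun l x => C * T l x)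

/-- `|g|² ≤ δ T` for every `δ > 0` -/
def Sml (F : Filter L) (G : Filter X) (T : L → X → ℝ) (g : L → X → ℂ) : Prop :=
  FRC g ∧ ∀ δ : ℝ, 0 < δ →
    SLe F G (fun l x => Complex.normSq (g l x)) (fun l x => δ * T l x)

variable {T T' : L → X → ℝ} {g g' h : L → X → ℂ}

theorem Sml.dom (H : Sml F G T g) : Dom F G T g := ⟨H.1, 1, zero_le_one, H.2 1 one_pos⟩

theorem Dom.congr (H : Dom F G T g) (e : ∀ l x, g' l x = g l x) : Dom F G T g' := by
  obtain ⟨h1, C, hC, h2⟩ := H
  exact ⟨h1.congr e, C, hC, SosF.congr' h2 fun l x => by beta_reduce; rw [e]⟩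

theorem Sml.congr (H : Sml F G T g) (e : ∀ l x, g' l x = g l x) : Sml F G T g' :=
  ⟨H.1.congr e, fun δ hδ => SosF.congr' (H.2 δ hδ) fun l x => by beta_reduce; rw [e]⟩

/-- replacing `g` by an eventually equal finite rank kernel -/
theorem Dom.congrF (H : Dom F G T g) (hg' : FRC g') (e : EqF F G (fun l x => (g' l x).re)
    (fun l x => (g l x).re)) (e' : EqF F G (fun l x => (g' l x).im) (fun l x => (g l x).im)) :
    Dom F G T g' := by
  obtain ⟨h1, C, hC, h2⟩ := H
  refine ⟨hg', C, hC, SLe.congr_left h2 ?_⟩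
  obtain ⟨A, hA, B, hB, e⟩ := e
  obtain ⟨A', hA', B', hB', e'⟩ := e'
  refine ⟨A ∩ A', inter_mem hA hA', B ∩ B', inter_mem hB hB', fun l hl x hx => ?_⟩
  have e1 := e l hl.1 x hx.1
  have e2 := e' l hl.2 x hx.2
  beta_reduce at e1 e2 ⊢
  rw [Complex.normSq_apply, Complex.normSq_apply, e1, e2]

theorem Sml.congrF (H : Sml F G T g) (hg' : FRC g') (e : EqF F G (fun l x => (g' l x).re)
    (fun l x => (g l x).re)) (e' : EqF F G (fun l x => (g' l x).im) (fun l x => (g l x).im)) :
    Sml F G T g' := by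
  refine ⟨hg', fun δ hδ => SLe.congr_left (H.2 δ hδ) ?_⟩
  obtain ⟨A, hA, B, hB, e⟩ := e
  obtain ⟨A', hA', B', hB', e'⟩ := e'
  refine ⟨A ∩ A', inter_mem hA hA', B ∩ B', inter_mem hB hB', fun l hl x hx => ?_⟩
  have e1 := e l hl.1 x hx.1
  have e2 := e' l hl.2 x hx.2
  beta_reduce at e1 e2 ⊢
  rw [Complex.normSq_apply, Complex.normSq_apply, e1, e2]

theorem Dom.add (H : Dom F G T g) (H' : Dom F G T g') : Dom F G T (fun l x => g l x + g' l x) := by
  obtain ⟨h1, C, hC, h2⟩ := H
  obtain ⟨h1', C', hC', h2'⟩ := H'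
  refine ⟨h1.add h1', 2 * C + 2 * C', by positivity, (sle_add_sq h1 h1').trans ?_⟩
  refine SosF.congr' (SosF.add (SosF.smul (c := 2) (by norm_num) h2)
    (SosF.smul (c := 2) (by norm_num) h2')) fun l x => ?_
  ring

theorem Sml.add (H : Sml F G T g) (H' : Sml F G T g') : Sml F G T (fun l x => g l x + g' l x) := by
  refine ⟨H.1.add H'.1, fun δ hδ => (sle_add_sq H.1 H'.1).trans ?_⟩
  refine SosF.congr' (SosF.add (SosF.smul (c := 2) (by norm_num) (H.2 (δ / 4) (by positivity)))
    (SosF.smul (c := 2) (by norm_num) (H'.2 (δ / 4) (by positivity)))) fun l x => ?_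
  ring

/-- multiplication by bounded kernels -/
theorem Dom.bmul {b : L → X → ℂ} (hb : BC F G b) (H : Dom F G T g) :
    Dom F G T (fun l x => b l x * g l x) := by
  obtain ⟨c, hc⟩ := hb
  obtain ⟨h1, C, hC, h2⟩ := H
  refine ⟨hc.frc.mul h1, (Complex.normSq c + 1) * C,
    mul_nonneg (by have := Complex.normSq_nonneg c; linarith) hC,
    (sle_bdd_mul hc h1 (lt_add_one _)).trans ?_⟩
  refine SosF.congr' (SosF.smul (c := Complex.normSq c + 1)
    (by have := Complex.normSq_nonneg c; linarith) h2) fun l x => ?_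
  ring

theorem Sml.bmul {b : L → X → ℂ} (hb : BC F G b) (H : Sml F G T g) :
    Sml F G T (fun l x => b l x * g l x) := by
  obtain ⟨c, hc⟩ := hb
  have hn := Complex.normSq_nonneg c
  refine ⟨hc.frc.mul H.1, fun δ hδ => (sle_bdd_mul hc H.1 (lt_add_one _)).trans ?_⟩
  refine SosF.congr' (SosF.smul (c := Complex.normSq c + 1) (by linarith)
    (H.2 (δ / (Complex.normSq c + 1)) (by positivity))) fun l x => ?_
  have : Complex.normSq c + 1 ≠ 0 := by positivity
  field_simp

/-- multiplication by an infinitesimal kernel -/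
theorem Dom.jmul {j : L → X → ℂ} (hj : GC F G j 0) (hT : SosF F G T) (H : Dom F G T g) :
    Sml F G T (fun l x => j l x * g l x) := by
  obtain ⟨h1, C, hC, h2⟩ := H
  refine ⟨hj.frc.mul h1, fun δ hδ => ?_⟩
  have h3 : Complex.normSq 0 < δ / (C + 1) := by rw [Complex.normSq_zero]; positivity
  refine (sle_bdd_mul hj h1 h3).trans ?_
  have h4 := SLe.smul (c := δ / (C + 1)) (by positivity) h2
  refine h4.trans ?_
  have h5 : δ / (C + 1) * C ≤ δ := by
    rw [div_mul_eq_mul_div, div_le_iff₀ (by positivity)]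
    nlinarith
  refine SosF.congr' (SosF.smul (sub_nonneg.2 h5) hT) fun l x => ?_
  ring

/-- division by a unit -/
theorem Dom.of_unit {b : L → X → ℂ} {c : ℂ} (hb : GC F G b c) (hc : c ≠ 0) (hg : FRC g)
    (H : Dom F G T (fun l x => b l x * g l x)) : Dom F G T g := by
  obtain ⟨h1, C, hC, h2⟩ := H
  have hcp : 0 < Complex.normSq c := Complex.normSq_pos.2 hc
  have h3 := sle_unit_mul hb hg (C := Complex.normSq c / 2) (by linarith)
  refine ⟨hg, (Complex.normSq c / 2)⁻¹ * C, by positivity, ?_⟩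
  refine SosF.congr' (SosF.smul (c := (Complex.normSq c / 2)⁻¹) (by positivity) (h3.trans h2))
    fun l x => ?_
  have : Complex.normSq c / 2 ≠ 0 := by positivity
  field_simp

theorem Sml.of_unit {b : L → X → ℂ} {c : ℂ} (hb : GC F G b c) (hc : c ≠ 0) (hg : FRC g)
    (H : Sml F G T (fun l x => b l x * g l x)) : Sml F G T g := by
  have hcp : 0 < Complex.normSq c := Complex.normSq_pos.2 hc
  have h3 := sle_unit_mul hb hg (C := Complex.normSq c / 2) (by linarith)
  refine ⟨hg, fun δ hδ => ?_⟩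
  refine SosF.congr' (SosF.smul (c := (Complex.normSq c / 2)⁻¹) (by positivity)
    (h3.trans (H.2 (Complex.normSq c / 2 * δ) (by positivity)))) fun l x => ?_
  have : Complex.normSq c / 2 ≠ 0 := by positivity
  field_simp

theorem Dom.neg (H : Dom F G T g) : Dom F G T (fun l x => -g l x) :=
  (Dom.bmul ⟨-1, GC.const (-1)⟩ H).congr fun l x => by ring

theorem Dom.sub (H : Dom F G T g) (H' : Dom F G T g') : Dom F G T (fun l x => g l x - g' l x) :=
  (H.add H'.neg).congr fun l x => by ring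

theorem Sml.neg (H : Sml F G T g) : Sml F G T (fun l x => -g l x) :=
  (Sml.bmul ⟨-1, GC.const (-1)⟩ H).congr fun l x => by ring

theorem Sml.sub (H : Sml F G T g) (H' : Sml F G T g') : Sml F G T (fun l x => g l x - g' l x) :=
  (H.add H'.neg).congr fun l x => by ring

theorem Dom.conj (H : Dom F G T g) : Dom F G T (fun l x => conj (g l x)) := by
  obtain ⟨h1, C, hC, h2⟩ := H
  exact ⟨h1.conj, C, hC, SosF.congr' h2 fun l x => by beta_reduce; rw [Complex.normSq_conj]⟩

theorem Sml.conj (H : Sml F G T g) : Sml F G T (fun l x => conj (g l x)) :=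
  ⟨H.1.conj, fun δ hδ => SosF.congr' (H.2 δ hδ) fun l x => by beta_reduce; rw [Complex.normSq_conj]⟩

theorem Dom.sum {ι : Type*} (s : Finset ι) {g : ι → L → X → ℂ} (hT : SosF F G T)
    (H : ∀ i ∈ s, Dom F G T (g i)) : Dom F G T (fun l x => ∑ i ∈ s, g i l x) := by
  classical
  induction s using Finset.induction_on with
  | empty =>
    refine ⟨(FRC.const 0).congr fun l x => by simp, 0, le_rfl, SosF.zero.congr' fun l x => by simp⟩
  | insert i s hi ih =>
    refine ((H i (Finset.mem_insert_self i s)).add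
      (ih fun j hj => H j (Finset.mem_insert_of_mem hj))).congr fun l x => ?_
    rw [Finset.sum_insert hi]

theorem Sml.sum {ι : Type*} (s : Finset ι) {g : ι → L → X → ℂ} (hT : SosF F G T)
    (H : ∀ i ∈ s, Sml F G T (g i)) : Sml F G T (fun l x => ∑ i ∈ s, g i l x) := by
  classical
  induction s using Finset.induction_on with
  | empty =>
    refine ⟨(FRC.const 0).congr fun l x => by simp, fun δ hδ =>
      (SosF.smul hδ.le hT).congr' fun l x => by simp⟩
  | insert i s hi ih =>
    refine ((H i (Finset.mem_insert_self i s)).add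
      (ih fun j hj => H j (Finset.mem_insert_of_mem hj))).congr fun l x => ?_
    rw [Finset.sum_insert hi]

theorem Dom.mono (H : Dom F G T g) {C : ℝ} (hC : 0 ≤ C) (hT : SLe F G T (fun l x => C * T' l x)) :
    Dom F G T' g := by
  obtain ⟨h1, C', hC', h2⟩ := H
  refine ⟨h1, C' * C, mul_nonneg hC' hC, h2.trans ?_⟩
  exact SosF.congr' (SosF.smul hC' hT) fun l x => by ring

theorem Sml.mono (H : Sml F G T g) {C : ℝ} (hC : 0 ≤ C) (hT' : SosF F G T')
    (hT : SLe F G T (fun l x => C * T' l x)) : Sml F G T' g := by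
  refine ⟨H.1, fun δ hδ => (H.2 (δ / (C + 1)) (by positivity)).trans ?_⟩
  refine (SLe.smul (c := δ / (C + 1)) (by positivity) hT).trans ?_
  have h5 : δ / (C + 1) * C ≤ δ := by
    rw [div_mul_eq_mul_div, div_le_iff₀ (by positivity)]
    nlinarith
  exact SosF.congr' (SosF.smul (sub_nonneg.2 h5) hT') fun l x => by ring

/-- the kernel dominates itself -/
theorem Dom.self (hg : FRC g) (hT : SosF F G T) :
    Dom F G (fun l x => T l x + Complex.normSq (g l x)) g :=
  ⟨hg, 1, zero_le_one, SosF.congr' hT fun l x => by ring⟩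

theorem sos_add_self (hg : FRC g) (hT : SosF F G T) :
    SosF F G (fun l x => T l x + Complex.normSq (g l x)) := hT.add (sosF_normSq hg)

/-- products: `g` dominated by `T`, `h` dominated by `U` -/
theorem sle_cross_dom {U : L → X → ℝ} (hT : SosF F G T) (hU : SosF F G U) (H : Dom F G T g)
    (H' : Dom F G U h) {δ : ℝ} (hδ : 0 < δ) :
    ∃ C : ℝ, 0 ≤ C ∧ SLe F G (fun l x => (g l x * conj (h l x)).re)
      (fun l x => C * T l x + δ * U l x) := by
  obtain ⟨h1, C, hC, h2⟩ := H
  obtain ⟨h1', C', hC', h2'⟩ := H'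
  set η : ℝ := (C' + 1) / δ with hη
  have hηpos : 0 < η := by positivity
  have h3 := sle_cross (F := F) (G := G) h1 h1' hηpos
  refine ⟨η * C, by positivity, ?_⟩
  have h4 : η⁻¹ * C' ≤ δ := by
    rw [hη, inv_div, div_mul_eq_mul_div, div_le_iff₀ (by positivity)]
    nlinarith
  have key : SosF F G (fun l x => 1 / 2 * (η * Complex.normSq (g l x) +
      η⁻¹ * Complex.normSq (h l x) - 2 * (g l x * (starRingEnd ℂ) (h l x)).re) +
      (1 / 2 * η * (C * T l x - Complex.normSq (g l x)) +
      1 / 2 * η⁻¹ * (C' * U l x - Complex.normSq (h l x))) +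
      (1 / 2 * η * C * T l x + (δ - 1 / 2 * η⁻¹ * C') * U l x)) := by
    refine ((SosF.smul (by norm_num) h3).add ((SosF.smul (by positivity) h2).add
      (SosF.smul (by positivity) h2'))).add ((SosF.smul (by positivity) hT).add
      (SosF.smul ?_ hU))
    have : 0 ≤ η⁻¹ * C' := by positivity
    linarith
  refine SosF.congr' key fun l x => ?_
  ring

/-- **Absorption**: if for every `δ` one has `|g|² ≤ C_δ T + δ (T + |g|²)` then `g` is dominated
by `T` -/
theorem Dom.absorb (hg : FRC g) (hT : SosF F G T)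
    (H : ∃ δ : ℝ, 0 ≤ δ ∧ δ < 1 ∧ ∃ C : ℝ, 0 ≤ C ∧ SLe F G (fun l x => Complex.normSq (g l x))
      (fun l x => C * T l x + δ * (T l x + Complex.normSq (g l x)))) : Dom F G T g := by
  obtain ⟨δ, hδ0, hδ, C, hC, h⟩ := H
  have hδ' : 0 < 1 - δ := by linarith
  refine ⟨hg, (1 - δ)⁻¹ * (C + δ), by positivity, ?_⟩
  refine SosF.congr' (SosF.smul (c := (1 - δ)⁻¹) (by positivity) h) fun l x => ?_
  field_simp
  ring

/-- absorption for small kernels: `g = g₁ + g₂`, `g₁` dominated by `T`, `g₂` small with respect to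
`T + |g|²` -/
theorem Dom.of_add_small (hg : FRC g) (hT : SosF F G T) (H : Dom F G T g')
    (H' : Sml F G (fun l x => T l x + Complex.normSq (g l x)) h)
    (e : ∀ l x, g l x = g' l x + h l x) : Dom F G T g := by
  refine Dom.absorb hg hT ⟨1 / 2, by norm_num, by norm_num, ?_⟩
  obtain ⟨h1, C, hC, h2⟩ := H
  refine ⟨2 * C, by positivity, ?_⟩
  have h3 := sle_add_sq (F := F) (G := G) h1 H'.1
  have h4 := H'.2 (1 / 4) (by norm_num)
  refine SosF.congr' ((SosF.add h3 (SosF.add (SosF.smul (c := 2) (by norm_num) h2)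
    (SosF.smul (c := 2) (by norm_num) h4)))) fun l x => ?_
  beta_reduce
  rw [e l x]
  ring

/-! ### Cauchy-Schwarz for complex pencils -/

section CS

variable {ι : Type*} [Fintype ι]

theorem psd_factorC {A : Matrix ι ι ℂ} (hA : A.PosSemidef) : ∃ B : Matrix ι ι ℂ, A = Bᴴ * B := by
  classical
  open scoped MatrixOrder in
  have h0 : (0 : Matrix ι ι ℂ) ≤ A := hA.nonneg
  open scoped MatrixOrder in
  obtain ⟨B, hB⟩ := CStarAlgebra.nonneg_iff_eq_star_mul_self.1 h0
  exact ⟨B, by rw [hB]; rfl⟩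

/-- the form of a psd matrix function of `x` at a vector function of `l` -/
theorem sosF_formC {M : X → Matrix ι ι ℂ} (hM : ∀ᶠ x in G, (M x).PosSemidef) (ξ : L → ι → ℂ) :
    SosF F G (fun l x => (star (ξ l) ⬝ᵥ (M x *ᵥ ξ l)).re) := by
  classical
  have hc : ∀ x, ∃ B : Matrix ι ι ℂ, (M x).PosSemidef → M x = Bᴴ * B := by
    intro x
    by_cases h : (M x).PosSemidef
    · obtain ⟨B, hB⟩ := psd_factorC h
      exact ⟨B, fun _ => hB⟩
    · exact ⟨0, fun h' => absurd h' h⟩
  choose B hB using hc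
  have h1 : SosF F G (fun l x => ∑ k, Complex.normSq ((B x *ᵥ ξ l) k)) := by
    refine SosF.sum _ fun k _ => sosF_normSq ?_
    show FRC (fun l x => ∑ i, B x k i * ξ l i)
    exact FRC.sum _ fun i _ => (FRC.mulfun (fun l => ξ l i) (fun x => B x k i)).congr
      fun l x => mul_comm _ _
  refine h1.congr (EqF.of_eventually (fun _ => True) (fun x => (M x).PosSemidef) (by simp) hM ?_)
  intro l x _ hx
  rw [hB x hx, ← Matrix.mulVec_mulVec, Matrix.dotProduct_mulVec, ← Matrix.star_mulVec]
  simp only [dotProduct, Pi.star_apply, Complex.re_sum]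
  refine Finset.sum_congr rfl fun k _ => ?_
  rw [Complex.star_def, mul_comm, Complex.mul_conj]
  exact Complex.ofReal_re _

/-- `|⟨v, M ξ⟩|² ≤ ⟨v, M v⟩ ⟨ξ, M ξ⟩` for one-sided vectors `ξ = ξ(l)` and `v` of either kind
(`v` may depend on both variables through `v l x`, all entries finite rank). -/
theorem sosF_csC {M : X → Matrix ι ι ℂ} (hM : ∀ᶠ x in G, (M x).PosSemidef)
    {v ξ : L → X → ι → ℂ} (hv : ∀ i, FRC (fun l x => v l x i)) (hξ : ∀ i, FRC (fun l x => ξ l x i)) :
    SosF F G (fun l x => (star (v l x) ⬝ᵥ (M x *ᵥ v l x)).re *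
      (star (ξ l x) ⬝ᵥ (M x *ᵥ ξ l x)).re - Complex.normSq (star (v l x) ⬝ᵥ (M x *ᵥ ξ l x))) := by
  classical
  have hc : ∀ x, ∃ B : Matrix ι ι ℂ, (M x).PosSemidef → M x = Bᴴ * B := by
    intro x
    by_cases h : (M x).PosSemidef
    · obtain ⟨B, hB⟩ := psd_factorC h
      exact ⟨B, fun _ => hB⟩
    · exact ⟨0, fun h' => absurd h' h⟩
  choose B hB using hc
  have hfr : ∀ {w : L → X → ι → ℂ}, (∀ i, FRC (fun l x => w l x i)) → ∀ k : ι,
      FRC (fun l x => (B x *ᵥ w l x) k) := by
    intro w hw k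
    show FRC (fun l x => ∑ i, B x k i * w l x i)
    exact FRC.sum _ fun i _ => (FRC.right (fun x => B x k i)).mul (hw i)
  have h1 : SosF F G (fun l x => ∑ k, ∑ k', 1 / 2 * Complex.normSq
      ((B x *ᵥ v l x) k * (B x *ᵥ ξ l x) k' - (B x *ᵥ v l x) k' * (B x *ᵥ ξ l x) k)) := by
    refine SosF.sum _ fun k _ => SosF.sum _ fun k' _ => SosF.smul (by norm_num) (sosF_normSq ?_)
    exact ((hfr hv k).mul (hfr hξ k')).sub ((hfr hv k').mul (hfr hξ k))
  refine h1.congr (EqF.of_eventually (fun _ => True) (fun x => (M x).PosSemidef) (by simp) hM ?_)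
  intro l x _ hx
  have e1 : ∀ u w : ι → ℂ, star u ⬝ᵥ (M x *ᵥ w) = ∑ k, conj ((B x *ᵥ u) k) * (B x *ᵥ w) k := by
    intro u w
    rw [hB x hx, ← Matrix.mulVec_mulVec, Matrix.dotProduct_mulVec, ← Matrix.star_mulVec]
    rfl
  rw [e1, e1, e1]
  set a : ι → ℂ := B x *ᵥ v l x
  set b : ι → ℂ := B x *ᵥ ξ l x
  have e2 : ∀ c : ι → ℂ, (∑ k, conj (c k) * c k).re = ∑ k, Complex.normSq (c k) := by
    intro c
    rw [Complex.re_sum]
    refine Finset.sum_congr rfl fun k _ => ?_
    rw [mul_comm, Complex.mul_conj, Complex.ofReal_re]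
  rw [e2, e2]
  have e3 : Complex.normSq (∑ k, conj (a k) * b k) =
      ∑ k, ∑ k', (conj (a k) * b k * (a k' * conj (b k'))).re := by
    have h4 : ((Complex.normSq (∑ k, conj (a k) * b k) : ℝ) : ℂ) =
        (∑ k, conj (a k) * b k) * (∑ k, a k * conj (b k)) := by
      rw [← Complex.mul_conj, map_sum]
      congr 1
      exact Finset.sum_congr rfl fun k _ => by rw [map_mul, Complex.conj_conj]
    have h5 := congrArg Complex.re h4
    rw [Complex.ofReal_re, Finset.sum_mul_sum] at h5
    rw [h5]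
    simp only [Complex.re_sum]
  rw [e3]
  have e4 : ∀ k k', 1 / 2 * Complex.normSq (a k * b k' - a k' * b k) =
      1 / 2 * (Complex.normSq (a k) * Complex.normSq (b k')) +
      1 / 2 * (Complex.normSq (a k') * Complex.normSq (b k)) -
      (conj (a k) * b k * (a k' * conj (b k'))).re := by
    intro k k'
    simp only [Complex.normSq_apply, Complex.sub_re, Complex.sub_im, Complex.mul_re,
      Complex.mul_im, Complex.conj_re, Complex.conj_im]
    ring
  simp only [e4, Finset.sum_sub_distrib, Finset.sum_add_distrib, ← Finset.mul_sum,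
    ← Finset.sum_mul]
  ring

end CS

end Vale.Agent.P256.H387
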