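import Vale.Agent.P256.H387.Herm
import Mathlib.Analysis.Calculus.Deriv.Prod

/-! The kernel functional of a Hermitian representation: if `p = κ det M` near a smooth boundary
point `y` and `M(y) ≥ 0`, then `D_x p(y) = D_e p(y) ⟨ξ, DM(y)[x] ξ⟩`, `ξ` the unit kernel
vector. -/

set_option linter.all false

namespace Vale.Agent.P256.H387

open MvPolynomial Filter Topology Matrix Vale.Agent.P256 Vale.Agent.P256.H326
open scoped ComplexOrder

section Jacobi

variable {d : ℕ}

theorem sum_updateCol_eqC (X Y : Matrix (Fin d) (Fin d) ℂ) :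
    ∑ σ : Equiv.Perm (Fin d), (Equiv.Perm.sign σ : ℤ) •
      ∑ i, (∏ j ∈ Finset.univ.erase i, X (σ j) j) * Y (σ i) i =
      (X.adjugate * Y).trace := by
  simp only [Finset.smul_sum]
  rw [Finset.sum_comm]
  rw [Matrix.trace]
  refine Finset.sum_congr rfl fun i _ => ?_
  have h1 : (X.adjugate * Y).diag i = (X.updateCol i (fun j => Y j i)).det := by
    rw [← Matrix.cramer_apply, Matrix.cramer_eq_adjugate_mulVec]
    simp only [diag, Matrix.mul_apply, mulVec, dotProduct]
  rw [h1, Matrix.det_apply]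
  refine Finset.sum_congr rfl fun σ _ => ?_
  have : ∏ k, (X.updateCol i (fun j => Y j i)) (σ k) k =
      (∏ j ∈ Finset.univ.erase i, X (σ j) j) * Y (σ i) i := by
    rw [← Finset.prod_erase_mul Finset.univ _ (Finset.mem_univ i)]
    congr 1
    · refine Finset.prod_congr rfl fun j hj => ?_
      rw [Matrix.updateCol_ne (Finset.ne_of_mem_erase hj)]
    · simp
  rw [this]
  rfl

/-- Jacobi's formula for complex matrices of a real variable -/
theorem hasDerivAt_detC {N : ℝ → Matrix (Fin d) (Fin d) ℂ} {N' : Matrix (Fin d) (Fin d) ℂ} {t : ℝ}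
    (hN : ∀ i j, HasDerivAt (fun s => N s i j) (N' i j) t) :
    HasDerivAt (fun t => (N t).det) ((N t).adjugate * N').trace t := by
  rw [← sum_updateCol_eqC]
  have h1 : ∀ t, (N t).det =
      ∑ σ : Equiv.Perm (Fin d), (Equiv.Perm.sign σ : ℤ) • ∏ i, N t (σ i) i := by
    intro t
    rw [Matrix.det_apply]
    rfl
  simp only [h1]
  refine HasDerivAt.fun_sum (fun σ _ => ?_)
  have h2 := HasDerivAt.fun_finsetProd (u := Finset.univ) (x := t)
    (f := fun i t => N t (σ i) i) (f' := fun i => N' (σ i) i) (fun i _ => hN (σ i) i)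
  simp only [smul_eq_mul] at h2
  exact h2.const_smul ((Equiv.Perm.sign σ : ℤ))

end Jacobi

section Adj

variable {d : ℕ} {M : Matrix (Fin d) (Fin d) ℂ}

/-- if the adjugate does not vanish, the kernel is at most one dimensional -/
theorem ker_dep (hadj : M.adjugate ≠ 0) {ξ ζ : Fin d → ℂ} (hξ0 : ξ ≠ 0) (hξ : M *ᵥ ξ = 0)
    (hζ : M *ᵥ ζ = 0) : ∃ c : ℂ, ζ = c • ξ := by
  have h1 : ∃ i j, M.adjugate i j ≠ 0 := by
    by_contra h
    push Not at h
    exact hadj (by ext i j; simpa using h i j)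
  obtain ⟨i, j, hij⟩ := h1
  have key : ∀ w : Fin d → ℂ, M *ᵥ w = 0 → w i = 0 → w = 0 := by
    intro w hw hwi
    by_contra hw0
    apply hij
    rw [Matrix.adjugate_apply]
    refine Matrix.exists_mulVec_eq_zero_iff.1 ⟨w, hw0, ?_⟩
    funext k
    by_cases hk : k = j
    · subst hk
      simp only [Matrix.mulVec, Matrix.updateRow_self, Pi.zero_apply]
      rw [single_dotProduct, hwi, mul_zero]
    · have := congrFun hw k
      simp only [Matrix.mulVec, Matrix.updateRow_ne hk] at this ⊢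
      exact this
  have hξi : ξ i ≠ 0 := fun h => hξ0 (key ξ hξ h)
  have h2 := key (ξ i • ζ - ζ i • ξ) (by
    rw [Matrix.mulVec_sub, Matrix.mulVec_smul, Matrix.mulVec_smul, hξ, hζ]; simp) (by
    simp [mul_comm])
  refine ⟨(ξ i)⁻¹ * ζ i, ?_⟩
  rw [sub_eq_zero] at h2
  calc ζ = (ξ i)⁻¹ • (ξ i • ζ) := by rw [smul_smul, inv_mul_cancel₀ hξi, one_smul]
    _ = ((ξ i)⁻¹ * ζ i) • ξ := by rw [h2, smul_smul]

/-- the adjugate of a singular Hermitian matrix is a multiple of the kernel projection -/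
theorem adj_eq (hM : M.IsHermitian) (hdet : M.det = 0) (hadj : M.adjugate ≠ 0) {ξ : Fin d → ℂ}
    (hξ1 : star ξ ⬝ᵥ ξ = 1) (hξ : M *ᵥ ξ = 0) (k j : Fin d) :
    M.adjugate k j = M.adjugate.trace * (ξ k * star (ξ j)) := by
  have hξ0 : ξ ≠ 0 := by
    rintro rfl
    simp at hξ1
  have hcol : ∀ j, ∃ c : ℂ, (fun k => M.adjugate k j) = c • ξ := by
    intro j
    refine ker_dep hadj hξ0 hξ ?_
    have h1 := Matrix.mul_adjugate M
    rw [hdet, zero_smul] at h1
    funext i
    have := congrFun (congrFun h1 i) j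
    simpa [Matrix.mul_apply, Matrix.mulVec, dotProduct] using this
  choose c hc using hcol
  have hval : ∀ k j, M.adjugate k j = c j * ξ k := by
    intro k j
    have := congrFun (hc j) k
    simpa using this
  have hherm : ∀ k j, M.adjugate k j = star (M.adjugate j k) := by
    intro k j
    have h1 : M.adjugateᴴ = M.adjugate := by
      rw [Matrix.adjugate_conjTranspose, hM]
    have := congrFun (congrFun h1 k) j
    rw [← this]
    rfl
  have htr : M.adjugate.trace = ∑ k, c k * ξ k := by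
    simp only [Matrix.trace, Matrix.diag, hval]
  have hc' : ∀ j, c j = star (ξ j) * star (∑ k, c k * ξ k) := by
    intro j
    have h1 : c j = ∑ k, star (ξ k) * (c j * ξ k) := by
      have : ∑ k, star (ξ k) * (c j * ξ k) = c j * ∑ k, star (ξ k) * ξ k := by
        rw [Finset.mul_sum]
        exact Finset.sum_congr rfl fun k _ => by ring
      rw [this]
      have h2 : ∑ k, star (ξ k) * ξ k = 1 := hξ1
      rw [h2, mul_one]
    rw [h1, star_sum, Finset.mul_sum]
    refine Finset.sum_congr rfl fun k _ => ?_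
    rw [← hval, hherm, hval, star_mul']
    simp only [star_mul']
    ring
  have htrr : star (∑ k, c k * ξ k) = ∑ k, c k * ξ k := by
    rw [← htr]
    simp only [Matrix.trace, Matrix.diag, star_sum]
    exact Finset.sum_congr rfl fun k _ => (hherm k k).symm
  rw [hval, hc' j, htrr, htr]
  ring

end Adj

variable {n d : ℕ} {p : MvPolynomial (Fin n) ℝ} {e : Fin n → ℝ}

/-- **The kernel functional.** -/
theorem kern_functional {y : Fin n → ℝ} {M : (Fin n → ℝ) → Matrix (Fin d) (Fin d) ℂ}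
    {M' : (Fin n → ℝ) → Matrix (Fin d) (Fin d) ℂ} {κ : ℝ}
    (hdet : ∀ᶠ x in 𝓝 y, ((eval x p : ℝ) : ℂ) = (κ : ℂ) * (M x).det)
    (hpsd : (M y).PosSemidef) (hy : eval y p = 0) (hs : 0 < dd p y e) (hκ : κ ≠ 0)
    (hM' : ∀ x i j, HasDerivAt (fun τ : ℝ => M (y + τ • x) i j) (M' x i j) 0)
    (hMe : M' e = 1) :
    ∃ ξ : Fin d → ℂ, star ξ ⬝ᵥ ξ = 1 ∧ M y *ᵥ ξ = 0 ∧
      ∀ x, dd p y x = dd p y e * (star ξ ⬝ᵥ (M' x *ᵥ ξ)).re := by
  have hdet0 : (M y).det = 0 := by
    have h1 := hdet.self_of_nhds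
    rw [hy, Complex.ofReal_zero] at h1
    rcases mul_eq_zero.1 h1.symm with h2 | h2
    · exact absurd (by exact_mod_cast h2) hκ
    · exact h2
  have hder : ∀ x, ((dd p y x : ℝ) : ℂ) = (κ : ℂ) * ((M y).adjugate * M' x).trace := by
    intro x
    have h1 : HasDerivAt (fun τ : ℝ => eval (y + τ • x) p) (dd p y x) 0 := by
      have h2 := hasDerivAt_eval_comp p (γ := fun τ : ℝ => y + τ • x) (γ' := x) (t0 := 0)
        (fun i => by
          have h3 : HasDerivAt (fun t : ℝ => y i + t * x i) (1 * x i) 0 :=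
            ((hasDerivAt_id (0 : ℝ)).mul_const (x i)).const_add (y i)
          simpa using h3)
      simpa only [dd, zero_smul, add_zero] using h2
    have h2 : HasDerivAt (fun τ : ℝ => ((eval (y + τ • x) p : ℝ) : ℂ)) ((dd p y x : ℝ) : ℂ) 0 :=
      h1.ofReal_comp
    have h3 : HasDerivAt (fun τ : ℝ => (κ : ℂ) * (M (y + τ • x)).det)
        ((κ : ℂ) * ((M y).adjugate * M' x).trace) 0 := by
      have h4 := (hasDerivAt_detC (N := fun τ : ℝ => M (y + τ • x)) (N' := M' x) (t := 0)
        (fun i j => hM' x i j)).const_mul (κ : ℂ)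
      simpa only [zero_smul, add_zero] using h4
    have h5 : (fun τ : ℝ => ((eval (y + τ • x) p : ℝ) : ℂ)) =ᶠ[𝓝 0]
        (fun τ : ℝ => (κ : ℂ) * (M (y + τ • x)).det) := by
      have h6 : Tendsto (fun τ : ℝ => y + τ • x) (𝓝 0) (𝓝 y) := by
        have : Continuous (fun τ : ℝ => y + τ • x) := by fun_prop
        have h7 := this.tendsto 0
        simpa using h7
      exact h6.eventually hdet
    exact h2.unique (h3.congr_of_eventuallyEq h5)
  have hadj : (M y).adjugate ≠ 0 := by
    intro h0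
    have := hder e
    rw [h0, Matrix.zero_mul, Matrix.trace_zero, mul_zero] at this
    have h1 : dd p y e = 0 := by exact_mod_cast this
    exact hs.ne' h1
  -- unit kernel vector
  obtain ⟨v, hv0, hv⟩ := Matrix.exists_mulVec_eq_zero_iff.2 hdet0
  have hvpos : 0 < star v ⬝ᵥ v := Matrix.dotProduct_star_self_pos_iff.2 hv0
  have hvre := Complex.lt_def.1 hvpos
  simp only [Complex.zero_re, Complex.zero_im] at hvre
  set r : ℝ := (star v ⬝ᵥ v).re with hr
  have hrv : star v ⬝ᵥ v = (r : ℂ) := by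
    apply Complex.ext
    · simp [hr]
    · simp [hvre.2.symm]
  set s : ℝ := (Real.sqrt r)⁻¹ with hsdef
  have hs2 : s * s * r = 1 := by
    rw [hsdef, ← mul_inv, Real.mul_self_sqrt hvre.1.le, inv_mul_cancel₀ hvre.1.ne']
  refine ⟨(s : ℂ) • v, ?_, ?_, ?_⟩
  · rw [star_smul, smul_dotProduct, dotProduct_smul, hrv]
    simp only [Complex.star_def, Complex.conj_ofReal, smul_eq_mul]
    rw [← mul_assoc]
    exact_mod_cast hs2
  · rw [Matrix.mulVec_smul, hv, smul_zero]
  · intro x
    have hξ1 : star ((s : ℂ) • v) ⬝ᵥ ((s : ℂ) • v) = 1 := by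
      rw [star_smul, smul_dotProduct, dotProduct_smul, hrv]
      simp only [Complex.star_def, Complex.conj_ofReal, smul_eq_mul]
      rw [← mul_assoc]
      exact_mod_cast hs2
    have hξ : M y *ᵥ ((s : ℂ) • v) = 0 := by rw [Matrix.mulVec_smul, hv, smul_zero]
    set ξ : Fin d → ℂ := (s : ℂ) • v with hξdef
    have hA := adj_eq hpsd.1 hdet0 hadj hξ1 hξ
    have htr : ∀ N : Matrix (Fin d) (Fin d) ℂ,
        ((M y).adjugate * N).trace = (M y).adjugate.trace * (star ξ ⬝ᵥ (N *ᵥ ξ)) := by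
      intro N
      have e1 : ((M y).adjugate * N).trace = ∑ k, ∑ j, (M y).adjugate k j * N j k := by
        simp only [Matrix.trace, Matrix.diag, Matrix.mul_apply]
      have e2 : star ξ ⬝ᵥ (N *ᵥ ξ) = ∑ j, ∑ k, star (ξ j) * (N j k * ξ k) := by
        simp only [dotProduct, Matrix.mulVec, Pi.star_apply, Finset.mul_sum]
      rw [e1, e2, Finset.sum_comm, Finset.mul_sum]
      refine Finset.sum_congr rfl fun j _ => ?_
      rw [Finset.mul_sum]
      refine Finset.sum_congr rfl fun k _ => ?_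
      rw [hA k j]; ring
    have h1 := hder x
    have h2 := hder e
    rw [hMe, Matrix.mul_one] at h2
    rw [htr] at h1
    have h3 : ((dd p y x : ℝ) : ℂ) = ((dd p y e : ℝ) : ℂ) * (star ξ ⬝ᵥ (M' x *ᵥ ξ)) := by
      rw [h1, h2]; ring
    have h4 := congrArg Complex.re h3
    rw [Complex.ofReal_re, Complex.re_ofReal_mul] at h4
    exact h4

end Vale.Agent.P256.H387
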