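import Vale.Agent.P256.H387.Four
import Vale.Agent.P256.H387.Kern
import Vale.Agent.P256.H387.Calc

/-! Interface for the four-variable theorem: the class `NK` of Nash functions, real symmetric
pencils `IsPen` of a hyperbolic polynomial, kernel-level representations `KRep` (base `f`) and
`KRepZ` (base `z`), the geometric context `Ctx`, frames and coordinates, the cone `Kz`. -/

set_option linter.all false

namespace Vale.Agent.P256.H387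

open MvPolynomial Filter Topology Matrix Vale.Agent.P256 Vale.Agent.P256.H326

/-! ### functions of one variable with a second order kernel calculus -/

/-- `φ` (with derivative `φ'`) has a kernel calculus of second order at `0` -/
structure NK (φ φ' : ℝ → ℝ) : Prop where
  cont : ContinuousAt φ 0
  cont' : ContinuousAt φ' 0
  der : ∀ᶠ s in 𝓝 (0 : ℝ), HasDerivAt φ (φ' s) s
  ker : ∀ {L X : Type} {F : Filter L} {V : Filter X} {a : L → ℝ} {a' : X → ℝ},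
    Tendsto a F (𝓝 0) → Tendsto a' V (𝓝 0) → ∃ C : ℝ, 0 ≤ C ∧
      SLe F V (fun l x => (φ (a' x) - φ (a l)) ^ 2) (fun l x => C * (a' x - a l) ^ 2) ∧
      SLe F V (fun l x => φ (a' x) - φ (a l) - (a' x - a l) * φ' (a l))
        (fun l x => C * (a' x - a l) ^ 2) ∧
      SLe F V (fun l x => -(φ (a' x) - φ (a l) - (a' x - a l) * φ' (a l)))
        (fun l x => C * (a' x - a l) ^ 2)

/-! ### real symmetric pencils -/

section Pencil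

variable {ι : Type} [Fintype ι] [DecidableEq ι]

/-- `G(s) = G₀ + s G₁ + s² H(s)` -/
def Gs (G0 G1 : Matrix ι ι ℝ) (H : ℝ → Matrix ι ι ℝ) (s : ℝ) : Matrix ι ι ℝ :=
  G0 + s • G1 + s ^ 2 • H s

/-- the derivative of `G` -/
def DGs (G1 : Matrix ι ι ℝ) (H DH : ℝ → Matrix ι ι ℝ) (s : ℝ) : Matrix ι ι ℝ :=
  G1 + (2 * s) • H s + s ^ 2 • DH s

/-- the pencil `x₀ + b B + G(s)` -/
def Mf (B G0 G1 : Matrix ι ι ℝ) (H : ℝ → Matrix ι ι ℝ) (x0 b s : ℝ) : Matrix ι ι ℝ :=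
  x0 • (1 : Matrix ι ι ℝ) + b • B + Gs G0 G1 H s

/-- the pencil `x₀ + b B + h G(s)` -/
def Pn (B G0 G1 : Matrix ι ι ℝ) (H : ℝ → Matrix ι ι ℝ) (x0 b h s : ℝ) : Matrix ι ι ℝ :=
  x0 • (1 : Matrix ι ι ℝ) + b • B + h • Gs G0 G1 H s

/-- the directional derivative of the pencil at `(x₀, b, h, s)` in the direction of the point
`(x₀', b', h', s')` -/
def DPn (B G0 G1 : Matrix ι ι ℝ) (H DH : ℝ → Matrix ι ι ℝ) (s x0' b' h' s' : ℝ) : Matrix ι ι ℝ :=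
  x0' • (1 : Matrix ι ι ℝ) + b' • B + h' • (Gs G0 G1 H s + (s' - s) • DGs G1 H DH s)

/-- `x₀ + b B + h G(s)`, `G(s) = G₀ + s G₁ + s² H(s)`, is a real symmetric pencil for `p` on the
three-dimensional spaces spanned by `e`, `f`, `k + s g` (`s` near `0`): base `f`. -/
structure IsPen {n : ℕ} (p : MvPolynomial (Fin n) ℝ) (e f g k : Fin n → ℝ)
    (B G0 G1 : Matrix ι ι ℝ) (H DH : ℝ → Matrix ι ι ℝ) : Prop where
  symB : B.IsHermitian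
  sym0 : G0.IsHermitian
  sym1 : G1.IsHermitian
  symH : ∀ s, (H s).IsHermitian
  symDH : ∀ s, (DH s).IsHermitian
  nk : ∀ i j, NK (fun s => H s i j) (fun s => DH s i j)
  det_eq : ∀ᶠ s in 𝓝 (0 : ℝ), ∀ x0 b h : ℝ,
    eval (x0 • e + b • f + h • (k + s • g)) p ^ 2 =
      eval e p ^ 2 * (Pn B G0 G1 H x0 b h s).det
  psd : ∀ᶠ s in 𝓝 (0 : ℝ), ∀ x0 b h : ℝ,
    (x0 • e + b • f + h • (k + s • g) ∈ hypCone p e ↔ (Pn B G0 G1 H x0 b h s).PosSemidef)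
  kern : ∀ᶠ s in 𝓝 (0 : ℝ), ∀ x0 b h : ℝ, 0 < h →
    x0 • e + b • f + h • (k + s • g) ∈ hypCone p e →
    eval (x0 • e + b • f + h • (k + s • g)) p = 0 →
    0 < dd p (x0 • e + b • f + h • (k + s • g)) e →
    ∃ ξ : ι → ℝ, ξ ⬝ᵥ ξ = 1 ∧ Pn B G0 G1 H x0 b h s *ᵥ ξ = 0 ∧
      ∀ x0' b' h' s' : ℝ,
        dd p (x0 • e + b • f + h • (k + s • g)) (x0' • e + b' • f + h' • (k + s' • g)) =
          dd p (x0 • e + b • f + h • (k + s • g)) e *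
            (ξ ⬝ᵥ (DPn B G0 G1 H DH s x0' b' h' s' *ᵥ ξ))

end Pencil

/-! ### kernel-level representations -/

/-- coordinates of the two sides: `l ↔ z + x₀ e + b f + a w`, `x ↔ c' (z + y₀ e + b' f + a' w)` -/
structure Crd (L X : Type) where
  x0 : L → ℝ
  b : L → ℝ
  a : L → ℝ
  y0 : X → ℝ
  b' : X → ℝ
  a' : X → ℝ
  c' : X → ℝ

namespace Crd

variable {L X : Type} (K : Crd L X)

/-- `y₀ - x₀` -/
def t (l : L) (x : X) : ℝ := K.y0 x - K.x0 l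

/-- `b' - b` -/
def Z (l : L) (x : X) : ℝ := K.b' x - K.b l

/-- `a' - a` -/
def α (l : L) (x : X) : ℝ := K.a' x - K.a l

end Crd

/-- **Representation with base `f`**: `M = x₀ + b B + G(a)`, `G(a) = D + a G₁ + a² H(a)`, `D ≥ 0`;
`ξ` the kernel vector of the `L`-side, normalised by `⟨ξ₀, ξ⟩ = 1`. -/
structure KRep (ι : Type) [Fintype ι] [DecidableEq ι] {L X : Type} (F : Filter L) (V : Filter X)
    (S : L → X → ℝ) (K : Crd L X) where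
  B : Matrix ι ι ℝ
  D : Matrix ι ι ℝ
  G1 : Matrix ι ι ℝ
  H : ℝ → Matrix ι ι ℝ
  DH : ℝ → Matrix ι ι ℝ
  ξ : L → ι → ℝ
  ξ0 : ι → ℝ
  symB : B.IsHermitian
  psdD : D.PosSemidef
  sym1 : G1.IsHermitian
  symH : ∀ s, (H s).IsHermitian
  symDH : ∀ s, (DH s).IsHermitian
  nk : ∀ i j, NK (fun s => H s i j) (fun s => DH s i j)
  tx0 : Tendsto K.x0 F (𝓝 0)
  tb : Tendsto K.b F (𝓝 0)
  ta : Tendsto K.a F (𝓝 0)
  ty0 : Tendsto K.y0 V (𝓝 0)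
  tb' : Tendsto K.b' V (𝓝 0)
  ta' : Tendsto K.a' V (𝓝 0)
  tc' : Tendsto K.c' V (𝓝 1)
  x0_nonneg : ∀ᶠ l in F, 0 ≤ K.x0 l
  y0_nonneg : ∀ᶠ x in V, 0 ≤ K.y0 x
  psdL : ∀ᶠ l in F, (Mf B D G1 H (K.x0 l) (K.b l) (K.a l)).PosSemidef
  psdX : ∀ᶠ x in V, (Mf B D G1 H (K.y0 x) (K.b' x) (K.a' x)).PosSemidef
  tξ : ∀ i, Tendsto (fun l => ξ l i) F (𝓝 (ξ0 i))
  nrm0 : ξ0 ⬝ᵥ ξ0 = 1
  nrm : ∀ᶠ l in F, ξ0 ⬝ᵥ ξ l = 1
  ker : ∀ᶠ l in F, Mf B D G1 H (K.x0 l) (K.b l) (K.a l) *ᵥ ξ l = 0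
  B00 : ξ0 ⬝ᵥ (B *ᵥ ξ0) = 0
  G00 : ξ0 ⬝ᵥ (G1 *ᵥ ξ0) = 0
  S_eq : EqF F V (fun l x => (ξ l ⬝ᵥ ξ l) * S l x) (fun l x => K.c' x *
    (ξ l ⬝ᵥ ((K.y0 x • (1 : Matrix ι ι ℝ) + K.b' x • B + (Gs D G1 H (K.a l) +
      (K.a' x - K.a l) • DGs G1 H DH (K.a l))) *ᵥ ξ l)))

/-- **Representation with base `z`**: `M = x₀ + D + h G(s)`, `G(s) = A₀ + s A₁ + s² H(s)`,
`h = b`, `s = a / b`; gauge: the block of `H` on `ker D` vanishes. -/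
structure KRepZ (ι : Type) [Fintype ι] [DecidableEq ι] {L X : Type} (F : Filter L) (V : Filter X)
    (S : L → X → ℝ) (K : Crd L X) where
  D : Matrix ι ι ℝ
  A0 : Matrix ι ι ℝ
  A1 : Matrix ι ι ℝ
  H : ℝ → Matrix ι ι ℝ
  DH : ℝ → Matrix ι ι ℝ
  ξ : L → ι → ℝ
  ξ0 : ι → ℝ
  psdD : D.PosSemidef
  sym0 : A0.IsHermitian
  sym1 : A1.IsHermitian
  symH : ∀ s, (H s).IsHermitian
  symDH : ∀ s, (DH s).IsHermitian
  nk : ∀ i j, NK (fun s => H s i j) (fun s => DH s i j)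
  aff : ∀ s, ∀ u v : ι → ℝ, D *ᵥ u = 0 → D *ᵥ v = 0 → u ⬝ᵥ (H s *ᵥ v) = 0
  tx0 : Tendsto K.x0 F (𝓝 0)
  tb : Tendsto K.b F (𝓝 0)
  ty0 : Tendsto K.y0 V (𝓝 0)
  tb' : Tendsto K.b' V (𝓝 0)
  tc' : Tendsto K.c' V (𝓝 1)
  b_pos : ∀ᶠ l in F, 0 < K.b l
  b'_pos : ∀ᶠ x in V, 0 < K.b' x
  ts : Tendsto (fun l => K.a l / K.b l) F (𝓝 0)
  ts' : Tendsto (fun x => K.a' x / K.b' x) V (𝓝 0)
  x0_nonneg : ∀ᶠ l in F, 0 ≤ K.x0 l
  y0_nonneg : ∀ᶠ x in V, 0 ≤ K.y0 x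
  psdL : ∀ᶠ l in F, (Pn D A0 A1 H (K.x0 l) 1 (K.b l) (K.a l / K.b l)).PosSemidef
  psdX : ∀ᶠ x in V, (Pn D A0 A1 H (K.y0 x) 1 (K.b' x) (K.a' x / K.b' x)).PosSemidef
  tξ : ∀ i, Tendsto (fun l => ξ l i) F (𝓝 (ξ0 i))
  nrm0 : ξ0 ⬝ᵥ ξ0 = 1
  nrm : ∀ᶠ l in F, ξ0 ⬝ᵥ ξ l = 1
  ker : ∀ᶠ l in F, Pn D A0 A1 H (K.x0 l) 1 (K.b l) (K.a l / K.b l) *ᵥ ξ l = 0
  S_eq : EqF F V (fun l x => (ξ l ⬝ᵥ ξ l) * S l x) (fun l x => K.c' x *
    (ξ l ⬝ᵥ (DPn D A0 A1 H DH (K.a l / K.b l) (K.y0 x) 1 (K.b' x) (K.a' x / K.b' x) *ᵥ ξ l)))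

/-! ### the geometric context -/

/-- a pair of ultrafilters of smooth boundary points converging to the singular point `z`; `ζ` is
the limit of the normalised functionals -/
structure Ctx (p : MvPolynomial (Fin 4) ℝ) (e z : Fin 4 → ℝ) (U V : Ultrafilter (Fin 4 → ℝ))
    (ζ : (Fin 4 → ℝ) →ₗ[ℝ] ℝ) : Prop where
  hyp : IsHyperbolic p e
  irr : Irreducible p
  pt : ∀ x ∈ hypCone p e, -x ∈ hypCone p e → x = 0
  hz : z ∈ bdT p e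
  hz0 : dd p z e = 0
  hU : (U : Filter (Fin 4 → ℝ)) ≤ 𝓝 z
  hV : (V : Filter (Fin 4 → ℝ)) ≤ 𝓝 z
  sU : smT p e ∈ U
  sV : smT p e ∈ V
  lim : ∀ x, Tendsto (fun y => dd p y x / dd p y e) (U : Filter (Fin 4 → ℝ)) (𝓝 (ζ x))

/-- the normalised slack kernel -/
noncomputable def sl (p : MvPolynomial (Fin 4) ℝ) (e : Fin 4 → ℝ) (y x : Fin 4 → ℝ) : ℝ :=
  dd p y x / dd p y e

/-- frames `z, e, f, w` with `f, w` in the kernel of `ζ` -/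
structure Fr (e z : Fin 4 → ℝ) (ζ : (Fin 4 → ℝ) →ₗ[ℝ] ℝ) (f w : Fin 4 → ℝ) : Prop where
  li : LinearIndependent ℝ ![z, e, f, w]
  ζf : ζ f = 0
  ζw : ζ w = 0

/-- the coordinates in the frame: `y = co 0 z + co 1 e + co 2 f + co 3 w` -/
noncomputable def co (e z f w y : Fin 4 → ℝ) : Fin 4 → ℝ :=
  ((Matrix.of ![z, e, f, w])ᵀ)⁻¹ *ᵥ y

/-- the projective coordinates in the frame -/
noncomputable def crd (e z f w : Fin 4 → ℝ) : Crd (Fin 4 → ℝ) (Fin 4 → ℝ) where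
  x0 := fun y => co e z f w y 1 / co e z f w y 0
  b := fun y => co e z f w y 2 / co e z f w y 0
  a := fun y => co e z f w y 3 / co e z f w y 0
  y0 := fun y => co e z f w y 1 / co e z f w y 0
  b' := fun y => co e z f w y 2 / co e z f w y 0
  a' := fun y => co e z f w y 3 / co e z f w y 0
  c' := fun y => co e z f w y 0

/-- the tangent cone at `z` (modulo `z`) -/
def Kz {n : ℕ} (p : MvPolynomial (Fin n) ℝ) (e z : Fin n → ℝ) : Set (Fin n → ℝ) :=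
  {v | ∀ ε : ℝ, 0 < ε → ∀ᶠ τ in 𝓝[>] (0 : ℝ), z + τ • (v + ε • e) ∈ hypCone p e}

/-- flatness inequality: `S + δ (t² + Z² + α²) ≥ c (α² + t²)` for all `δ > 0` -/
def Star {L X : Type} (F : Filter L) (V : Filter X) (S : L → X → ℝ) (K : Crd L X) : Prop :=
  ∃ c : ℝ, 0 < c ∧ ∀ δ : ℝ, 0 < δ → SosF F V (fun l x => S l x +
    δ * (K.t l x ^ 2 + K.Z l x ^ 2 + K.α l x ^ 2) - c * (K.t l x ^ 2 + K.α l x ^ 2))

end Vale.Agent.P256.H387
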