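import Vale.Agent.P256.H326.Ultra

/-! The matrix criterion (LMR) for sums of squares of kernels: if a kernel is
`ξ(l)ᵀ M(x) ξ(l) - Σ e_ab d_a d_b` with `M(x)` positive semidefinite and `M(x) ξ(l) = Σ d_a A_a`,
then it is a sum of squares along the filters as soon as the limit form
`⟨u, M₀⁺ u⟩ - e₀` (`u = Σ w_a α_a`) is positive on the common kernel of the syzygies. -/

set_option linter.all false

namespace Vale.Agent.P256.H387

open Filter Topology Matrix Vale.Agent.P256 Vale.Agent.P256.H326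

variable {L X : Type*} {F : Filter L} {G : Filter X}

section Aux

variable {ι : Type*} [Fintype ι]

theorem dot_mulVec_eq (M : Matrix ι ι ℝ) (u v : ι → ℝ) :
    u ⬝ᵥ (M *ᵥ v) = ∑ i, ∑ j, M i j * u i * v j := by
  simp only [dotProduct, Matrix.mulVec, Finset.mul_sum]
  refine Finset.sum_congr rfl fun i _ => Finset.sum_congr rfl fun j _ => ?_
  ring

theorem psd_nonneg {M : Matrix ι ι ℝ} (h : M.PosSemidef) (v : ι → ℝ) : 0 ≤ v ⬝ᵥ (M *ᵥ v) := by
  have := h.dotProduct_mulVec_nonneg v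
  simpa using this

theorem herm_swap {M : Matrix ι ι ℝ} (h : M.IsHermitian) (u v : ι → ℝ) :
    u ⬝ᵥ (M *ᵥ v) = v ⬝ᵥ (M *ᵥ u) := by
  rw [dot_mulVec_eq, dot_mulVec_eq, Finset.sum_comm]
  refine Finset.sum_congr rfl fun i _ => Finset.sum_congr rfl fun j _ => ?_
  have : M j i = M i j := by
    have := congrFun (congrFun h i) j
    simpa using this
  rw [this]; ring

/-- `2⟨u,Mv⟩ ≤ ⟨u,Mu⟩ + ⟨v,Mv⟩` -/
theorem psd_cs {M : Matrix ι ι ℝ} (h : M.PosSemidef) (u v : ι → ℝ) :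
    2 * (u ⬝ᵥ (M *ᵥ v)) ≤ u ⬝ᵥ (M *ᵥ u) + v ⬝ᵥ (M *ᵥ v) := by
  have h1 := psd_nonneg h (u - v)
  have h2 := herm_swap h.1 v u
  rw [Matrix.mulVec_sub, sub_dotProduct, dotProduct_sub, dotProduct_sub] at h1
  linarith

variable [DecidableEq ι]

/-- `A - A B⁻¹ A` is positive semidefinite if `0 ≤ A ≤ B`, `B` positive definite -/
theorem psd_sub_inv {A B : Matrix ι ι ℝ} (hA : A.PosSemidef) (hB : B.PosDef)
    (hAB : ∀ v : ι → ℝ, v ⬝ᵥ (A *ᵥ v) ≤ v ⬝ᵥ (B *ᵥ v)) :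
    (A - A * B⁻¹ * A).PosSemidef := by
  have hBi : B⁻¹.IsHermitian := hB.1.inv
  refine Matrix.PosSemidef.of_dotProduct_mulVec_nonneg ?_ (fun v => ?_)
  · refine hA.1.sub ?_
    show (A * B⁻¹ * A)ᴴ = A * B⁻¹ * A
    rw [Matrix.conjTranspose_mul, Matrix.conjTranspose_mul, hA.1, hBi, Matrix.mul_assoc]
  · have hunit : IsUnit B.det := (Matrix.isUnit_iff_isUnit_det B).1 hB.isUnit
    set u : ι → ℝ := B⁻¹ *ᵥ (A *ᵥ v) with hu
    have hBu : B *ᵥ u = A *ᵥ v := by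
      rw [hu, Matrix.mulVec_mulVec, Matrix.mul_nonsing_inv _ hunit, Matrix.one_mulVec]
    have e1 : v ⬝ᵥ ((A * B⁻¹ * A) *ᵥ v) = u ⬝ᵥ (B *ᵥ u) := by
      rw [← Matrix.mulVec_mulVec, ← Matrix.mulVec_mulVec, ← hu, hBu, herm_swap hA.1]
    have e2 := psd_cs hA u v
    have e3 := hAB u
    have e4 : u ⬝ᵥ (A *ᵥ v) = u ⬝ᵥ (B *ᵥ u) := by rw [hBu]
    show 0 ≤ star v ⬝ᵥ ((A - A * B⁻¹ * A) *ᵥ v)
    rw [star_trivial, Matrix.sub_mulVec, dotProduct_sub, e1]
    linarith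

end Aux

/-- a positive semidefinite matrix function of one variable at a vector function of the other
variable is a sum of squares -/
theorem sosF_psd {ι : Type*} [Fintype ι] {M : X → Matrix ι ι ℝ}
    (hM : ∀ᶠ x in G, (M x).PosSemidef) (ξ : L → ι → ℝ) :
    SosF F G (fun l x => ∑ i, ∑ j, M x i j * ξ l i * ξ l j) := by
  classical
  have hc : ∀ x, ∃ B : Matrix ι ι ℝ, (M x).PosSemidef → M x = Bᵀ * B := by
    intro x
    by_cases h : (M x).PosSemidef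
    · obtain ⟨B, hB⟩ := psd_factor h
      exact ⟨B, fun _ => hB⟩
    · exact ⟨0, fun h' => absurd h' h⟩
  choose B hB using hc
  have h1 : SosF F G (fun l x => ∑ k, (∑ i, B x k i * ξ l i) ^ 2) := by
    refine SosF.sum _ fun k _ => SosF.sq ?_
    refine FR.sum _ fun i _ => ?_
    exact (FR.mulfun (fun l => ξ l i) (fun x => B x k i)).congr fun l x => by ring
  refine h1.congr (EqF.of_eventually (fun _ => True) (fun x => (M x).PosSemidef) (by simp) hM ?_)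
  intro l x _ hx
  have e1 : ∀ i j, M x i j = ∑ k, B x k i * B x k j := by
    intro i j
    have := congrFun (congrFun (hB x hx) i) j
    rw [this, Matrix.mul_apply]
    rfl
  have e2 : ∀ k, (∑ i, B x k i * ξ l i) ^ 2 =
      ∑ i, ∑ j, (B x k i * B x k j) * ξ l i * ξ l j := by
    intro k
    rw [sq, Finset.sum_mul_sum]
    refine Finset.sum_congr rfl fun i _ => Finset.sum_congr rfl fun j _ => ?_
    ring
  symm
  rw [Finset.sum_congr rfl (fun k _ => e2 k), Finset.sum_comm]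
  refine Finset.sum_congr rfl fun i _ => ?_
  rw [Finset.sum_comm]
  refine Finset.sum_congr rfl fun j _ => ?_
  rw [e1, Finset.sum_mul, Finset.sum_mul]

/-- entrywise convergence gives `M x ≤ M₀ + ε` eventually -/
theorem eventually_le_add {ι : Type*} [Fintype ι] [DecidableEq ι] {M : X → Matrix ι ι ℝ}
    {M0 : Matrix ι ι ℝ} (hM0 : ∀ i j, Tendsto (fun x => M x i j) G (𝓝 (M0 i j))) {ε : ℝ}
    (hε : 0 < ε) :
    ∀ᶠ x in G, ∀ v : ι → ℝ, v ⬝ᵥ (M x *ᵥ v) ≤ v ⬝ᵥ ((M0 + ε • (1 : Matrix ι ι ℝ)) *ᵥ v) := by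
  set δ : ℝ := ε / ((Fintype.card ι : ℝ) + 1) with hδ
  have hc : (0 : ℝ) < (Fintype.card ι : ℝ) + 1 := by positivity
  have hδpos : 0 < δ := div_pos hε hc
  have h1 : ∀ᶠ x in G, ∀ i j, |M x i j - M0 i j| < δ := by
    rw [eventually_all]; intro i
    rw [eventually_all]; intro j
    have := (hM0 i j).sub_const (M0 i j)
    rw [sub_self] at this
    have h2 := this.abs
    rw [abs_zero] at h2
    exact h2.eventually_lt_const hδpos
  filter_upwards [h1] with x hx v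
  have e1 : v ⬝ᵥ ((M0 + ε • (1 : Matrix ι ι ℝ)) *ᵥ v) =
      v ⬝ᵥ (M0 *ᵥ v) + ε * ∑ i, v i ^ 2 := by
    rw [Matrix.add_mulVec, dotProduct_add, Matrix.smul_mulVec, Matrix.one_mulVec,
      dotProduct_smul, smul_eq_mul]
    congr 2
    simp only [dotProduct]
    exact Finset.sum_congr rfl fun i _ => by ring
  rw [e1, dot_mulVec_eq, dot_mulVec_eq]
  have e2 : ∑ i, ∑ j, M x i j * v i * v j - ∑ i, ∑ j, M0 i j * v i * v j =
      ∑ i, ∑ j, (M x i j - M0 i j) * v i * v j := by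
    simp only [← Finset.sum_sub_distrib]
    refine Finset.sum_congr rfl fun i _ => Finset.sum_congr rfl fun j _ => ?_
    ring
  have e3 : ∑ i, ∑ j, (M x i j - M0 i j) * v i * v j ≤
      ∑ i, ∑ j, δ * ((v i ^ 2 + v j ^ 2) / 2) := by
    refine Finset.sum_le_sum fun i _ => Finset.sum_le_sum fun j _ => ?_
    have h2 := abs_le.1 (hx i j).le
    have h3 : |v i * v j| ≤ (v i ^ 2 + v j ^ 2) / 2 := by
      rw [abs_le]; constructor <;> nlinarith [sq_nonneg (v i + v j), sq_nonneg (v i - v j)]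
    calc (M x i j - M0 i j) * v i * v j = (M x i j - M0 i j) * (v i * v j) := by ring
      _ ≤ |(M x i j - M0 i j) * (v i * v j)| := le_abs_self _
      _ = |M x i j - M0 i j| * |v i * v j| := abs_mul _ _
      _ ≤ δ * ((v i ^ 2 + v j ^ 2) / 2) :=
        mul_le_mul (hx i j).le h3 (abs_nonneg _) hδpos.le
  have e4 : ∑ i, ∑ j, δ * ((v i ^ 2 + v j ^ 2) / 2) = δ * (Fintype.card ι : ℝ) * ∑ i, v i ^ 2 := by
    have : ∀ i, ∑ j, δ * ((v i ^ 2 + v j ^ 2) / 2) =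
        δ / 2 * (Fintype.card ι : ℝ) * v i ^ 2 + δ / 2 * ∑ j, v j ^ 2 := by
      intro i
      rw [← Finset.mul_sum, ← Finset.sum_div, Finset.sum_add_distrib, Finset.sum_const,
        Finset.card_univ, nsmul_eq_mul]
      ring
    rw [Finset.sum_congr rfl (fun i _ => this i), Finset.sum_add_distrib, ← Finset.mul_sum,
      Finset.sum_const, Finset.card_univ, nsmul_eq_mul]
    ring
  have e5 : δ * (Fintype.card ι : ℝ) * ∑ i, v i ^ 2 ≤ ε * ∑ i, v i ^ 2 := by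
    refine mul_le_mul_of_nonneg_right ?_ (Finset.sum_nonneg fun i _ => sq_nonneg _)
    rw [hδ, div_mul_eq_mul_div, div_le_iff₀ hc]
    nlinarith
  linarith

theorem posDef_add {ι : Type*} [Fintype ι] [DecidableEq ι] {M0 : Matrix ι ι ℝ}
    (h0 : M0.PosSemidef) {ε : ℝ} (hε : 0 < ε) : (M0 + ε • (1 : Matrix ι ι ℝ)).PosDef := by
  refine Matrix.PosDef.posSemidef_add h0 ?_
  exact Matrix.PosDef.one.smul hε

/-- **k-trick**: `ξᵀMξ - Uᵀ(M₀+ε)⁻¹U` is SOS, `U = M(x) ξ(l)` -/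
theorem sosF_sub_inv {ι : Type*} [Fintype ι] [DecidableEq ι] {M : X → Matrix ι ι ℝ}
    {M0 : Matrix ι ι ℝ} (hM : ∀ᶠ x in G, (M x).PosSemidef) (h0 : M0.PosSemidef)
    (hM0 : ∀ i j, Tendsto (fun x => M x i j) G (𝓝 (M0 i j))) {ε : ℝ}
    (hε : 0 < ε) (ξ : L → ι → ℝ) :
    SosF F G (fun l x => ∑ i, ∑ j, M x i j * ξ l i * ξ l j -
      ∑ i, ∑ j, (M0 + ε • (1 : Matrix ι ι ℝ))⁻¹ i j * (M x *ᵥ ξ l) i * (M x *ᵥ ξ l) j) := by
  have hB := posDef_add h0 hε
  set B := M0 + ε • (1 : Matrix ι ι ℝ) with hBdef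
  have h1 : ∀ᶠ x in G, (M x - M x * B⁻¹ * M x).PosSemidef := by
    filter_upwards [hM, eventually_le_add hM0 hε] with x hx hx'
    exact psd_sub_inv hx hB hx'
  refine (sosF_psd (F := F) h1 ξ).congr
    (EqF.of_eventually (fun _ => True) (fun x => (M x).PosSemidef) (by simp) hM ?_)
  intro l x _ hx
  rw [← dot_mulVec_eq, ← dot_mulVec_eq, ← dot_mulVec_eq, Matrix.sub_mulVec, dotProduct_sub,
    ← Matrix.mulVec_mulVec, ← Matrix.mulVec_mulVec]
  congr 1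
  rw [herm_swap hx.1]
  exact dotProduct_comm _ _

/-- the same with an arbitrary (possibly unbounded) weight depending on `x` -/
theorem sosF_sub_weight {ι : Type*} [Fintype ι] {M Q : X → Matrix ι ι ℝ}
    (hM : ∀ᶠ x in G, (M x).IsHermitian) (hQ : ∀ᶠ x in G, (M x - M x * Q x * M x).PosSemidef)
    (ξ : L → ι → ℝ) :
    SosF F G (fun l x => ∑ i, ∑ j, M x i j * ξ l i * ξ l j -
      ∑ i, ∑ j, Q x i j * (M x *ᵥ ξ l) i * (M x *ᵥ ξ l) j) := by
  refine (sosF_psd (F := F) hQ ξ).congr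
    (EqF.of_eventually (fun _ => True) (fun x => (M x).IsHermitian) (by simp) hM ?_)
  intro l x _ hx
  rw [← dot_mulVec_eq, ← dot_mulVec_eq, ← dot_mulVec_eq, Matrix.sub_mulVec, dotProduct_sub,
    ← Matrix.mulVec_mulVec, ← Matrix.mulVec_mulVec]
  congr 1
  rw [herm_swap hx]
  exact dotProduct_comm _ _

/-- monotone limit of `⟨u,(M₀+ε)⁻¹u⟩` -/
theorem inv_form_ge {ι : Type*} [Fintype ι] [DecidableEq ι] {B : Matrix ι ι ℝ} (hB : B.PosDef)
    (u q : ι → ℝ) : 2 * (q ⬝ᵥ u) - q ⬝ᵥ (B *ᵥ q) ≤ u ⬝ᵥ (B⁻¹ *ᵥ u) := by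
  have hunit : IsUnit B.det := (Matrix.isUnit_iff_isUnit_det B).1 hB.isUnit
  set v : ι → ℝ := B⁻¹ *ᵥ u with hv
  have hBv : B *ᵥ v = u := by
    rw [hv, Matrix.mulVec_mulVec, Matrix.mul_nonsing_inv _ hunit, Matrix.one_mulVec]
  have h1 := psd_cs hB.posSemidef q v
  rw [hBv] at h1
  have h2 : v ⬝ᵥ u = u ⬝ᵥ v := dotProduct_comm _ _
  rw [h2] at h1
  linarith

theorem quad_expand {ι κ : Type*} [Fintype ι] [Fintype κ] (Q : ι → ι → ℝ) (w : κ → ℝ)
    (α : κ → ι → ℝ) :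
    ∑ i, ∑ j, Q i j * (∑ a, w a * α a i) * (∑ b, w b * α b j) =
      ∑ a, ∑ b, (∑ i, ∑ j, Q i j * α a i * α b j) * w a * w b := by
  have h1 : ∀ i j, Q i j * (∑ a, w a * α a i) * (∑ b, w b * α b j) =
      ∑ a, ∑ b, (Q i j * α a i * α b j) * w a * w b := by
    intro i j
    rw [mul_assoc, Finset.sum_mul_sum, Finset.mul_sum]
    refine Finset.sum_congr rfl fun a _ => ?_
    rw [Finset.mul_sum]
    refine Finset.sum_congr rfl fun b _ => ?_
    ring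
  have h2 : ∀ a b, (∑ i, ∑ j, Q i j * α a i * α b j) * w a * w b =
      ∑ i, ∑ j, (Q i j * α a i * α b j) * w a * w b := by
    intro a b
    simp only [Finset.sum_mul]
  simp only [h1, h2]
  calc ∑ i, ∑ j, ∑ a, ∑ b, (Q i j * α a i * α b j) * w a * w b
      = ∑ p : ι × ι, ∑ q : κ × κ, (Q p.1 p.2 * α q.1 p.1 * α q.2 p.2) * w q.1 * w q.2 := by
        simp only [Fintype.sum_prod_type]
    _ = ∑ q : κ × κ, ∑ p : ι × ι, (Q p.1 p.2 * α q.1 p.1 * α q.2 p.2) * w q.1 * w q.2 :=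
        Finset.sum_comm
    _ = _ := by simp only [Fintype.sum_prod_type]

/-- **The matrix criterion.** -/
theorem sosF_lmr {ι κ σ : Type*} [Fintype ι] [Fintype κ] [Fintype σ] [DecidableEq ι]
    {M : X → Matrix ι ι ℝ} {M0 : Matrix ι ι ℝ}
    (hM : ∀ᶠ x in G, (M x).PosSemidef) (h0 : M0.PosSemidef)
    (hM0 : ∀ i j, Tendsto (fun x => M x i j) G (𝓝 (M0 i j)))
    (ξ : L → ι → ℝ) {d : κ → L → X → ℝ} (hd : ∀ a, FR (d a))
    {A : κ → ι → L → X → ℝ} {α : κ → ι → ℝ} (hA : ∀ a i, GermFR F G (A a i) (α a i))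
    (hU : ∀ i, EqF F G (fun l x => (M x *ᵥ ξ l) i) (fun l x => ∑ a, d a l x * A a i l x))
    {e : κ → κ → L → X → ℝ} {e0 : κ → κ → ℝ} (he : ∀ a b, GermFR F G (e a b) (e0 a b))
    {R : σ → κ → L → X → ℝ} {ρ : σ → κ → ℝ} (hR : ∀ k j, GermFR F G (R k j) (ρ k j))
    (hs : ∀ k, EqF F G (fun l x => ∑ j, R k j l x * d j l x) (fun _ _ => 0))
    (hpos : ∀ w : κ → ℝ, w ≠ 0 → (∀ k, ∑ j, ρ k j * w j = 0) →
      ∃ q : ι → ℝ, ∑ a, ∑ b, e0 a b * w a * w b <
        2 * ∑ i, q i * ∑ a, w a * α a i - ∑ i, ∑ j, M0 i j * q i * q j)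
    {S : L → X → ℝ}
    (hS : EqF F G S (fun l x => ∑ i, ∑ j, M x i j * ξ l i * ξ l j -
      ∑ a, ∑ b, e a b l x * d a l x * d b l x)) :
    SosF F G S := by
  classical
  -- the limit form with parameter ε
  let B : ℝ → Matrix ι ι ℝ := fun ε => M0 + ε • (1 : Matrix ι ι ℝ)
  let u : (κ → ℝ) → ι → ℝ := fun w i => ∑ a, w a * α a i
  let E : (κ → ℝ) → ℝ := fun w => ∑ a, ∑ b, e0 a b * w a * w b
  let Φ : ℝ → (κ → ℝ) → ℝ := fun ε w => u w ⬝ᵥ ((B ε)⁻¹ *ᵥ u w) - E w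
  have hucont : Continuous u := by
    refine continuous_pi fun i => ?_
    show Continuous fun w : κ → ℝ => ∑ a, w a * α a i
    fun_prop
  have hEcont : Continuous E := by
    show Continuous fun w : κ → ℝ => ∑ a, ∑ b, e0 a b * w a * w b
    fun_prop
  have hΦcont : ∀ ε, Continuous (Φ ε) := by
    intro ε
    have h1 : Continuous fun w => (B ε)⁻¹ *ᵥ u w := Continuous.matrix_mulVec continuous_const hucont
    exact (Continuous.dotProduct hucont h1).sub hEcont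
  have hmono : ∀ ε ε' : ℝ, 0 < ε' → ε' ≤ ε → ∀ w, Φ ε w ≤ Φ ε' w := by
    intro ε ε' hε' hle w
    have hB := posDef_add h0 (hε'.trans_le hle)
    have hB' := posDef_add h0 hε'
    have hunit : IsUnit (B ε).det := (Matrix.isUnit_iff_isUnit_det _).1 hB.isUnit
    set q : ι → ℝ := (B ε)⁻¹ *ᵥ u w with hq
    have hBq : B ε *ᵥ q = u w := by
      rw [hq, Matrix.mulVec_mulVec, Matrix.mul_nonsing_inv _ hunit, Matrix.one_mulVec]
    have h1 := inv_form_ge hB' (u w) q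
    have h2 : q ⬝ᵥ (B ε' *ᵥ q) ≤ q ⬝ᵥ (B ε *ᵥ q) := by
      have e1 : ∀ t : ℝ, q ⬝ᵥ (B t *ᵥ q) = q ⬝ᵥ (M0 *ᵥ q) + t * (q ⬝ᵥ q) := by
        intro t
        show q ⬝ᵥ ((M0 + t • (1 : Matrix ι ι ℝ)) *ᵥ q) = _
        rw [Matrix.add_mulVec, dotProduct_add, Matrix.smul_mulVec, Matrix.one_mulVec,
          dotProduct_smul, smul_eq_mul]
      rw [e1, e1]
      have : 0 ≤ q ⬝ᵥ q := by
        simp only [dotProduct]
        exact Finset.sum_nonneg fun i _ => mul_self_nonneg _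
      nlinarith
    have h3 : u w ⬝ᵥ ((B ε)⁻¹ *ᵥ u w) = q ⬝ᵥ u w := by rw [← hq]; exact dotProduct_comm _ _
    rw [hBq] at h2
    show u w ⬝ᵥ ((B ε)⁻¹ *ᵥ u w) - E w ≤ u w ⬝ᵥ ((B ε')⁻¹ *ᵥ u w) - E w
    rw [h3]
    linarith
  -- compact set
  let Kset : Set (κ → ℝ) := {w | ∑ i, w i ^ 2 = 1 ∧ ∀ k, ∑ j, ρ k j * w j = 0}
  have hKc : IsCompact Kset := by
    have hclosed : IsClosed Kset := by
      refine IsClosed.inter (isClosed_eq (by fun_prop) continuous_const) ?_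
      have : {w : κ → ℝ | ∀ k, ∑ j, ρ k j * w j = 0} = ⋂ k, {w | ∑ j, ρ k j * w j = 0} := by
        ext w; simp
      rw [show (fun w : κ → ℝ => ∀ k, ∑ j, ρ k j * w j = 0) =
        (fun w => w ∈ ⋂ k, {w : κ → ℝ | ∑ j, ρ k j * w j = 0}) from by ext w; simp]
      exact isClosed_iInter fun k => isClosed_eq (by fun_prop) continuous_const
    have hbdd : Kset ⊆ Metric.closedBall 0 1 := by
      intro w hw
      rw [mem_closedBall_zero_iff, pi_norm_le_iff_of_nonneg zero_le_one]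
      intro i
      rw [Real.norm_eq_abs, abs_le_one_iff_mul_self_le_one]
      have h1 : w i ^ 2 ≤ ∑ j, w j ^ 2 :=
        Finset.single_le_sum (f := fun j => w j ^ 2) (fun j _ => sq_nonneg _) (Finset.mem_univ i)
      have h2 : ∑ j, w j ^ 2 = 1 := hw.1
      nlinarith
    exact (isCompact_closedBall (0 : κ → ℝ) 1).of_isClosed_subset hclosed hbdd
  have hcov : ∃ n : ℕ, ∀ w ∈ Kset, 0 < Φ (1 / ((n : ℝ) + 1)) w := by
    have hsub : Kset ⊆ ⋃ n : ℕ, {w | 0 < Φ (1 / ((n : ℝ) + 1)) w} := by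
      intro w hw
      have hw0 : w ≠ 0 := by
        rintro rfl
        have : ∑ i : κ, (0 : κ → ℝ) i ^ 2 = 1 := hw.1
        simp at this
      obtain ⟨q, hq⟩ := hpos w hw0 hw.2
      have e1 : ∑ i, q i * ∑ a, w a * α a i = q ⬝ᵥ u w := rfl
      rw [← dot_mulVec_eq, e1] at hq
      have ht : Tendsto (fun n : ℕ => 1 / ((n : ℝ) + 1) * (q ⬝ᵥ q)) atTop (𝓝 0) := by
        have := tendsto_one_div_add_atTop_nhds_zero_nat (𝕜 := ℝ)
        simpa using this.mul_const (q ⬝ᵥ q)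
      have hpos' : 0 < 2 * (q ⬝ᵥ u w) - q ⬝ᵥ (M0 *ᵥ q) - E w := by
        have : E w = ∑ a, ∑ b, e0 a b * w a * w b := rfl
        linarith
      obtain ⟨n, hn⟩ := (ht.eventually_lt_const hpos').exists
      refine Set.mem_iUnion.2 ⟨n, ?_⟩
      have hn0 : (0 : ℝ) < 1 / ((n : ℝ) + 1) := by positivity
      have h1 := inv_form_ge (posDef_add h0 hn0) (u w) q
      rw [Matrix.add_mulVec, dotProduct_add, Matrix.smul_mulVec, Matrix.one_mulVec,
        dotProduct_smul, smul_eq_mul] at h1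
      show 0 < u w ⬝ᵥ ((B _)⁻¹ *ᵥ u w) - E w
      have h1' : 2 * (q ⬝ᵥ u w) - (q ⬝ᵥ (M0 *ᵥ q) + 1 / ((n : ℝ) + 1) * (q ⬝ᵥ q)) ≤
        u w ⬝ᵥ ((B (1 / ((n : ℝ) + 1)))⁻¹ *ᵥ u w) := h1
      linarith
    have hdir : Directed (· ⊆ ·) (fun n : ℕ => {w : κ → ℝ | 0 < Φ (1 / ((n : ℝ) + 1)) w}) := by
      refine directed_of_isDirected_le ?_
      intro n m hnm w hw
      have h1 : (0 : ℝ) < 1 / ((m : ℝ) + 1) := by positivity
      have h2 : 1 / ((m : ℝ) + 1) ≤ 1 / ((n : ℝ) + 1) := by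
        refine one_div_le_one_div_of_le (by positivity) ?_
        have : (n : ℝ) ≤ m := by exact_mod_cast hnm
        linarith
      exact lt_of_lt_of_le hw (hmono _ _ h1 h2 w)
    obtain ⟨n, hn⟩ := hKc.elim_directed_cover _
      (fun n => isOpen_lt continuous_const (hΦcont _)) hsub hdir
    exact ⟨n, fun w hw => hn hw⟩
  obtain ⟨n, hn⟩ := hcov
  set ε : ℝ := 1 / ((n : ℝ) + 1) with hε
  have hεpos : 0 < ε := by positivity
  set Q : Matrix ι ι ℝ := (M0 + ε • (1 : Matrix ι ι ℝ))⁻¹ with hQ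
  have hposall : ∀ w : κ → ℝ, w ≠ 0 → (∀ k, ∑ j, ρ k j * w j = 0) →
      0 < ∑ a, ∑ b, (∑ i, ∑ j, Q i j * α a i * α b j - e0 a b) * w a * w b := by
    intro w hw hk
    -- normalize
    have hform : ∀ w : κ → ℝ, ∑ a, ∑ b, (∑ i, ∑ j, Q i j * α a i * α b j - e0 a b) * w a * w b =
        Φ ε w := by
      intro w
      have e1 : u w ⬝ᵥ (Q *ᵥ u w) = ∑ a, ∑ b, (∑ i, ∑ j, Q i j * α a i * α b j) * w a * w b := by
        rw [dot_mulVec_eq]
        exact quad_expand (fun i j => Q i j) w α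
      show _ = u w ⬝ᵥ (Q *ᵥ u w) - E w
      rw [e1]
      show _ = _ - ∑ a, ∑ b, e0 a b * w a * w b
      simp only [← Finset.sum_sub_distrib]
      refine Finset.sum_congr rfl fun a _ => Finset.sum_congr rfl fun b _ => ?_
      ring
    have hsq : 0 < ∑ i, w i ^ 2 := by
      obtain ⟨i, hi⟩ := Function.ne_iff.1 hw
      have h1 : w i ^ 2 ≤ ∑ j, w j ^ 2 :=
        Finset.single_le_sum (f := fun j => w j ^ 2) (fun j _ => sq_nonneg _) (Finset.mem_univ i)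
      have h2 : 0 < w i ^ 2 := by
        have : w i ≠ 0 := by simpa using hi
        positivity
      linarith
    set t : ℝ := (Real.sqrt (∑ i, w i ^ 2))⁻¹ with ht
    have htpos : 0 < t := inv_pos.2 (Real.sqrt_pos.2 hsq)
    have ht2 : t ^ 2 * ∑ i, w i ^ 2 = 1 := by
      rw [ht, inv_pow, Real.sq_sqrt hsq.le, inv_mul_cancel₀ hsq.ne']
    have hmem : (t • w) ∈ Kset := by
      refine ⟨?_, fun k => ?_⟩
      · have : ∀ i, (t • w) i ^ 2 = t ^ 2 * w i ^ 2 := by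
          intro i; rw [Pi.smul_apply, smul_eq_mul, mul_pow]
        rw [Finset.sum_congr rfl (fun i _ => this i), ← Finset.mul_sum, ht2]
      · have : ∑ j, ρ k j * (t • w) j = t * ∑ j, ρ k j * w j := by
          rw [Finset.mul_sum]
          refine Finset.sum_congr rfl fun j _ => ?_
          rw [Pi.smul_apply, smul_eq_mul]; ring
        rw [this, hk k, mul_zero]
    have h1 := hn _ hmem
    rw [← hform] at h1
    have h2 : ∑ a, ∑ b, (∑ i, ∑ j, Q i j * α a i * α b j - e0 a b) * (t • w) a * (t • w) b =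
        t ^ 2 * ∑ a, ∑ b, (∑ i, ∑ j, Q i j * α a i * α b j - e0 a b) * w a * w b := by
      simp only [Pi.smul_apply, smul_eq_mul, Finset.mul_sum]
      refine Finset.sum_congr rfl fun a _ => Finset.sum_congr rfl fun b _ => ?_
      ring
    rw [h2] at h1
    exact (pos_iff_pos_of_mul_pos h1).1 (by positivity)
  have hsos1 := sosF_sub_inv (F := F) hM h0 hM0 hεpos ξ
  rw [← hQ] at hsos1
  have hsos2 := sosF_of_syzygy (F := F) (G := G) (f := d) hd
    (M := fun a b l x => ∑ i, ∑ j, Q i j * A a i l x * A b j l x - e a b l x)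
    (C := fun a b => ∑ i, ∑ j, Q i j * α a i * α b j - e0 a b)
    (fun a b => GermFR.sub (GermFR.sum _ fun i _ => GermFR.sum _ fun j _ =>
      ((hA a i).smul (Q i j)).mul (hA b j)) (he a b)) hR hs hposall
  refine (hsos1.add hsos2).congr (hS.trans ?_)
  have hU' : ∃ A1 ∈ F, ∃ B1 ∈ G, ∀ l ∈ A1, ∀ x ∈ B1, ∀ i,
      (M x *ᵥ ξ l) i = ∑ a, d a l x * A a i l x := by
    choose A1 hA1 B1 hB1 eq1 using hU
    refine ⟨⋂ i, A1 i, iInter_mem.2 hA1, ⋂ i, B1 i, iInter_mem.2 hB1, fun l hl x hx i => ?_⟩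
    exact eq1 i l (Set.mem_iInter.1 hl i) x (Set.mem_iInter.1 hx i)
  obtain ⟨A1, hA1, B1, hB1, eq1⟩ := hU'
  refine ⟨A1, hA1, B1, hB1, fun l hl x hx => ?_⟩
  have e1 : ∑ i, ∑ j, Q i j * (M x *ᵥ ξ l) i * (M x *ᵥ ξ l) j =
      ∑ a, ∑ b, (∑ i, ∑ j, Q i j * A a i l x * A b j l x) * d a l x * d b l x := by
    rw [← quad_expand (fun i j => Q i j) (fun a => d a l x) (fun a i => A a i l x)]
    refine Finset.sum_congr rfl fun i _ => Finset.sum_congr rfl fun j _ => ?_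
    rw [eq1 l hl x hx i, eq1 l hl x hx j]
  have e2 : ∑ a, ∑ b, (∑ i, ∑ j, Q i j * A a i l x * A b j l x - e a b l x) *
      d a l x * d b l x =
      ∑ a, ∑ b, (∑ i, ∑ j, Q i j * A a i l x * A b j l x) * d a l x * d b l x -
      ∑ a, ∑ b, e a b l x * d a l x * d b l x := by
    simp only [← Finset.sum_sub_distrib]
    refine Finset.sum_congr rfl fun a _ => Finset.sum_congr rfl fun b _ => ?_
    ring
  show ∑ i, ∑ j, M x i j * ξ l i * ξ l j - ∑ a, ∑ b, e a b l x * d a l x * d b l x =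
    ∑ i, ∑ j, M x i j * ξ l i * ξ l j - ∑ i, ∑ j, Q i j * (M x *ᵥ ξ l) i * (M x *ᵥ ξ l) j +
    ∑ a, ∑ b, (∑ i, ∑ j, Q i j * A a i l x * A b j l x - e a b l x) * d a l x * d b l x
  rw [e2, e1]
  ring

end Vale.Agent.P256.H387
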