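import Vale.Agent.P256.H387.Dense
import Vale.Agent.P256.H326.Ultra
import Vale.Agent.P256.C5.OrdLin

/-! The general frame: to show that a hyperbolicity cone is a spectrahedral shadow it is enough to
treat pairs of ultrafilters on the smooth boundary points, converging to the same boundary point,
for the irreducible factors reduced modulo their lineality spaces. -/

set_option linter.all false

namespace Vale.Agent.P256.H387

open MvPolynomial Filter Topology Vale.Agent.P256 Vale.Agent.P256.H326

variable {n : ℕ} {p : MvPolynomial (Fin n) ℝ} {e : Fin n → ℝ}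

/-- a sum of squares representation of a bounded kernel extends to the closure -/
theorem sosOn_closure_right {L X : Type*} [TopologicalSpace X] {S : Set L} {T : Set X}
    {h : L → X → ℝ} (H : SosOn S T h) {c : ℝ} (hb : ∀ l ∈ S, ∀ x ∈ T, |h l x| ≤ c)
    (hc : ∀ l ∈ S, Continuous (h l)) : SosOn S (closure T) h := by
  classical
  obtain ⟨h', ⟨m, g, hg, hh'⟩, he⟩ := H
  have hgb : ∀ k : Fin m, ∀ l ∈ S, ∀ x ∈ T, |g k l x| ≤ Real.sqrt c := by
    intro k l hl x hx
    apply Real.abs_le_sqrt
    have h1 := hb l hl x hx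
    rw [he l hl x hx, hh'] at h1
    exact (Finset.single_le_sum (f := fun k => g k l x ^ 2) (fun _ _ => sq_nonneg _)
      (Finset.mem_univ k)).trans ((le_abs_self _).trans h1)
  have hrep := fun k => bounded_factors (A := S) (B := T) (hg k) (hgb k)
  choose N a f c' e1 e2 e3 using hrep
  -- ultrafilters converging to points of the closure
  have hU : ∀ x : X, ∃ U : Ultrafilter X, x ∈ closure T → T ∈ U ∧ (U : Filter X) ≤ 𝓝 x := by
    intro x
    by_cases hx : x ∈ closure T
    · obtain ⟨U, hU1, hU2⟩ := mem_closure_iff_ultrafilter.1 hx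
      exact ⟨U, fun _ => ⟨hU1, hU2⟩⟩
    · exact ⟨pure x, fun h => absurd h hx⟩
  choose U hU using hU
  have hlim : ∀ (x : X) (k : Fin m) (i : Fin (N k)), ∃ b : ℝ, x ∈ closure T →
      Tendsto (f k i) (U x) (𝓝 b) := by
    intro x k i
    by_cases hx : x ∈ closure T
    · obtain ⟨b, -, hb⟩ := exists_tendsto (U x) (a := f k i) (c := c' k) (by
        filter_upwards [(hU x hx).1] with z hz
        exact e3 k i z hz)
      exact ⟨b, fun _ => hb⟩
    · exact ⟨0, fun h => absurd h hx⟩
  choose b hb' using hlim
  refine ⟨fun l x => ∑ k, (∑ i, a k i l * b x k i) ^ 2,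
    ⟨m, fun k l x => ∑ i, a k i l * b x k i, fun k => ⟨N k, a k, fun i x => b x k i,
      fun l x => rfl⟩, fun l x => rfl⟩, fun l hl x hx => ?_⟩
  have t1 : Tendsto (fun z => h l z) (U x) (𝓝 (h l x)) :=
    ((hc l hl).tendsto x).mono_left (hU x hx).2
  have t2 : Tendsto (fun z => ∑ k, (∑ i, a k i l * f k i z) ^ 2) (U x)
      (𝓝 (∑ k, (∑ i, a k i l * b x k i) ^ 2)) :=
    tendsto_finset_sum _ fun k _ => (tendsto_finset_sum _ fun i _ =>
      (hb' x k i hx).const_mul _).pow 2
  refine tendsto_nhds_unique (t1.congr' ?_) t2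
  filter_upwards [(hU x hx).1] with z hz
  rw [he l hl z hz, hh']
  exact Finset.sum_congr rfl fun k _ => by rw [e1 k l hl z hz]

/-- the smooth boundary points on the unit sphere -/
def smT (p : MvPolynomial (Fin n) ℝ) (e : Fin n → ℝ) : Set (Fin n → ℝ) :=
  {y | y ∈ bdT p e ∧ 0 < dd p y e}

/-- at each pair of ultrafilters of smooth boundary points with a common limit the slack kernel
is a sum of squares -/
def UltraSos (p : MvPolynomial (Fin n) ℝ) (e : Fin n → ℝ) : Prop :=
  ∀ z ∈ bdT p e, ∀ U V : Ultrafilter (Fin n → ℝ), (U : Filter (Fin n → ℝ)) ≤ 𝓝 z →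
    (V : Filter (Fin n → ℝ)) ≤ 𝓝 z → smT p e ∈ U → smT p e ∈ V →
    SosF (U : Filter (Fin n → ℝ)) (V : Filter (Fin n → ℝ)) (fun y x => dd p y x)

theorem continuous_dd2 (p : MvPolynomial (Fin n) ℝ) :
    Continuous (fun w : (Fin n → ℝ) × (Fin n → ℝ) => dd p w.1 w.2) := by
  have h1 : (fun w : (Fin n → ℝ) × (Fin n → ℝ) => dd p w.1 w.2) =
      fun w => ∑ i, eval w.1 (pderiv i p) * w.2 i := by
    funext w
    exact dd_eq p w.1 w.2
  rw [h1]
  refine continuous_finset_sum _ fun i _ => ?_
  exact ((continuous_eval (pderiv i p)).comp continuous_fst).mul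
    ((continuous_apply i).comp continuous_snd)

/-- **Frame, irreducible pointed case.** -/
theorem shadow_of_ultra (hn : 3 ≤ n) (hp : IsHyperbolic p e)
    (hpt : ∀ x, x ∈ hypCone p e → -x ∈ hypCone p e → x = 0) (hirr : Irreducible p)
    (H : UltraSos p e) : IsSpectrahedralShadow (hypCone p e) := by
  have hdense := dense_smooth hp hirr
  refine localize_dense hp hn hpt (eval_zero_of_irreducible hp hirr) hdense fun z hz => ?_
  obtain ⟨A, hA, B, hB, s⟩ := sosOn_of_ultra_filter (E := 𝓝 z) (E' := 𝓝 z) (S := smT p e)
    (T := smT p e) (h := fun y x => dd p y x)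
    (fun U V hU hU' hV hV' => H z hz U V hU hV hU' hV')
  obtain ⟨c, hc⟩ := ((isCompact_bdT hp).prod (isCompact_bdT hp)).exists_bound_of_continuousOn
    (continuous_dd2 p).continuousOn
  have s2 : SosOn (A ∩ smT p e) (closure (B ∩ smT p e)) (fun y x => dd p y x) := by
    refine sosOn_closure_right s (c := c) (fun l hl x hx => ?_) fun l hl => ?_
    · have := hc (l, x) ⟨hl.2.1, hx.2.1⟩
      simpa using this
    · have h1 := (continuous_dd2 p).comp (Continuous.prodMk_right l)
      exact h1
  refine ⟨A ∩ interior B, inter_mem hA (interior_mem_nhds.2 hB), ?_⟩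
  refine s2.mono (fun y hy => ⟨hy.1.1, hy.2⟩) (fun x hx => ?_)
  rw [mem_closure_iff_nhds]
  intro W hW
  obtain ⟨y', hy', hy1⟩ := hdense x hx.2 (W ∩ interior B)
    (inter_mem hW (isOpen_interior.mem_nhds hx.1.2))
  exact ⟨y', hy'.1.1, interior_subset hy'.1.2, hy'.2, hy1⟩

/-- **Frame, general case.** -/
theorem main_ultra (hp : IsHyperbolic p e)
    (H : ∀ (m : ℕ) (A : (Fin n → ℝ) →ₗ[ℝ] (Fin m → ℝ)) (q : MvPolynomial (Fin m) ℝ)
      (r : MvPolynomial (Fin n) ℝ), 3 ≤ m → m ≤ n → Function.Surjective A →
      (∀ x, eval x p = eval (A x) q * eval x r) → IsHyperbolic q (A e) → Irreducible q →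
      (∀ x ∈ hypCone q (A e), -x ∈ hypCone q (A e) → x = 0) → UltraSos q (A e)) :
    GShad (hypCone p e) := by
  refine shad_of_irreducible hp fun q r hqr hirr hq => ?_
  -- remove the lineality space
  have key : ∀ (m : ℕ) (A : (Fin n → ℝ) →ₗ[ℝ] (Fin m → ℝ)) (q : MvPolynomial (Fin m) ℝ),
      m ≤ n → Function.Surjective A → (∀ x, eval x p = eval (A x) q * eval x r) →
      IsHyperbolic q (A e) → Irreducible q → GShad (hypCone q (A e)) := by
    intro m
    induction m with
    | zero =>
      intro A q hm hA hqr hq hirr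
      exact shadow_of_le_two hq (by omega)
    | succ m ih =>
      intro A q hm hA hqr hq hirr
      by_cases hm3 : m + 1 ≤ 2
      · exact shadow_of_le_two hq hm3
      by_cases hpt : ∀ x ∈ hypCone q (A e), -x ∈ hypCone q (A e) → x = 0
      · exact GShad.of_shadow (shadow_of_ultra (by omega) hq hpt hirr
          (H (m + 1) A q r (by omega) hm hA hqr hq hirr hpt))
      · push Not at hpt
        obtain ⟨v, hv, hv', hv0⟩ := hpt
        obtain ⟨d, hd⟩ := hq.1
        obtain ⟨B, q', hq', hqh, hB, hBs⟩ :=
          lineality_reduction_surj hq hd hv0 (eval_add_of_lin hq hv hv')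
        rw [hypCone_comp B hB]
        refine GShad.preimage ?_ B
        refine ih (B.comp A) q' (by omega) (hBs.comp hA) (fun x => ?_) hqh ?_
        · rw [hqr, hB]
          rfl
        · -- irreducibility passes to the quotient
          have hpull : ∃ φ : MvPolynomial (Fin m) ℝ →ₐ[ℝ] MvPolynomial (Fin (m + 1)) ℝ,
              ∀ (f : MvPolynomial (Fin m) ℝ) (x : Fin (m + 1) → ℝ),
                eval x (φ f) = eval (B x) f := by
            refine ⟨aeval fun j => ∑ i, C (B (Pi.single i 1) j) * X i, fun f x => ?_⟩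
            rw [lr_eval_aeval]
            congr 2
            funext j
            have h2 : B x = ∑ i, x i • B (Pi.single i 1) := by
              conv_lhs => rw [show x = ∑ i, x i • (Pi.single i (1 : ℝ) : Fin (m + 1) → ℝ) by
                ext i; simp [Finset.sum_apply, Pi.single_apply]]
              rw [map_sum]
              exact Finset.sum_congr rfl fun i _ => map_smul B _ _
            rw [h2]
            simp only [map_sum, map_mul, eval_C, eval_X, Finset.sum_apply, Pi.smul_apply,
              smul_eq_mul]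
            exact Finset.sum_congr rfl fun i _ => mul_comm _ _
          obtain ⟨φ, hφ⟩ := hpull
          have hqφ : q = φ q' := MvPolynomial.funext fun x => by rw [hφ, hB]
          have hunit : ∀ f : MvPolynomial (Fin m) ℝ, IsUnit (φ f) → IsUnit f := by
            intro f hf
            obtain ⟨c, hc0, hc⟩ := (MvPolynomial.isUnit_iff_eq_C_of_isReduced).1 hf
            have : f = C c := by
              apply MvPolynomial.funext
              intro y
              obtain ⟨x, rfl⟩ := hBs y
              rw [← hφ, hc, eval_C, eval_C]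
            rw [this]
            exact hc0.map C
          constructor
          · intro hu
            exact hirr.not_isUnit (by rw [hqφ]; exact hu.map φ)
          · intro a b hab
            rcases hirr.isUnit_or_isUnit (show q = φ a * φ b by rw [← map_mul, ← hab, hqφ])
              with h | h
            · exact Or.inl (hunit a h)
            · exact Or.inr (hunit b h)
  have h1 := key n LinearMap.id q le_rfl Function.surjective_id
    (fun x => by rw [hqr, map_mul]; rfl) hq hirr
  exact h1

end Vale.Agent.P256.H387
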