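import Vale.Agent.P256.H387.Rep

/-! Frames in the kernel of the limit functional; the theorem in at most four variables follows
from the statement on a pair of ultrafilters. -/

set_option linter.all false

namespace Vale.Agent.P256.H387

open MvPolynomial Filter Topology Matrix Vale.Agent.P256 Vale.Agent.P256.H326

section Frames

variable {e z : Fin 4 → ℝ} {ζ : (Fin 4 → ℝ) →ₗ[ℝ] ℝ}

theorem finrank_ker_ζ (he : ζ e = 1) : Module.finrank ℝ (LinearMap.ker ζ) = 3 := by
  have h1 := LinearMap.finrank_range_add_finrank_ker ζ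
  have h2 : LinearMap.range ζ = ⊤ := by
    rw [LinearMap.range_eq_top]
    intro r
    exact ⟨r • e, by rw [map_smul, he, smul_eq_mul, mul_one]⟩
  rw [h2, finrank_top, Module.finrank_self, Module.finrank_fin_fun] at h1
  omega

/-- extension to a frame -/
theorem exists_frame_of (he : ζ e = 1) (hz : ζ z = 0) {f : Fin 4 → ℝ} (hf : ζ f = 0)
    (hzf : LinearIndependent ℝ ![z, f]) : ∃ w, Fr e z ζ f w := by
  -- a vector of the kernel outside the span
  have h1 : ∃ w ∈ LinearMap.ker ζ, w ∉ Submodule.span ℝ (Set.range ![z, f]) := by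
    by_contra hcon
    push Not at hcon
    have h2 : LinearMap.ker ζ ≤ Submodule.span ℝ (Set.range ![z, f]) := hcon
    have h3 := Submodule.finrank_mono h2
    rw [finrank_ker_ζ he, finrank_span_eq_card hzf] at h3
    simp at h3
  obtain ⟨w, hw, hws⟩ := h1
  refine ⟨w, ?_, hf, hw⟩
  rw [Fintype.linearIndependent_iff]
  intro c hc
  rw [Fin.sum_univ_four] at hc
  have hc' : c 0 • z + c 1 • e + c 2 • f + c 3 • w = 0 := hc
  have hw0 : ζ w = 0 := hw
  have h2 := congrArg ζ hc'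
  rw [map_add, map_add, map_add, map_smul, map_smul, map_smul, map_smul, hz, he, hf, hw0,
    map_zero] at h2
  have hc1 : c 1 = 0 := by simpa using h2
  rw [hc1, zero_smul, add_zero] at hc'
  have hc3 : c 3 = 0 := by
    by_contra h3
    apply hws
    have h4 : w = (-(c 3)⁻¹ * c 0) • z + (-(c 3)⁻¹ * c 2) • f := by
      have h5 : c 3 • w = -(c 0 • z + c 2 • f) := by
        rw [eq_neg_iff_add_eq_zero, add_comm]
        exact hc'
      calc w = (c 3)⁻¹ • (c 3 • w) := by rw [smul_smul, inv_mul_cancel₀ h3, one_smul]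
        _ = _ := by rw [h5]; module
    rw [h4]
    refine Submodule.add_mem _ (Submodule.smul_mem _ _ (Submodule.subset_span ⟨0, rfl⟩))
      (Submodule.smul_mem _ _ (Submodule.subset_span ⟨1, rfl⟩))
  rw [hc3, zero_smul, add_zero] at hc'
  have h6 := Fintype.linearIndependent_iff.1 hzf ![c 0, c 2] (by
    rw [Fin.sum_univ_two]
    exact hc')
  have h7 : c 0 = 0 := h6 0
  have h8 : c 2 = 0 := h6 1
  intro i
  fin_cases i
  · exact h7
  · exact hc1
  · exact h8
  · exact hc3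

theorem exists_frame (he : ζ e = 1) (hz : ζ z = 0) (hz0 : z ≠ 0) : ∃ f w, Fr e z ζ f w := by
  have h1 : ∃ f ∈ LinearMap.ker ζ, f ∉ Submodule.span ℝ {z} := by
    by_contra hcon
    push Not at hcon
    have h2 : LinearMap.ker ζ ≤ Submodule.span ℝ {z} := hcon
    have h3 := Submodule.finrank_mono h2
    rw [finrank_ker_ζ he, finrank_span_singleton hz0] at h3
    omega
  obtain ⟨f, hf, hfs⟩ := h1
  have hzf : LinearIndependent ℝ ![z, f] := by
    rw [LinearIndependent.pair_iff' hz0]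
    intro c hc
    exact hfs (Submodule.mem_span_singleton.2 ⟨c, hc⟩)
  obtain ⟨w, hw⟩ := exists_frame_of he hz hf hzf
  exact ⟨f, w, hw⟩

end Frames

theorem Ctx.z_ne {p : MvPolynomial (Fin 4) ℝ} {e z : Fin 4 → ℝ}
    {U V : Ultrafilter (Fin 4 → ℝ)} {ζ : (Fin 4 → ℝ) →ₗ[ℝ] ℝ} (C : Ctx p e z U V ζ) :
    z ≠ 0 := by
  rintro rfl
  have := C.hz.2.2
  simp at this

theorem Ctx.exists_frame {p : MvPolynomial (Fin 4) ℝ} {e z : Fin 4 → ℝ}
    {U V : Ultrafilter (Fin 4 → ℝ)} {ζ : (Fin 4 → ℝ) →ₗ[ℝ] ℝ} (C : Ctx p e z U V ζ) :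
    ∃ f w, Fr e z ζ f w := H387.exists_frame C.ζe C.ζz C.z_ne

/-- the local statement from the statement in the context -/
theorem localAt_of_ctx {q : MvPolynomial (Fin 4) ℝ} {e : Fin 4 → ℝ} (hq : IsHyperbolic q e)
    (hirr : Irreducible q) (hpt : ∀ x ∈ hypCone q e, -x ∈ hypCone q e → x = 0)
    (H : ∀ (z : Fin 4 → ℝ) (U V : Ultrafilter (Fin 4 → ℝ)) (ζ : (Fin 4 → ℝ) →ₗ[ℝ] ℝ),
      Ctx q e z U V ζ → SosF (U : Filter (Fin 4 → ℝ)) (V : Filter (Fin 4 → ℝ)) (sl q e)) :
    LocalAt q e := by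
  intro z hz hz0 U V hU hV hUs hVs
  obtain ⟨ζ, hζ⟩ := exists_zeta hq U hUs
  have C : Ctx q e z U V ζ :=
    { hyp := hq, irr := hirr, pt := hpt, hz := hz, hz0 := hz0, hU := hU, hV := hV, sU := hUs
      sV := hVs, lim := hζ }
  exact C.sosF_dd (H z U V ζ C)

/-- **At most four variables.** -/
theorem top4 (H : ∀ (q : MvPolynomial (Fin 4) ℝ) (e z : Fin 4 → ℝ)
    (U V : Ultrafilter (Fin 4 → ℝ)) (ζ : (Fin 4 → ℝ) →ₗ[ℝ] ℝ), Ctx q e z U V ζ →
      SosF (U : Filter (Fin 4 → ℝ)) (V : Filter (Fin 4 → ℝ)) (sl q e))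
    {n : ℕ} (hn : n ≤ 4) {p : MvPolynomial (Fin n) ℝ} {e : Fin n → ℝ} (hp : IsHyperbolic p e) :
    IsSpectrahedralShadow (hypCone p e) := by
  have h : n ≤ 2 ∨ n = 3 ∨ n = 4 := by omega
  rcases h with h | rfl | rfl
  · exact GShad.shadow (shadow_of_le_two hp h)
  · exact GShad.shadow (gshad_three hp)
  · exact n4_of_local hp fun q e' hq hirr hpt =>
      localAt_of_ctx hq hirr hpt fun z U V ζ C => H q e' z U V ζ C

end Vale.Agent.P256.H387
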