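import Vale.Agent.P256.H387.CtxF

/-! Kernel-level representations from a pencil of the polynomial: `IsPen` + `Ctx` + `Fr` gives
`KRep` (base `f`) and `KRepZ` (base `z`). -/

set_option linter.all false

namespace Vale.Agent.P256.H387

open MvPolynomial Filter Topology Matrix Vale.Agent.P256 Vale.Agent.P256.H326

section Lim

variable {ι : Type} [Fintype ι] [DecidableEq ι]

theorem exists_unit_lim {Z : Type*} (U : Ultrafilter Z) (v : Z → ι → ℝ)
    (h : ∀ᶠ y in (U : Filter Z), v y ⬝ᵥ v y = 1) :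
    ∃ v0 : ι → ℝ, (∀ i, Tendsto (fun y => v y i) (U : Filter Z) (𝓝 (v0 i))) ∧
      v0 ⬝ᵥ v0 = 1 := by
  have h1 : ∀ i, ∃ b : ℝ, Tendsto (fun y => v y i) (U : Filter Z) (𝓝 b) := by
    intro i
    obtain ⟨b, -, hb⟩ := exists_tendsto U (a := fun y => v y i) (c := 1) (by
      filter_upwards [h] with y hy
      have h2 : v y i * v y i ≤ v y ⬝ᵥ v y :=
        Finset.single_le_sum (f := fun j => v y j * v y j) (fun j _ => mul_self_nonneg _)
          (Finset.mem_univ i)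
      rw [hy] at h2
      rw [abs_le_one_iff_mul_self_le_one]
      exact h2)
    exact ⟨b, hb⟩
  choose v0 hv0 using h1
  refine ⟨v0, hv0, ?_⟩
  have h2 : Tendsto (fun y => v y ⬝ᵥ v y) (U : Filter Z) (𝓝 (v0 ⬝ᵥ v0)) :=
    tendsto_finset_sum _ fun i _ => (hv0 i).mul (hv0 i)
  exact tendsto_nhds_unique h2 (tendsto_const_nhds.congr' (h.mono fun y hy => hy.symm))

variable {Z : Type*} {W : Filter Z} {s : Z → ℝ} {G0 G1 : Matrix ι ι ℝ}
  {H DH : ℝ → Matrix ι ι ℝ}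

theorem tendsto_Gs (nk : ∀ i j, NK (fun s => H s i j) (fun s => DH s i j))
    (hs : Tendsto s W (𝓝 0)) (i j : ι) :
    Tendsto (fun y => Gs G0 G1 H (s y) i j) W (𝓝 (G0 i j)) := by
  have h1 : Tendsto (fun y => H (s y) i j) W (𝓝 (H 0 i j)) := (nk i j).cont.tendsto.comp hs
  have h2 : Tendsto (fun y => G0 i j + s y * G1 i j + s y ^ 2 * H (s y) i j) W
      (𝓝 (G0 i j + 0 * G1 i j + 0 ^ 2 * H 0 i j)) :=
    (tendsto_const_nhds.add (hs.mul_const _)).add ((hs.pow 2).mul h1)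
  have e1 : G0 i j + 0 * G1 i j + 0 ^ 2 * H 0 i j = G0 i j := by ring
  rw [e1] at h2
  exact h2

theorem tendsto_DGs (nk : ∀ i j, NK (fun s => H s i j) (fun s => DH s i j))
    (hs : Tendsto s W (𝓝 0)) (i j : ι) :
    Tendsto (fun y => DGs G1 H DH (s y) i j) W (𝓝 (G1 i j)) := by
  have h1 : Tendsto (fun y => H (s y) i j) W (𝓝 (H 0 i j)) := (nk i j).cont.tendsto.comp hs
  have h3 : Tendsto (fun y => DH (s y) i j) W (𝓝 (DH 0 i j)) := (nk i j).cont'.tendsto.comp hs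
  have h2 : Tendsto (fun y => G1 i j + (2 * s y) * H (s y) i j + s y ^ 2 * DH (s y) i j) W
      (𝓝 (G1 i j + (2 * 0) * H 0 i j + 0 ^ 2 * DH 0 i j)) :=
    (tendsto_const_nhds.add ((hs.const_mul 2).mul h1)).add ((hs.pow 2).mul h3)
  have e1 : G1 i j + (2 * 0) * H 0 i j + 0 ^ 2 * DH 0 i j = G1 i j := by ring
  rw [e1] at h2
  exact h2

theorem tendsto_form {Z : Type*} {W : Filter Z} {v : Z → ι → ℝ} {v0 : ι → ℝ}
    {M : Z → Matrix ι ι ℝ} {M0 : Matrix ι ι ℝ} (hv : ∀ i, Tendsto (fun y => v y i) W (𝓝 (v0 i)))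
    (hM : ∀ i j, Tendsto (fun y => M y i j) W (𝓝 (M0 i j))) :
    Tendsto (fun y => v y ⬝ᵥ (M y *ᵥ v y)) W (𝓝 (v0 ⬝ᵥ (M0 *ᵥ v0))) :=
  tendsto_finset_sum _ fun i _ => (hv i).mul (tendsto_finset_sum _ fun j _ => (hM i j).mul (hv j))

end Lim

section Vec

variable {ι : Type} [Fintype ι] [DecidableEq ι]
variable {p : MvPolynomial (Fin 4) ℝ} {e f g k : Fin 4 → ℝ} {B G0 G1 : Matrix ι ι ℝ}
  {H DH : ℝ → Matrix ι ι ℝ}

/-- the kernel vectors along an ultrafilter of smooth boundary points, and the limit formula -/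
theorem exists_vec (P : IsPen p e f g k B G0 G1 H DH) (U : Ultrafilter (Fin 4 → ℝ))
    (hU : smT p e ∈ U) {X b h s : (Fin 4 → ℝ) → ℝ}
    (hy : ∀ᶠ y in (U : Filter (Fin 4 → ℝ)), y = X y • e + b y • f + h y • (k + s y • g))
    (hh : ∀ᶠ y in (U : Filter (Fin 4 → ℝ)), 0 < h y)
    (hs : Tendsto s (U : Filter (Fin 4 → ℝ)) (𝓝 0)) {ζ : (Fin 4 → ℝ) →ₗ[ℝ] ℝ}
    (hζ : ∀ x, Tendsto (fun y => sl p e y x) (U : Filter (Fin 4 → ℝ)) (𝓝 (ζ x))) :
    ∃ (v : (Fin 4 → ℝ) → ι → ℝ) (v0 : ι → ℝ),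
      (∀ i, Tendsto (fun y => v y i) (U : Filter (Fin 4 → ℝ)) (𝓝 (v0 i))) ∧ v0 ⬝ᵥ v0 = 1 ∧
      (∀ᶠ y in (U : Filter (Fin 4 → ℝ)), v0 ⬝ᵥ v y = 1 ∧ 0 < v y ⬝ᵥ v y ∧
        Pn B G0 G1 H (X y) (b y) (h y) (s y) *ᵥ v y = 0 ∧
        ∀ x0' b' h' s' : ℝ, (v y ⬝ᵥ v y) * sl p e y (x0' • e + b' • f + h' • (k + s' • g)) =
          v y ⬝ᵥ (DPn B G0 G1 H DH (s y) x0' b' h' s' *ᵥ v y)) ∧
      (∀ x0' b' h' s' : ℝ, ζ (x0' • e + b' • f + h' • (k + s' • g)) =
        v0 ⬝ᵥ ((x0' • (1 : Matrix ι ι ℝ) + b' • B + h' • (G0 + s' • G1)) *ᵥ v0)) := by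
  classical
  have h1 : ∀ y, ∃ v : ι → ℝ, (y ∈ smT p e ∧ y = X y • e + b y • f + h y • (k + s y • g) ∧
      0 < h y ∧ (∀ x0 b h : ℝ, 0 < h →
        x0 • e + b • f + h • (k + s y • g) ∈ hypCone p e →
        eval (x0 • e + b • f + h • (k + s y • g)) p = 0 →
        0 < dd p (x0 • e + b • f + h • (k + s y • g)) e →
        ∃ ξ : ι → ℝ, ξ ⬝ᵥ ξ = 1 ∧ Pn B G0 G1 H x0 b h (s y) *ᵥ ξ = 0 ∧
          ∀ x0' b' h' s' : ℝ,
            dd p (x0 • e + b • f + h • (k + s y • g)) (x0' • e + b' • f + h' • (k + s' • g)) =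
              dd p (x0 • e + b • f + h • (k + s y • g)) e *
                (ξ ⬝ᵥ (DPn B G0 G1 H DH (s y) x0' b' h' s' *ᵥ ξ)))) →
      v ⬝ᵥ v = 1 ∧ Pn B G0 G1 H (X y) (b y) (h y) (s y) *ᵥ v = 0 ∧
        ∀ x0' b' h' s' : ℝ, sl p e y (x0' • e + b' • f + h' • (k + s' • g)) =
          v ⬝ᵥ (DPn B G0 G1 H DH (s y) x0' b' h' s' *ᵥ v) := by
    intro y
    by_cases hc : (y ∈ smT p e ∧ y = X y • e + b y • f + h y • (k + s y • g) ∧
      0 < h y ∧ (∀ x0 b h : ℝ, 0 < h →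
        x0 • e + b • f + h • (k + s y • g) ∈ hypCone p e →
        eval (x0 • e + b • f + h • (k + s y • g)) p = 0 →
        0 < dd p (x0 • e + b • f + h • (k + s y • g)) e →
        ∃ ξ : ι → ℝ, ξ ⬝ᵥ ξ = 1 ∧ Pn B G0 G1 H x0 b h (s y) *ᵥ ξ = 0 ∧
          ∀ x0' b' h' s' : ℝ,
            dd p (x0 • e + b • f + h • (k + s y • g)) (x0' • e + b' • f + h' • (k + s' • g)) =
              dd p (x0 • e + b • f + h • (k + s y • g)) e *
                (ξ ⬝ᵥ (DPn B G0 G1 H DH (s y) x0' b' h' s' *ᵥ ξ))))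
    · obtain ⟨hy1, hy2, hy3, hy4⟩ := hc
      have hyy : X y • e + b y • f + h y • (k + s y • g) = y := hy2.symm
      obtain ⟨v, hv1, hv2, hv3⟩ := hy4 (X y) (b y) (h y) hy3 (by rw [hyy]; exact hy1.1.1)
        (by rw [hyy]; exact hy1.1.2.1) (by rw [hyy]; exact hy1.2)
      rw [hyy] at hv3
      refine ⟨v, fun _ => ⟨hv1, hv2, fun x0' b' h' s' => ?_⟩⟩
      rw [sl, hv3, mul_div_cancel_left₀ _ hy1.2.ne']
    · exact ⟨0, fun hc' => absurd hc' hc⟩
  choose v hv using h1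
  have hev : ∀ᶠ y in (U : Filter (Fin 4 → ℝ)), v y ⬝ᵥ v y = 1 ∧
      Pn B G0 G1 H (X y) (b y) (h y) (s y) *ᵥ v y = 0 ∧
        ∀ x0' b' h' s' : ℝ, sl p e y (x0' • e + b' • f + h' • (k + s' • g)) =
          v y ⬝ᵥ (DPn B G0 G1 H DH (s y) x0' b' h' s' *ᵥ v y) := by
    filter_upwards [hU, hy, hh, hs.eventually P.kern] with y h1 h2 h3 h4
    exact hv y ⟨h1, h2, h3, h4⟩
  obtain ⟨v0, hv0, hv01⟩ := exists_unit_lim U v (hev.mono fun y hy => hy.1)
  have hdot : Tendsto (fun y => v0 ⬝ᵥ v y) (U : Filter (Fin 4 → ℝ)) (𝓝 1) := by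
    have h2 : Tendsto (fun y => v0 ⬝ᵥ v y) (U : Filter (Fin 4 → ℝ)) (𝓝 (v0 ⬝ᵥ v0)) :=
      tendsto_finset_sum _ fun i _ => (hv0 i).const_mul _
    rwa [hv01] at h2
  have hpos : ∀ᶠ y in (U : Filter (Fin 4 → ℝ)), 0 < v0 ⬝ᵥ v y := hdot.eventually_const_lt one_pos
  refine ⟨fun y => (v0 ⬝ᵥ v y)⁻¹ • v y, v0, fun i => ?_, hv01, ?_, ?_⟩
  · have h2 := (hdot.inv₀ one_ne_zero).mul (hv0 i)
    rw [inv_one, one_mul] at h2
    exact h2
  · filter_upwards [hev, hpos] with y hy1 hy2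
    obtain ⟨hy1, hy3, hy4⟩ := hy1
    refine ⟨?_, ?_, ?_, fun x0' b' h' s' => ?_⟩
    · rw [dotProduct_smul, smul_eq_mul, inv_mul_cancel₀ hy2.ne']
    · rw [dotProduct_smul, smul_dotProduct, hy1, smul_eq_mul, smul_eq_mul, mul_one]
      positivity
    · rw [Matrix.mulVec_smul, hy3, smul_zero]
    · rw [Matrix.mulVec_smul, dotProduct_smul, smul_dotProduct, dotProduct_smul, smul_dotProduct,
        hy1, ← hy4]
      simp only [smul_eq_mul, mul_one]
      ring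
  · intro x0' b' h' s'
    refine tendsto_nhds_unique (hζ _) ?_
    have h2 : Tendsto (fun y => v y ⬝ᵥ (DPn B G0 G1 H DH (s y) x0' b' h' s' *ᵥ v y))
        (U : Filter (Fin 4 → ℝ)) (𝓝 (v0 ⬝ᵥ ((x0' • (1 : Matrix ι ι ℝ) + b' • B +
          h' • (G0 + s' • G1)) *ᵥ v0))) := by
      refine tendsto_form hv0 fun i j => ?_
      have h3 := tendsto_Gs (G0 := G0) (G1 := G1) P.nk hs i j
      have h4 := tendsto_DGs (G1 := G1) P.nk hs i j
      have h5 : Tendsto (fun y => x0' * (1 : Matrix ι ι ℝ) i j + b' * B i j +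
          h' * (Gs G0 G1 H (s y) i j + (s' - s y) * DGs G1 H DH (s y) i j))
          (U : Filter (Fin 4 → ℝ)) (𝓝 (x0' * (1 : Matrix ι ι ℝ) i j + b' * B i j +
          h' * (G0 i j + (s' - 0) * G1 i j))) :=
        tendsto_const_nhds.add ((h3.add ((hs.const_sub s').mul h4)).const_mul h')
      rw [sub_zero] at h5
      exact h5
    refine h2.congr' ?_
    filter_upwards [hev] with y hy
    exact (hy.2.2 x0' b' h' s').symm

end Vec

section Build

attribute [local irreducible] co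

variable {ι : Type} [Fintype ι] [DecidableEq ι]
variable {p : MvPolynomial (Fin 4) ℝ} {e z : Fin 4 → ℝ} {U V : Ultrafilter (Fin 4 → ℝ)}
  {ζ : (Fin 4 → ℝ) →ₗ[ℝ] ℝ} {f w : Fin 4 → ℝ}

theorem psd_smul_iff {M : Matrix ι ι ℝ} {c : ℝ} (hc : 0 < c) (h : (c • M).PosSemidef) :
    M.PosSemidef := by
  have h1 := h.smul (inv_nonneg.2 hc.le)
  rwa [smul_smul, inv_mul_cancel₀ hc.ne', one_smul] at h1

theorem Pn_eq_smul (B D G1 : Matrix ι ι ℝ) (H : ℝ → Matrix ι ι ℝ) {c : ℝ} (hc : 0 < c)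
    (c1 c2 s : ℝ) : Pn B D G1 H c1 c2 c s = c • Mf B D G1 H (c1 / c) (c2 / c) s := by
  rw [Pn, Mf, smul_add, smul_add, smul_smul, smul_smul, mul_div_cancel₀ _ hc.ne',
    mul_div_cancel₀ _ hc.ne']

theorem Pn_eq_smulZ (D A0 A1 : Matrix ι ι ℝ) (H : ℝ → Matrix ι ι ℝ) {c : ℝ} (hc : 0 < c)
    (c1 c2 s : ℝ) : Pn D A0 A1 H c1 c c2 s = c • Pn D A0 A1 H (c1 / c) 1 (c2 / c) s := by
  rw [Pn, Pn, smul_add, smul_add, smul_smul, smul_smul, smul_smul, mul_div_cancel₀ _ hc.ne',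
    mul_div_cancel₀ _ hc.ne', mul_one]

theorem DPn_eq_smul (B D G1 : Matrix ι ι ℝ) (H DH : ℝ → Matrix ι ι ℝ) {c : ℝ} (hc : 0 < c)
    (s c1 c2 s' : ℝ) : DPn B D G1 H DH s c1 c2 c s' = c • ((c1 / c) • (1 : Matrix ι ι ℝ) +
      (c2 / c) • B + (Gs D G1 H s + (s' - s) • DGs G1 H DH s)) := by
  rw [DPn]
  generalize Gs D G1 H s + (s' - s) • DGs G1 H DH s = M
  rw [smul_add, smul_add, smul_smul, smul_smul, mul_div_cancel₀ _ hc.ne',
    mul_div_cancel₀ _ hc.ne']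

theorem DPn_eq_smulZ (D A0 A1 : Matrix ι ι ℝ) (H DH : ℝ → Matrix ι ι ℝ) {c : ℝ} (hc : 0 < c)
    (s c1 c2 s' : ℝ) : DPn D A0 A1 H DH s c1 c c2 s' =
      c • DPn D A0 A1 H DH s (c1 / c) 1 (c2 / c) s' := by
  rw [DPn, DPn]
  generalize Gs A0 A1 H s + (s' - s) • DGs A1 H DH s = M
  rw [smul_add, smul_add, smul_smul, smul_smul, smul_smul, mul_div_cancel₀ _ hc.ne',
    mul_div_cancel₀ _ hc.ne', mul_one]

/-- the point in the frame, base `f` -/
theorem y_eq_f (li : LinearIndependent ℝ ![z, e, f, w]) {y : Fin 4 → ℝ}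
    (h0 : 0 < co e z f w y 0) :
    y = co e z f w y 1 • e + co e z f w y 2 • f +
      co e z f w y 0 • (z + (co e z f w y 3 / co e z f w y 0) • w) := by
  conv_lhs => rw [co_spec li y]
  rw [smul_add, smul_smul, mul_div_cancel₀ _ h0.ne']
  abel

/-- the point in the frame, base `z` -/
theorem y_eq_z (li : LinearIndependent ℝ ![z, e, f, w]) {y : Fin 4 → ℝ}
    (h0 : co e z f w y 2 ≠ 0) :
    y = co e z f w y 1 • e + co e z f w y 0 • z +
      co e z f w y 2 • (f + (co e z f w y 3 / co e z f w y 2) • w) := by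
  conv_lhs => rw [co_spec li y]
  rw [smul_add, smul_smul, mul_div_cancel₀ _ h0]
  abel

/-- **The kernel-level representation with base `f`.** -/
theorem exists_krep {B D G1 : Matrix ι ι ℝ} {H DH : ℝ → Matrix ι ι ℝ}
    (C : Ctx p e z U V ζ) (Fm : Fr e z ζ f w) (P : IsPen p e f w z B D G1 H DH) :
    ∃ R : KRep ι (U : Filter (Fin 4 → ℝ)) (V : Filter (Fin 4 → ℝ)) (sl p e) (crd e z f w),
      R.B = B ∧ R.D = D ∧ R.G1 = G1 ∧ R.H = H ∧ R.DH = DH := by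
  have hU0 : ∀ᶠ y in (U : Filter (Fin 4 → ℝ)), 0 < co e z f w y 0 :=
    (tendsto_co0 Fm.li C.hU).eventually_const_lt one_pos
  have hV0 : ∀ᶠ y in (V : Filter (Fin 4 → ℝ)), 0 < co e z f w y 0 :=
    (tendsto_co0 Fm.li C.hV).eventually_const_lt one_pos
  have ta : Tendsto (fun y => co e z f w y 3 / co e z f w y 0) (U : Filter (Fin 4 → ℝ)) (𝓝 0) :=
    tendsto_coi Fm.li C.hU (by decide)
  have ta' : Tendsto (fun y => co e z f w y 3 / co e z f w y 0) (V : Filter (Fin 4 → ℝ)) (𝓝 0) :=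
    tendsto_coi Fm.li C.hV (by decide)
  obtain ⟨v, v0, tv, hv0, hv, hζ⟩ := exists_vec P U C.sU
    (X := fun y => co e z f w y 1) (b := fun y => co e z f w y 2) (h := fun y => co e z f w y 0)
    (s := fun y => co e z f w y 3 / co e z f w y 0)
    (by filter_upwards [hU0] with y hy using y_eq_f Fm.li hy) hU0 ta (ζ := ζ) C.lim'
  have psd : ∀ W : Ultrafilter (Fin 4 → ℝ), smT p e ∈ W →
      (∀ᶠ y in (W : Filter (Fin 4 → ℝ)), 0 < co e z f w y 0) →
      Tendsto (fun y => co e z f w y 3 / co e z f w y 0) (W : Filter (Fin 4 → ℝ)) (𝓝 0) →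
      ∀ᶠ y in (W : Filter (Fin 4 → ℝ)), (Mf B D G1 H (co e z f w y 1 / co e z f w y 0)
        (co e z f w y 2 / co e z f w y 0) (co e z f w y 3 / co e z f w y 0)).PosSemidef := by
    intro W hW h0 h1
    filter_upwards [hW, h0, h1.eventually P.psd] with y hy h0 h2
    have h3 := (h2 (co e z f w y 1) (co e z f w y 2) (co e z f w y 0)).1 (by
      rw [← y_eq_f Fm.li h0]; exact hy.1.1)
    rw [Pn_eq_smul B D G1 H h0] at h3
    exact psd_smul_iff h0 h3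
  have hD0 : Gs D G1 H 0 = D := by simp [Gs]
  have e1 : ζ f = v0 ⬝ᵥ (B *ᵥ v0) := by
    have := hζ 0 1 0 0
    simpa using this
  have e2 : ζ z = v0 ⬝ᵥ (D *ᵥ v0) := by
    have := hζ 0 0 1 0
    simpa using this
  have e3 : ζ z + ζ w = v0 ⬝ᵥ (D *ᵥ v0) + v0 ⬝ᵥ (G1 *ᵥ v0) := by
    have := hζ 0 0 1 1
    simpa [Matrix.add_mulVec, dotProduct_add] using this
  refine ⟨{ B := B, D := D, G1 := G1, H := H, DH := DH, ξ := v, ξ0 := v0
            symB := P.symB, psdD := ?_, sym1 := P.sym1, symH := P.symH, symDH := P.symDH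
            nk := P.nk
            tx0 := tendsto_coi Fm.li C.hU (by decide)
            tb := tendsto_coi Fm.li C.hU (by decide)
            ta := ta
            ty0 := tendsto_coi Fm.li C.hV (by decide)
            tb' := tendsto_coi Fm.li C.hV (by decide)
            ta' := ta'
            tc' := tendsto_co0 Fm.li C.hV
            x0_nonneg := C.x0_nonneg Fm
            y0_nonneg := C.y0_nonneg Fm
            psdL := psd U C.sU hU0 ta
            psdX := psd V C.sV hV0 ta'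
            tξ := tv
            nrm0 := hv0
            nrm := hv.mono fun y hy => hy.1
            ker := ?_
            B00 := ?_
            G00 := ?_
            S_eq := ?_ }, rfl, rfl, rfl, rfl, rfl⟩
  · have h1 := (P.psd.self_of_nhds 0 0 1).1 (by simpa using C.hz.1)
    simpa [Pn, Gs] using h1
  · filter_upwards [hv, hU0] with y hy h0
    have h1 := hy.2.2.1
    beta_reduce at h1
    rw [Pn_eq_smul B D G1 H h0, Matrix.smul_mulVec] at h1
    exact (smul_eq_zero.1 h1).resolve_left h0.ne'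
  · rw [← e1, Fm.ζf]
  · rw [← e2, C.ζz, Fm.ζw] at e3
    linarith
  · refine EqF.of_eventually _ _ hv hV0 fun y x hy hx => ?_
    have h1 := hy.2.2.2 (co e z f w x 1) (co e z f w x 2) (co e z f w x 0)
      (co e z f w x 3 / co e z f w x 0)
    rw [← y_eq_f Fm.li hx] at h1
    rw [h1]
    rw [DPn_eq_smul B D G1 H DH hx, Matrix.smul_mulVec, dotProduct_smul, smul_eq_mul]
    rfl

/-- **The kernel-level representation with base `z`.** -/
theorem exists_krepZ {D A0 A1 : Matrix ι ι ℝ} {H DH : ℝ → Matrix ι ι ℝ}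
    (C : Ctx p e z U V ζ) (Fm : Fr e z ζ f w) (P : IsPen p e z w f D A0 A1 H DH)
    (aff : ∀ s, ∀ u v : ι → ℝ, D *ᵥ u = 0 → D *ᵥ v = 0 → u ⬝ᵥ (H s *ᵥ v) = 0)
    (hb : ∀ᶠ y in (U : Filter (Fin 4 → ℝ)), 0 < (crd e z f w).b y)
    (hb' : ∀ᶠ y in (V : Filter (Fin 4 → ℝ)), 0 < (crd e z f w).b' y)
    (ts : Tendsto (fun y => (crd e z f w).a y / (crd e z f w).b y)
      (U : Filter (Fin 4 → ℝ)) (𝓝 0))
    (ts' : Tendsto (fun y => (crd e z f w).a' y / (crd e z f w).b' y)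
      (V : Filter (Fin 4 → ℝ)) (𝓝 0)) :
    ∃ R : KRepZ ι (U : Filter (Fin 4 → ℝ)) (V : Filter (Fin 4 → ℝ)) (sl p e) (crd e z f w),
      R.D = D ∧ R.A0 = A0 ∧ R.A1 = A1 ∧ R.H = H ∧ R.DH = DH ∧
      R.ξ0 ⬝ᵥ (D *ᵥ R.ξ0) = 0 ∧ R.ξ0 ⬝ᵥ (A0 *ᵥ R.ξ0) = 0 ∧ R.ξ0 ⬝ᵥ (A1 *ᵥ R.ξ0) = 0 := by
  have hU0 : ∀ᶠ y in (U : Filter (Fin 4 → ℝ)), 0 < co e z f w y 0 :=
    (tendsto_co0 Fm.li C.hU).eventually_const_lt one_pos
  have hV0 : ∀ᶠ y in (V : Filter (Fin 4 → ℝ)), 0 < co e z f w y 0 :=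
    (tendsto_co0 Fm.li C.hV).eventually_const_lt one_pos
  have hU2 : ∀ᶠ y in (U : Filter (Fin 4 → ℝ)), 0 < co e z f w y 2 := by
    filter_upwards [hU0, hb] with y h0 h1
    have h2 : 0 < co e z f w y 2 / co e z f w y 0 := h1
    have h3 := mul_pos h2 h0
    rwa [div_mul_cancel₀ _ h0.ne'] at h3
  have hV2 : ∀ᶠ y in (V : Filter (Fin 4 → ℝ)), 0 < co e z f w y 2 := by
    filter_upwards [hV0, hb'] with y h0 h1
    have h2 : 0 < co e z f w y 2 / co e z f w y 0 := h1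
    have h3 := mul_pos h2 h0
    rwa [div_mul_cancel₀ _ h0.ne'] at h3
  have hquot : ∀ {y : Fin 4 → ℝ}, 0 < co e z f w y 0 →
      co e z f w y 3 / co e z f w y 0 / (co e z f w y 2 / co e z f w y 0) =
        co e z f w y 3 / co e z f w y 2 := by
    intro y h0
    field_simp
  have ts1 : Tendsto (fun y => co e z f w y 3 / co e z f w y 2) (U : Filter (Fin 4 → ℝ))
      (𝓝 0) := by
    refine ts.congr' ?_
    filter_upwards [hU0] with y h0
    exact hquot h0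
  have ts1' : Tendsto (fun y => co e z f w y 3 / co e z f w y 2) (V : Filter (Fin 4 → ℝ))
      (𝓝 0) := by
    refine ts'.congr' ?_
    filter_upwards [hV0] with y h0
    exact hquot h0
  obtain ⟨v, v0, tv, hv0, hv, hζ⟩ := exists_vec P U C.sU
    (X := fun y => co e z f w y 1) (b := fun y => co e z f w y 0) (h := fun y => co e z f w y 2)
    (s := fun y => co e z f w y 3 / co e z f w y 2)
    (by filter_upwards [hU2] with y hy using y_eq_z Fm.li hy.ne') hU2 ts1 (ζ := ζ) C.lim'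
  have psd : ∀ W : Ultrafilter (Fin 4 → ℝ), smT p e ∈ W →
      (∀ᶠ y in (W : Filter (Fin 4 → ℝ)), 0 < co e z f w y 0) →
      (∀ᶠ y in (W : Filter (Fin 4 → ℝ)), 0 < co e z f w y 2) →
      Tendsto (fun y => co e z f w y 3 / co e z f w y 2) (W : Filter (Fin 4 → ℝ)) (𝓝 0) →
      ∀ᶠ y in (W : Filter (Fin 4 → ℝ)), (Pn D A0 A1 H (co e z f w y 1 / co e z f w y 0) 1
        (co e z f w y 2 / co e z f w y 0) (co e z f w y 3 / co e z f w y 0 /
          (co e z f w y 2 / co e z f w y 0))).PosSemidef := by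
    intro W hW h0 h2 h1
    filter_upwards [hW, h0, h2, h1.eventually P.psd] with y hy h0 h2 h4
    rw [hquot h0]
    have h3 := (h4 (co e z f w y 1) (co e z f w y 0) (co e z f w y 2)).1 (by
      rw [← y_eq_z Fm.li h2.ne']; exact hy.1.1)
    rw [Pn_eq_smulZ D A0 A1 H h0] at h3
    exact psd_smul_iff h0 h3
  have e1 : ζ z = v0 ⬝ᵥ (D *ᵥ v0) := by
    have := hζ 0 1 0 0
    simpa using this
  have e2 : ζ f = v0 ⬝ᵥ (A0 *ᵥ v0) := by
    have := hζ 0 0 1 0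
    simpa using this
  have e3 : ζ f + ζ w = v0 ⬝ᵥ (A0 *ᵥ v0) + v0 ⬝ᵥ (A1 *ᵥ v0) := by
    have := hζ 0 0 1 1
    simpa [Matrix.add_mulVec, dotProduct_add] using this
  refine ⟨{ D := D, A0 := A0, A1 := A1, H := H, DH := DH, ξ := v, ξ0 := v0
            psdD := ?_, sym0 := P.sym0, sym1 := P.sym1, symH := P.symH, symDH := P.symDH
            nk := P.nk
            aff := aff
            tx0 := tendsto_coi Fm.li C.hU (by decide)
            tb := tendsto_coi Fm.li C.hU (by decide)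
            ty0 := tendsto_coi Fm.li C.hV (by decide)
            tb' := tendsto_coi Fm.li C.hV (by decide)
            tc' := tendsto_co0 Fm.li C.hV
            b_pos := hb
            b'_pos := hb'
            ts := ts
            ts' := ts'
            x0_nonneg := C.x0_nonneg Fm
            y0_nonneg := C.y0_nonneg Fm
            psdL := psd U C.sU hU0 hU2 ts1
            psdX := psd V C.sV hV0 hV2 ts1'
            tξ := tv
            nrm0 := hv0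
            nrm := hv.mono fun y hy => hy.1
            ker := ?_
            S_eq := ?_ }, rfl, rfl, rfl, rfl, rfl, ?_, ?_, ?_⟩
  · have h1 := (P.psd.self_of_nhds 0 1 0).1 (by simpa using C.hz.1)
    simpa [Pn, Gs] using h1
  · filter_upwards [hv, hU0] with y hy h0
    have h1 := hy.2.2.1
    beta_reduce at h1
    rw [Pn_eq_smulZ D A0 A1 H h0, Matrix.smul_mulVec] at h1
    have h2 := (smul_eq_zero.1 h1).resolve_left h0.ne'
    rw [← hquot h0] at h2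
    exact h2
  · refine EqF.of_eventually _ _ (hv.and hU0) (hV0.and hV2) fun y x hy hx => ?_
    obtain ⟨hy, hy0⟩ := hy
    obtain ⟨hx, hx2⟩ := hx
    have h1 := hy.2.2.2 (co e z f w x 1) (co e z f w x 0) (co e z f w x 2)
      (co e z f w x 3 / co e z f w x 2)
    rw [← y_eq_z Fm.li hx2.ne'] at h1
    rw [h1]
    rw [DPn_eq_smulZ D A0 A1 H DH hx, Matrix.smul_mulVec, dotProduct_smul, smul_eq_mul]
    show _ = co e z f w x 0 * (v y ⬝ᵥ (DPn D A0 A1 H DH (co e z f w y 3 / co e z f w y 0 /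
      (co e z f w y 2 / co e z f w y 0)) (co e z f w x 1 / co e z f w x 0) 1
      (co e z f w x 2 / co e z f w x 0) (co e z f w x 3 / co e z f w x 0 /
      (co e z f w x 2 / co e z f w x 0)) *ᵥ v y))
    rw [hquot hy0, hquot hx]
  · show v0 ⬝ᵥ (D *ᵥ v0) = 0
    rw [← e1, C.ζz]
  · show v0 ⬝ᵥ (A0 *ᵥ v0) = 0
    rw [← e2, Fm.ζf]
  · show v0 ⬝ᵥ (A1 *ᵥ v0) = 0
    rw [← e2, Fm.ζf, Fm.ζw] at e3
    linarith

end Build

end Vale.Agent.P256.H387
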