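import Vale.Agent.P256.H387.LMR

/-! Generator calculus for lifted coordinates: two points `Y(l)`, `Z(x)` of a (polynomial) variety
`P_k = 0` converging to the same point `z₀`; the generators are the differences
`d_v = Z_v - Y_v`. First and second differences of polynomials, syzygies, and the second order
remainder of étale coordinates. -/

set_option linter.all false

namespace Vale.Agent.P256.H387

open Filter Topology Matrix MvPolynomial Vale.Agent.P256 Vale.Agent.P256.H326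

variable {L X : Type*} {F : Filter L} {G : Filter X}

theorem germ_comp {L' X' : Type*} {F' : Filter L'} {G' : Filter X'} {h : L → X → ℝ} {c : ℝ}
    (H : GermFR F G h c) {φ : L' → L} {ψ : X' → X} (hφ : Tendsto φ F' F) (hψ : Tendsto ψ G' G) :
    GermFR F' G' (fun l x => h (φ l) (ψ x)) c := by
  obtain ⟨n, a, f, a0, f0, ha, hf, hh, hc⟩ := H
  exact ⟨n, fun k l => a k (φ l), fun k x => f k (ψ x), a0, f0, fun k => (ha k).comp hφ,
    fun k => (hf k).comp hψ, fun l x => hh _ _, hc⟩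

theorem germ_fr {h : L → X → ℝ} {c : ℝ} (H : GermFR F G h c) : FR h := by
  obtain ⟨n, a, f, a0, f0, ha, hf, hh, hc⟩ := H
  exact ⟨n, a, f, hh⟩

/-- the difference kernel -/
def dk {υ : Type*} (Y : L → υ → ℝ) (Z : X → υ → ℝ) (v : υ) (l : L) (x : X) : ℝ := Z x v - Y l v

theorem dk_fr {υ : Type*} (Y : L → υ → ℝ) (Z : X → υ → ℝ) (v : υ) : FR (dk Y Z v) :=
  (FR.right (fun x => Z x v)).sub (FR.left (fun l => Y l v))

section

variable {υ : Type*} [Fintype υ] [DecidableEq υ] {z0 : υ → ℝ} {Y : L → υ → ℝ} {Z : X → υ → ℝ}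

theorem dk_germ (hY : Tendsto Y F (𝓝 z0)) (hZ : Tendsto Z G (𝓝 z0)) (v : υ) :
    GermFR F G (dk Y Z v) 0 := by
  have h1 : GermFR F G (fun (_ : L) x => Z x v) (z0 v) :=
    GermFR.right (((continuous_apply v).tendsto z0).comp hZ)
  have h2 : GermFR F G (fun l (_ : X) => Y l v) (z0 v) :=
    GermFR.left (((continuous_apply v).tendsto z0).comp hY)
  exact (h1.sub h2).congr (fun _ _ => rfl) (by ring)

theorem left_eval (hY : Tendsto Y F (𝓝 z0)) (q : MvPolynomial υ ℝ) :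
    Tendsto (fun l => eval (Y l) q) F (𝓝 (eval z0 q)) :=
  ((MvPolynomial.continuous_eval q).tendsto z0).comp hY

/-- exact second order Taylor expansion between the two points -/
theorem diff2 (hY : Tendsto Y F (𝓝 z0)) (hZ : Tendsto Z G (𝓝 z0)) (q : MvPolynomial υ ℝ) :
    ∃ M : υ → υ → L → X → ℝ,
      (∀ i j, GermFR F G (M i j) (1 / 2 * eval z0 (pderiv i (pderiv j q)))) ∧
      ∀ l x, eval (Z x) q - eval (Y l) q = ∑ i, eval (Y l) (pderiv i q) * dk Y Z i l x +
        ∑ i, ∑ j, M i j l x * dk Y Z i l x * dk Y Z j l x := by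
  obtain ⟨M, hM, e⟩ := taylor2 q z0
  refine ⟨fun i j l x => M i j (Y l) (Z x), fun i j => germ_comp (hM i j) hY hZ, fun l x => ?_⟩
  rw [e (Y l) (Z x)]
  simp only [dk]
  ring

/-- first differences of polynomials -/
theorem diff1 (hY : Tendsto Y F (𝓝 z0)) (hZ : Tendsto Z G (𝓝 z0)) (q : MvPolynomial υ ℝ) :
    ∃ A : υ → L → X → ℝ, (∀ i, GermFR F G (A i) (eval z0 (pderiv i q))) ∧
      ∀ l x, eval (Z x) q - eval (Y l) q = ∑ i, dk Y Z i l x * A i l x := by
  obtain ⟨M, hM, e⟩ := diff2 hY hZ q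
  refine ⟨fun i l x => eval (Y l) (pderiv i q) + ∑ j, M i j l x * dk Y Z j l x, fun i => ?_,
    fun l x => ?_⟩
  · refine ((GermFR.left (left_eval hY (pderiv i q))).add
      (GermFR.sum _ fun j _ => (hM i j).mul (dk_germ hY hZ j))).congr (fun _ _ => rfl) ?_
    simp
  · rw [e l x, ← Finset.sum_add_distrib]
    refine Finset.sum_congr rfl fun i _ => ?_
    rw [mul_add, Finset.mul_sum]
    congr 1
    · ring
    · refine Finset.sum_congr rfl fun j _ => ?_
      ring

/-- the syzygy of an equation satisfied by both points -/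
theorem syz_of_eq (hY : Tendsto Y F (𝓝 z0)) (hZ : Tendsto Z G (𝓝 z0)) {q : MvPolynomial υ ℝ}
    (hqY : ∀ᶠ l in F, eval (Y l) q = 0) (hqZ : ∀ᶠ x in G, eval (Z x) q = 0) :
    ∃ A : υ → L → X → ℝ, (∀ i, GermFR F G (A i) (eval z0 (pderiv i q))) ∧
      EqF F G (fun l x => ∑ i, A i l x * dk Y Z i l x) (fun _ _ => 0) := by
  obtain ⟨A, hA, e⟩ := diff1 hY hZ q
  refine ⟨A, hA, EqF.of_eventually _ _ hqY hqZ fun l x hl hx => ?_⟩
  have h1 := e l x
  rw [hl, hx, sub_zero] at h1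
  rw [h1]
  exact Finset.sum_congr rfl fun i _ => mul_comm _ _

end

section Etale

variable {σ τ : Type*} [Fintype σ] [Fintype τ] [DecidableEq σ] [DecidableEq τ]
  {z0 : σ ⊕ τ → ℝ} {Y : L → σ ⊕ τ → ℝ} {Z : X → σ ⊕ τ → ℝ} {P : τ → MvPolynomial (σ ⊕ τ) ℝ}

/-- Jacobian of the system with respect to the étale coordinates -/
noncomputable def Jt (P : τ → MvPolynomial (σ ⊕ τ) ℝ) (z : σ ⊕ τ → ℝ) : Matrix τ τ ℝ :=
  Matrix.of fun i j => eval z (pderiv (Sum.inr j) (P i))

/-- Jacobian of the system with respect to the base coordinates -/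
noncomputable def Js (P : τ → MvPolynomial (σ ⊕ τ) ℝ) (z : σ ⊕ τ → ℝ) : Matrix τ σ ℝ :=
  Matrix.of fun i j => eval z (pderiv (Sum.inl j) (P i))

/-- derivative of the étale coordinates -/
noncomputable def Dh (P : τ → MvPolynomial (σ ⊕ τ) ℝ) (z : σ ⊕ τ → ℝ) : Matrix τ σ ℝ :=
  -((Jt P z)⁻¹ * Js P z)

theorem continuousAt_Jinv (hdet : (Jt P z0).det ≠ 0) :
    Tendsto (fun z => (Jt P z)⁻¹) (𝓝 z0) (𝓝 (Jt P z0)⁻¹) := by
  have h1 : Continuous (fun z => Jt P z) := by
    refine continuous_matrix fun i j => ?_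
    exact MvPolynomial.continuous_eval _
  have h2 : Tendsto (fun z => (Jt P z).det) (𝓝 z0) (𝓝 (Jt P z0).det) :=
    (h1.matrix_det).tendsto z0
  have h3 : Tendsto (fun z => (Jt P z).adjugate) (𝓝 z0) (𝓝 (Jt P z0).adjugate) :=
    (h1.matrix_adjugate).tendsto z0
  have h4 : Tendsto (fun z => ((Jt P z).det)⁻¹ • (Jt P z).adjugate) (𝓝 z0)
      (𝓝 (((Jt P z0).det)⁻¹ • (Jt P z0).adjugate)) := (h2.inv₀ hdet).smul h3
  simpa only [Matrix.inv_def, Ring.inverse_eq_inv'] using h4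

theorem tendsto_Dh (hdet : (Jt P z0).det ≠ 0) (hY : Tendsto Y F (𝓝 z0)) (t : τ) (s : σ) :
    Tendsto (fun l => Dh P (Y l) t s) F (𝓝 (Dh P z0 t s)) := by
  have h1 : Tendsto (fun z => Js P z) (𝓝 z0) (𝓝 (Js P z0)) := by
    have : Continuous (fun z => Js P z) := by
      refine continuous_matrix fun i j => ?_
      exact MvPolynomial.continuous_eval _
    exact this.tendsto z0
  have h2 : Tendsto (fun z => Dh P z) (𝓝 z0) (𝓝 (Dh P z0)) := by
    have hc : Continuous fun p : Matrix τ τ ℝ × Matrix τ σ ℝ => p.1 * p.2 :=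
      continuous_fst.matrix_mul continuous_snd
    have := (hc.tendsto ((Jt P z0)⁻¹, Js P z0)).comp ((continuousAt_Jinv hdet).prodMk_nhds h1)
    exact this.neg
  have h3 : Tendsto (fun l => Dh P (Y l)) F (𝓝 (Dh P z0)) := h2.comp hY
  have h4 : Continuous fun A : Matrix τ σ ℝ => A t s := by fun_prop
  exact (h4.tendsto _).comp h3

/-- **Second order remainder of étale coordinates** -/
theorem etale2 (hdet : (Jt P z0).det ≠ 0) (hY : Tendsto Y F (𝓝 z0)) (hZ : Tendsto Z G (𝓝 z0))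
    (hPY : ∀ᶠ l in F, ∀ i, eval (Y l) (P i) = 0) (hPZ : ∀ᶠ x in G, ∀ i, eval (Z x) (P i) = 0) :
    ∃ e : τ → (σ ⊕ τ) → (σ ⊕ τ) → L → X → ℝ,
      (∀ t u v, GermFR F G (e t u v)
        (-∑ i, (Jt P z0)⁻¹ t i * (1 / 2 * eval z0 (pderiv u (pderiv v (P i)))))) ∧
      ∀ t, EqF F G (fun l x => dk Y Z (Sum.inr t) l x)
        (fun l x => ∑ s, Dh P (Y l) t s * dk Y Z (Sum.inl s) l x +
          ∑ u, ∑ v, e t u v l x * dk Y Z u l x * dk Y Z v l x) := by
  classical
  choose M hM eM using fun i => diff2 hY hZ (P i)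
  refine ⟨fun t u v l x => -∑ i, (Jt P (Y l))⁻¹ t i * M i u v l x, fun t u v => ?_, fun t => ?_⟩
  · refine (GermFR.sum _ fun i _ => (GermFR.left ?_).mul (hM i u v)).neg
    have h4 : Continuous fun A : Matrix τ τ ℝ => A t i := by fun_prop
    exact (h4.tendsto _).comp ((continuousAt_Jinv hdet).comp hY)
  · have hdetY : ∀ᶠ l in F, (Jt P (Y l)).det ≠ 0 := by
      have h1 : Continuous (fun z => Jt P z) := by
        refine continuous_matrix fun i j => ?_
        exact MvPolynomial.continuous_eval _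
      have h2 : Tendsto (fun l => (Jt P (Y l)).det) F (𝓝 (Jt P z0).det) :=
        ((h1.matrix_det).tendsto z0).comp hY
      exact h2.eventually_ne hdet
    refine EqF.of_eventually _ _ (hPY.and hdetY) hPZ fun l x hl hx => ?_
    obtain ⟨hl1, hl2⟩ := hl
    have hunit : IsUnit (Jt P (Y l)).det := isUnit_iff_ne_zero.2 hl2
    -- the vector equation
    have hvec : ∀ i, ∑ j, Jt P (Y l) i j * dk Y Z (Sum.inr j) l x =
        -(∑ s, Js P (Y l) i s * dk Y Z (Sum.inl s) l x) -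
          ∑ u, ∑ v, M i u v l x * dk Y Z u l x * dk Y Z v l x := by
      intro i
      have h1 := eM i l x
      rw [hl1 i, hx i, sub_zero, Fintype.sum_sum_type] at h1
      have e1 : ∑ j, Jt P (Y l) i j * dk Y Z (Sum.inr j) l x =
        ∑ j, eval (Y l) (pderiv (Sum.inr j) (P i)) * dk Y Z (Sum.inr j) l x := rfl
      have e2 : ∑ s, Js P (Y l) i s * dk Y Z (Sum.inl s) l x =
        ∑ j, eval (Y l) (pderiv (Sum.inl j) (P i)) * dk Y Z (Sum.inl j) l x := rfl
      rw [e1, e2]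
      linarith
    have hmul : Jt P (Y l) *ᵥ (fun j => dk Y Z (Sum.inr j) l x) =
        -(Js P (Y l) *ᵥ (fun s => dk Y Z (Sum.inl s) l x)) -
          (fun i => ∑ u, ∑ v, M i u v l x * dk Y Z u l x * dk Y Z v l x) := by
      funext i
      simpa only [Matrix.mulVec, dotProduct, Pi.sub_apply, Pi.neg_apply] using hvec i
    have hinv : (fun j => dk Y Z (Sum.inr j) l x) =
        (Jt P (Y l))⁻¹ *ᵥ (-(Js P (Y l) *ᵥ (fun s => dk Y Z (Sum.inl s) l x)) -
          (fun i => ∑ u, ∑ v, M i u v l x * dk Y Z u l x * dk Y Z v l x)) := by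
      rw [← hmul, Matrix.mulVec_mulVec, Matrix.nonsing_inv_mul _ hunit, Matrix.one_mulVec]
    have hfin := congrFun hinv t
    rw [hfin, Matrix.mulVec_sub, Matrix.mulVec_neg, Matrix.mulVec_mulVec]
    show -(((Jt P (Y l))⁻¹ * Js P (Y l)) *ᵥ fun s => dk Y Z (Sum.inl s) l x) t -
      ((Jt P (Y l))⁻¹ *ᵥ fun i => ∑ u, ∑ v, M i u v l x * dk Y Z u l x * dk Y Z v l x) t = _
    have e3 : -(((Jt P (Y l))⁻¹ * Js P (Y l)) *ᵥ fun s => dk Y Z (Sum.inl s) l x) t =
        ∑ s, Dh P (Y l) t s * dk Y Z (Sum.inl s) l x := by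
      simp only [Matrix.mulVec, dotProduct, Dh, Matrix.neg_apply, neg_mul, Finset.sum_neg_distrib]
    have e4 : ((Jt P (Y l))⁻¹ *ᵥ fun i => ∑ u, ∑ v, M i u v l x * dk Y Z u l x * dk Y Z v l x) t =
        -∑ u, ∑ v, (-∑ i, (Jt P (Y l))⁻¹ t i * M i u v l x) * dk Y Z u l x * dk Y Z v l x := by
      simp only [Matrix.mulVec, dotProduct, neg_mul, Finset.sum_neg_distrib, neg_neg,
        Finset.mul_sum, Finset.sum_mul]
      rw [Finset.sum_comm]
      refine Finset.sum_congr rfl fun u _ => ?_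
      rw [Finset.sum_comm]
      refine Finset.sum_congr rfl fun v _ => ?_
      refine Finset.sum_congr rfl fun i _ => ?_
      ring
    rw [e3, e4]
    ring

end Etale

end Vale.Agent.P256.H387
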