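import Vale.Agent.P256.H387.Factor

/-! For an irreducible hyperbolic `p` the points of the boundary of the cone at which `p` is
smooth are dense in the boundary. -/

set_option linter.all false

namespace Vale.Agent.P256.H387

open MvPolynomial Filter Topology Vale.Agent.P256

variable {n : ℕ} {p : MvPolynomial (Fin n) ℝ} {e : Fin n → ℝ}

/-- the shear `x ↦ x + t v` -/
noncomputable def sh (v : Fin n → ℝ) :
    Polynomial (MvPolynomial (Fin n) ℝ) →+* Polynomial (MvPolynomial (Fin n) ℝ) :=
  Polynomial.eval₂RingHom (aeval (fun i => (Polynomial.C (X i) + Polynomial.X * Polynomial.C (C (v i)) :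
    Polynomial (MvPolynomial (Fin n) ℝ))) : MvPolynomial (Fin n) ℝ →ₐ[ℝ] _).toRingHom Polynomial.X

theorem sh_C (v : Fin n → ℝ) (q : MvPolynomial (Fin n) ℝ) :
    sh v (Polynomial.C q) = gline q (X : Fin n → MvPolynomial (Fin n) ℝ) (fun i => C (v i)) := by
  unfold sh gline
  simp

theorem sh_X (v : Fin n → ℝ) : sh v Polynomial.X = Polynomial.X := by
  unfold sh
  simp

theorem sh_sh (v : Fin n → ℝ) : (sh (-v)).comp (sh v) = RingHom.id _ := by
  apply Polynomial.ringHom_ext'
  · apply MvPolynomial.ringHom_ext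
    · intro r
      simp only [RingHom.comp_apply, sh_C, RingHom.id_apply]
      unfold gline
      have h1 : (aeval (fun i => (Polynomial.C (X i) + Polynomial.X * Polynomial.C (C (v i)) :
        Polynomial (MvPolynomial (Fin n) ℝ))) : MvPolynomial (Fin n) ℝ →ₐ[ℝ] _) (C r) =
        Polynomial.C (C r) := by
        rw [MvPolynomial.algHom_C, Polynomial.algebraMap_apply]; rfl
      rw [h1, sh_C]
      unfold gline
      rw [MvPolynomial.algHom_C, Polynomial.algebraMap_apply]; rfl
    · intro i
      simp only [RingHom.comp_apply, sh_C, RingHom.id_apply]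
      unfold gline
      rw [aeval_X, map_add, map_mul, sh_X, sh_C, sh_C]
      unfold gline
      rw [aeval_X, MvPolynomial.algHom_C, Polynomial.algebraMap_apply]
      simp [MvPolynomial.algebraMap_eq]
  · simp [sh_X]

theorem irreducible_C {q : MvPolynomial (Fin n) ℝ} (hq : Irreducible q) :
    Irreducible (Polynomial.C q : Polynomial (MvPolynomial (Fin n) ℝ)) := by
  constructor
  · intro h
    exact hq.not_isUnit (Polynomial.isUnit_C.1 h)
  · intro a b hab
    have h0 : (Polynomial.C q : Polynomial (MvPolynomial (Fin n) ℝ)) ≠ 0 := by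
      rw [Ne, Polynomial.C_eq_zero]; exact hq.ne_zero
    have ha : a ≠ 0 := by
      intro h; rw [h, zero_mul] at hab; exact h0 hab
    have hb : b ≠ 0 := by
      intro h; rw [h, mul_zero] at hab; exact h0 hab
    have h1 : a.natDegree + b.natDegree = 0 := by
      rw [← Polynomial.natDegree_mul ha hb, ← hab, Polynomial.natDegree_C]
    have h2 := Polynomial.eq_C_of_natDegree_eq_zero (p := a) (by omega)
    have h3 := Polynomial.eq_C_of_natDegree_eq_zero (p := b) (by omega)
    rw [h2, h3, ← Polynomial.C_mul] at hab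
    have h4 := Polynomial.C_injective hab
    rcases hq.isUnit_or_isUnit h4 with h | h
    · left; rw [h2]; exact h.map Polynomial.C
    · right; rw [h3]; exact h.map Polynomial.C

theorem irreducible_gline (hq : Irreducible p) (v : Fin n → ℝ) :
    Irreducible (gline p (X : Fin n → MvPolynomial (Fin n) ℝ) (fun i => C (v i))) := by
  rw [← sh_C]
  have h1 : ∀ v : Fin n → ℝ, ∀ q, sh (-v) (sh v q) = q := fun v q => by
    have := congrArg (fun f : _ →+* _ => f q) (sh_sh v)
    simpa using this
  let E : Polynomial (MvPolynomial (Fin n) ℝ) ≃+* Polynomial (MvPolynomial (Fin n) ℝ) :=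
    { sh v with
      invFun := sh (-v)
      left_inv := h1 v
      right_inv := fun q => by
        have := h1 (-v) q
        rwa [neg_neg] at this }
  exact (MulEquiv.irreducible_iff E).2 (irreducible_C hq)

/-- elimination over a factorial ring of characteristic zero -/
theorem elim_general {R : Type*} [CommRing R] [IsDomain R] [NormalizedGCDMonoid R]
    [CharZero R] {P : Polynomial R} (hirr : Irreducible P) (hprim : P.IsPrimitive)
    (hdeg : 1 ≤ P.natDegree) :
    ∃ (A B : Polynomial R) (r : R), r ≠ 0 ∧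
      A * P + B * Polynomial.derivative P = Polynomial.C r := by
  have hinj : Function.Injective (algebraMap R (FractionRing R)) :=
    IsFractionRing.injective R (FractionRing R)
  have hmirr : Irreducible (P.map (algebraMap R (FractionRing R))) :=
    (hprim.irreducible_iff_irreducible_map_fraction_map).1 hirr
  have hder : Polynomial.derivative P ≠ 0 := by
    intro h
    have := Polynomial.natDegree_eq_zero_of_derivative_eq_zero h
    omega
  have hndvd : ¬ P.map (algebraMap R (FractionRing R)) ∣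
      (Polynomial.derivative P).map (algebraMap R (FractionRing R)) := by
    intro hdvd
    have h0 : (Polynomial.derivative P).map (algebraMap R (FractionRing R)) ≠ 0 := by
      intro h
      rw [Polynomial.map_eq_zero_iff hinj] at h
      exact hder h
    have h6 := Polynomial.natDegree_le_of_dvd hdvd h0
    rw [Polynomial.natDegree_map_eq_of_injective hinj,
      Polynomial.natDegree_map_eq_of_injective hinj] at h6
    have h7 := Polynomial.natDegree_derivative_lt (p := P) (by omega)
    omega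
  have hcop : IsCoprime (P.map (algebraMap R (FractionRing R)))
      ((Polynomial.derivative P).map (algebraMap R (FractionRing R))) :=
    (hmirr.coprime_iff_not_dvd).2 hndvd
  obtain ⟨a, b, hab⟩ := hcop
  obtain ⟨c1, hc1, hc1'⟩ := IsLocalization.integerNormalization_spec (nonZeroDivisors R) a
  obtain ⟨c2, hc2, hc2'⟩ := IsLocalization.integerNormalization_spec (nonZeroDivisors R) b
  set A := IsLocalization.integerNormalization (nonZeroDivisors R) a with hA
  set B := IsLocalization.integerNormalization (nonZeroDivisors R) b with hB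
  refine ⟨Polynomial.C c2 * A, Polynomial.C c1 * B, c1 * c2,
    mul_ne_zero (nonZeroDivisors.ne_zero hc1) (nonZeroDivisors.ne_zero hc2), ?_⟩
  apply Polynomial.map_injective _ hinj
  have e1 : ∀ (c : R) (q : Polynomial (FractionRing R)), c • q =
      Polynomial.C (algebraMap R (FractionRing R) c) * q := by
    intro c q
    rw [← Polynomial.smul_eq_C_mul, algebraMap_smul]
  simp only [Polynomial.map_add, Polynomial.map_mul, Polynomial.map_C]
  rw [hc1', hc2', e1, e1, map_mul, Polynomial.C_mul]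
  linear_combination (Polynomial.C ((algebraMap R (FractionRing R)) c1) *
    Polynomial.C ((algebraMap R (FractionRing R)) c2)) * hab

/-- elimination: the discriminant of an irreducible hyperbolic polynomial is not zero -/
theorem exists_disc (hp : IsHyperbolic p e) (hirr : Irreducible p) :
    ∃ r : MvPolynomial (Fin n) ℝ, r ≠ 0 ∧ ∀ (x : Fin n → ℝ) (t : ℝ),
      eval (x + t • e) p = 0 → dd p (x + t • e) e = 0 → eval x r = 0 := by
  classical
  obtain ⟨d, hd⟩ := hp.1
  have hPirr := irreducible_gline hirr e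
  obtain ⟨h1, h2⟩ := gline_top hd (X : Fin n → MvPolynomial (Fin n) ℝ) (fun i => C (e i))
  have h3 : aeval (fun i => (C (e i) : MvPolynomial (Fin n) ℝ)) p = C (eval e p) := by
    have : (aeval (fun i => (C (e i) : MvPolynomial (Fin n) ℝ)) : MvPolynomial (Fin n) ℝ →ₐ[ℝ] _) =
        (Algebra.ofId ℝ (MvPolynomial (Fin n) ℝ)).comp (aeval e) := by
      apply MvPolynomial.algHom_ext
      intro i
      simp [Algebra.ofId_apply, MvPolynomial.algebraMap_eq]
    rw [this]
    simp [Algebra.ofId_apply, MvPolynomial.algebraMap_eq, MvPolynomial.aeval_eq_eval]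
  rw [h3] at h2
  generalize hP : gline p (X : Fin n → MvPolynomial (Fin n) ℝ) (fun i => C (e i)) = P at *
  have hun : IsUnit (P.coeff d) := by
    rw [h2]
    exact (isUnit_iff_ne_zero.2 hp.2.1.ne').map C
  have hdeg : P.natDegree = d := Polynomial.natDegree_eq_of_le_of_coeff_ne_zero h1 hun.ne_zero
  have hprim : P.IsPrimitive := by
    intro r hr
    obtain ⟨Q, hQ⟩ := hr
    have : P.coeff d = r * Q.coeff d := by rw [hQ, Polynomial.coeff_C_mul]
    rw [this] at hun
    exact isUnit_of_mul_isUnit_left hun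
  have hd1 : 1 ≤ P.natDegree := by
    rw [Nat.one_le_iff_ne_zero]
    intro h0
    have h4 := Polynomial.eq_C_of_natDegree_eq_zero h0
    apply hPirr.not_isUnit
    rw [h4]
    rw [hdeg] at h0
    rw [← h0]
    exact hun.map Polynomial.C
  letI : NormalizedGCDMonoid (MvPolynomial (Fin n) ℝ) :=
    Classical.choice (inferInstance : Nonempty (NormalizedGCDMonoid (MvPolynomial (Fin n) ℝ)))
  obtain ⟨A, B, r, hr, hAB⟩ := elim_general hPirr hprim hd1
  refine ⟨r, hr, fun x t hx0 hx1 => ?_⟩
  have hl : P.map (eval x) = line p x e := by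
    have h5 := map_gline (aeval x : MvPolynomial (Fin n) ℝ →ₐ[ℝ] ℝ) p X (fun i => C (e i))
    rw [hP] at h5
    have h6 : ((aeval x : MvPolynomial (Fin n) ℝ →ₐ[ℝ] ℝ) : MvPolynomial (Fin n) ℝ →+* ℝ) =
        eval x := by
      ext i <;> simp
    rw [h6] at h5
    rw [h5]
    unfold gline line
    simp [MvPolynomial.aeval_eq_eval]
  have h7 := congrArg (fun q : Polynomial (MvPolynomial (Fin n) ℝ) => (q.map (eval x)).eval t) hAB
  simp only [Polynomial.map_add, Polynomial.map_mul, Polynomial.map_C, ← Polynomial.derivative_map,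
    hl, Polynomial.eval_add, Polynomial.eval_mul, Polynomial.eval_C, eval_line, hx0, mul_zero,
    zero_add, eval_derivative_line, hx1] at h7
  exact h7.symm

/-- normalisation -/
noncomputable def nrm (x : Fin n → ℝ) : Fin n → ℝ := (Real.sqrt (∑ i, x i ^ 2))⁻¹ • x

theorem nrm_of_unit {x : Fin n → ℝ} (h : ∑ i, x i ^ 2 = 1) : nrm x = x := by
  rw [nrm, h, Real.sqrt_one, inv_one, one_smul]

theorem nrm_cont {x : Fin n → ℝ} (h : ∑ i, x i ^ 2 = 1) : ContinuousAt nrm x := by
  unfold nrm
  have h1 : ContinuousAt (fun x : Fin n → ℝ => Real.sqrt (∑ i, x i ^ 2)) x := by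
    have : Continuous (fun x : Fin n → ℝ => Real.sqrt (∑ i, x i ^ 2)) := by fun_prop
    exact this.continuousAt
  refine ContinuousAt.smul (ContinuousAt.inv₀ h1 ?_) continuousAt_id
  rw [h, Real.sqrt_one]
  exact one_ne_zero

theorem nrm_mem (hp : IsHyperbolic p e) {x : Fin n → ℝ} (hx : x ∈ hypCone p e)
    (hx0 : eval x p = 0) (hne : x ≠ 0) : nrm x ∈ bdT p e := by
  obtain ⟨d, hd⟩ := hp.1
  have hc : 0 < (Real.sqrt (∑ i, x i ^ 2))⁻¹ := inv_pos.2 (sqrt_sum_pos hne)
  refine ⟨K_smul hp hx hc.le, by rw [nrm, eval_smul' hd, hx0, mul_zero], ?_⟩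
  unfold nrm
  simp only [Pi.smul_apply, smul_eq_mul, mul_pow]
  rw [← Finset.mul_sum, inv_pow, Real.sq_sqrt (Finset.sum_nonneg fun i _ => sq_nonneg _)]
  exact inv_mul_cancel₀ (fun h => hne (sum_sq_eq_zero h))

theorem nrm_dd (hp : IsHyperbolic p e) {x : Fin n → ℝ} (hne : x ≠ 0) (v : Fin n → ℝ)
    (h : dd p (nrm x) v = 0) : dd p x v = 0 := by
  obtain ⟨d, hd⟩ := hp.1
  have hc : 0 < (Real.sqrt (∑ i, x i ^ 2))⁻¹ := inv_pos.2 (sqrt_sum_pos hne)
  unfold nrm at h
  have h10 := dd_smul_smul hd (Real.sqrt (∑ i, x i ^ 2))⁻¹ 1 x v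
  rw [one_smul, h, mul_one] at h10
  rcases mul_eq_zero.1 h10.symm with h12 | h12
  · exact absurd h12 (pow_pos hc _).ne'
  · exact h12

theorem exists_bd_near (hp : IsHyperbolic p e) (h0 : eval 0 p = 0) {y : Fin n → ℝ}
    (hy : y ∈ hypCone p e) (hy0 : eval y p = 0) {δ : ℝ} (hδ0 : 0 < δ) :
    ∀ᶠ x in 𝓝 y, ∃ s : ℝ, |s| ≤ δ ∧ x + s • e ∈ hypCone p e ∧ eval (x + s • e) p = 0 := by
  have hyo : InOpen p e (y + δ • e) := K_add_open hp hy ((e_inOpen hp).smul hp hδ0)
  have hyn : y - δ • e ∉ hypCone p e := by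
    intro h
    have h1 := K_add_open hp h ((e_inOpen hp).smul hp hδ0)
    rw [sub_add_cancel] at h1
    have h2 := h1 0 le_rfl
    rw [zero_smul, add_zero] at h2
    exact h2 hy0
  have e1 : ∀ᶠ x in 𝓝 y, InOpen p e (x + δ • e) := by
    have c1 : Continuous (fun x : Fin n → ℝ => x + δ • e) := by fun_prop
    exact c1.continuousAt.eventually ((isOpen_inOpen hp).mem_nhds hyo)
  have e2 : ∀ᶠ x in 𝓝 y, x - δ • e ∉ hypCone p e := by
    have c1 : Continuous (fun x : Fin n → ℝ => x - δ • e) := by fun_prop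
    exact c1.continuousAt.eventually ((isClosed_K hp).isOpen_compl.mem_nhds hyn)
  filter_upwards [e1, e2] with x h1 h2
  obtain ⟨s, hs1, hs2⟩ := exists_min hp x (e_inOpen hp) (neg_open_not_mem hp h0 (e_inOpen hp))
  refine ⟨s, abs_le.2 ⟨?_, ?_⟩, hs1, hs2⟩
  · by_contra hlt
    push Not at hlt
    apply h2
    have h3 := K_add hp hs1 (K_smul hp ((e_inOpen hp).mem hp) (c := -δ - s) (by linarith))
    have h4 : x + s • e + (-δ - s) • e = x - δ • e := by
      funext i
      simp only [Pi.add_apply, Pi.smul_apply, Pi.sub_apply, smul_eq_mul]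
      ring
    rwa [h4] at h3
  · by_contra hlt
    push Not at hlt
    have h3 := K_add_open hp (h1.mem hp) ((e_inOpen hp).smul hp (sub_pos.2 hlt))
    have h4 : x + δ • e + (s - δ) • e = x + s • e := by
      funext i
      simp only [Pi.add_apply, Pi.smul_apply, smul_eq_mul]
      ring
    rw [h4] at h3
    have h5 := h3 0 le_rfl
    rw [zero_smul, add_zero] at h5
    exact h5 hs2

theorem eval_zero_of_irreducible (hp : IsHyperbolic p e) (hirr : Irreducible p) :
    eval 0 p = 0 := by
  obtain ⟨d, hd⟩ := hp.1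
  have hd0 : d ≠ 0 := by
    rintro rfl
    have h1 := (MvPolynomial.totalDegree_zero_iff_isHomogeneous (Fin n)).2 hd
    rw [MvPolynomial.totalDegree_eq_zero_iff_eq_C] at h1
    apply hirr.not_isUnit
    rw [h1]
    refine (isUnit_iff_ne_zero.2 fun h2 => ?_).map C
    rw [h2, map_zero] at h1
    exact hirr.ne_zero h1
  have := eval_smul' hd 0 e
  rwa [zero_smul, zero_pow hd0, zero_mul] at this

/-- a polynomial which vanishes near a point is zero -/
theorem eq_zero_of_eventually {r : MvPolynomial (Fin n) ℝ} {y : Fin n → ℝ}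
    (h : ∀ᶠ x in 𝓝 y, eval x r = 0) : r = 0 := by
  obtain ⟨ε, hε, hball⟩ := Metric.eventually_nhds_iff.1 h
  refine MvPolynomial.funext_set (fun i => Set.Ioo (y i - ε / 2) (y i + ε / 2))
    (fun i => Set.Ioo_infinite (by linarith)) fun x hx => ?_
  rw [map_zero]
  apply hball
  rw [dist_pi_lt_iff hε]
  intro i
  have := hx i (Set.mem_univ i)
  rw [Real.dist_eq, abs_lt]
  constructor <;> linarith [this.1, this.2]

/-- **Density of smooth boundary points.** -/
theorem dense_smooth (hp : IsHyperbolic p e) (hirr : Irreducible p) :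
    ∀ y ∈ bdT p e, ∀ U ∈ 𝓝 y, ∃ y' ∈ U ∩ bdT p e, 0 < dd p y' e := by
  obtain ⟨r, hr, hdisc⟩ := exists_disc hp hirr
  intro y hy U hU
  by_contra hcon
  push Not at hcon
  apply hr
  have hy0 : y ≠ 0 := by
    rintro rfl
    have := hy.2.2
    simp at this
  have hz : ∀ y' ∈ U ∩ bdT p e, dd p y' e = 0 := fun y' h => le_antisymm (hcon y' h)
    (K_dd_nonneg hp h.2.1 h.2.2.1 ((e_inOpen hp).mem hp))
  have c1 : Continuous (fun w : (Fin n → ℝ) × ℝ => w.1 + w.2 • e) := by fun_prop
  have c2 : Tendsto (fun w : (Fin n → ℝ) × ℝ => w.1 + w.2 • e) (𝓝 y ×ˢ 𝓝 0) (𝓝 y) := by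
    have := c1.tendsto (y, (0 : ℝ))
    rw [nhds_prod_eq] at this
    simpa using this
  have c3 : ∀ᶠ w in 𝓝 y ×ˢ 𝓝 (0 : ℝ), nrm (w.1 + w.2 • e) ∈ U ∧ w.1 + w.2 • e ≠ 0 := by
    have c4 : ∀ᶠ x in 𝓝 y, nrm x ∈ U :=
      (nrm_cont hy.2.2).eventually (by rw [nrm_of_unit hy.2.2]; exact hU)
    exact (c2.eventually c4).and (c2.eventually (isOpen_ne.mem_nhds hy0))
  obtain ⟨A, hA, D, hD, hAD⟩ := Filter.mem_prod_iff.1 c3
  obtain ⟨δ, hδ, hδD⟩ := Metric.mem_nhds_iff.1 hD
  apply eq_zero_of_eventually (y := y)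
  filter_upwards [exists_bd_near hp (eval_zero_of_irreducible hp hirr) hy.1 hy.2.1
    (half_pos hδ), hA] with x ⟨s, hs, hs1, hs2⟩ hxA
  have hsD : s ∈ D := by
    apply hδD
    rw [Metric.mem_ball, Real.dist_eq, sub_zero]
    linarith
  have hmem := hAD (Set.mk_mem_prod hxA hsD)
  exact hdisc x s hs2 (nrm_dd hp hmem.2 e (hz _ ⟨hmem.1, nrm_mem hp hs1 hs2 hmem.2⟩))

end Vale.Agent.P256.H387
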