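import Vale.Agent.P256.H387.NKc

/-! Facts on the geometric context: existence and properties of the limit functional, coordinates
in a frame, the first facts on the two sides. -/

set_option linter.all false

namespace Vale.Agent.P256.H387

open MvPolynomial Filter Topology Matrix Vale.Agent.P256 Vale.Agent.P256.H326

section Zeta

variable {p : MvPolynomial (Fin 4) ℝ} {e z : Fin 4 → ℝ}

theorem sl_add (p : MvPolynomial (Fin 4) ℝ) (e y x x' : Fin 4 → ℝ) :
    sl p e y (x + x') = sl p e y x + sl p e y x' := by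
  rw [sl, sl, sl, dd_add, add_div]

theorem sl_smul (p : MvPolynomial (Fin 4) ℝ) (e y : Fin 4 → ℝ) (c : ℝ) (x : Fin 4 → ℝ) :
    sl p e y (c • x) = c * sl p e y x := by
  rw [sl, sl, dd_smul, mul_div_assoc]

theorem sl_nonneg (hp : IsHyperbolic p e) {y x : Fin 4 → ℝ} (hy : y ∈ smT p e)
    (hx : x ∈ hypCone p e) : 0 ≤ sl p e y x :=
  div_nonneg (K_dd_nonneg hp hy.1.1 hy.1.2.1 hx) hy.2.le

theorem sl_e {y : Fin 4 → ℝ} (hy : y ∈ smT p e) : sl p e y e = 1 := div_self hy.2.ne'

theorem sl_self (hp : IsHyperbolic p e) {y : Fin 4 → ℝ} (hy : y ∈ smT p e) :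
    sl p e y y = 0 := by
  obtain ⟨d, hd⟩ := hp.1
  rw [sl, dd_euler hd, hy.1.2.1, mul_zero, zero_div]

/-- the normalised functionals are bounded -/
theorem sl_bdd (hp : IsHyperbolic p e) (x : Fin 4 → ℝ) :
    ∃ c : ℝ, ∀ y ∈ smT p e, |sl p e y x| ≤ c := by
  obtain ⟨δ, hδ, h⟩ := exists_e_add hp x
  refine ⟨δ⁻¹, fun y hy => ?_⟩
  have h1 := sl_nonneg hp hy ((h δ (by rw [abs_of_pos hδ])).mem hp)
  have h2 := sl_nonneg hp hy ((h (-δ) (by rw [abs_neg, abs_of_pos hδ])).mem hp)
  rw [sl_add, sl_smul, sl_e hy] at h1 h2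
  rw [abs_le, ← one_div, neg_le_iff_add_nonneg, le_div_iff₀ hδ]
  constructor
  · have : sl p e y x + 1 / δ = δ⁻¹ * (1 + δ * sl p e y x) := by field_simp; ring
    rw [this]
    positivity
  · nlinarith

theorem exists_zeta (hp : IsHyperbolic p e) (U : Ultrafilter (Fin 4 → ℝ)) (hU : smT p e ∈ U) :
    ∃ ζ : (Fin 4 → ℝ) →ₗ[ℝ] ℝ, ∀ x,
      Tendsto (fun y => dd p y x / dd p y e) (U : Filter (Fin 4 → ℝ)) (𝓝 (ζ x)) := by
  have h1 : ∀ x, ∃ b : ℝ, Tendsto (fun y => sl p e y x) (U : Filter (Fin 4 → ℝ)) (𝓝 b) := by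
    intro x
    obtain ⟨c, hc⟩ := sl_bdd hp x
    obtain ⟨b, -, hb⟩ := exists_tendsto U (a := fun y => sl p e y x) (c := c)
      (by filter_upwards [hU] with y hy using hc y hy)
    exact ⟨b, hb⟩
  choose b hb using h1
  refine ⟨{ toFun := b, map_add' := fun x x' => ?_, map_smul' := fun c x => ?_ }, hb⟩
  · refine tendsto_nhds_unique (hb (x + x')) (((hb x).add (hb x')).congr fun y => ?_)
    rw [sl_add]
  · refine tendsto_nhds_unique (hb (c • x)) (((hb x).const_mul c).congr fun y => ?_)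
    rw [sl_smul]

end Zeta

namespace Ctx

variable {p : MvPolynomial (Fin 4) ℝ} {e z : Fin 4 → ℝ} {U V : Ultrafilter (Fin 4 → ℝ)}
  {ζ : (Fin 4 → ℝ) →ₗ[ℝ] ℝ}

theorem lim' (C : Ctx p e z U V ζ) (x : Fin 4 → ℝ) :
    Tendsto (fun y => sl p e y x) (U : Filter (Fin 4 → ℝ)) (𝓝 (ζ x)) := C.lim x

theorem ζe (C : Ctx p e z U V ζ) : ζ e = 1 := by
  refine tendsto_nhds_unique (C.lim' e) ?_
  refine tendsto_const_nhds.congr' ?_
  filter_upwards [C.sU] with y hy
  rw [sl_e hy]

theorem ζ_nonneg (C : Ctx p e z U V ζ) {x : Fin 4 → ℝ} (hx : x ∈ hypCone p e) : 0 ≤ ζ x := by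
  refine ge_of_tendsto (C.lim' x) ?_
  filter_upwards [C.sU] with y hy using sl_nonneg C.hyp hy hx

theorem sl_sum (p : MvPolynomial (Fin 4) ℝ) (e y x : Fin 4 → ℝ) :
    sl p e y x = ∑ i, x i * sl p e y (Pi.single i 1) := by
  have h2 : x = ∑ i, x i • (Pi.single i (1 : ℝ) : Fin 4 → ℝ) := by
    ext i; simp [Finset.sum_apply, Pi.single_apply]
  have hz : sl p e y 0 = 0 := by
    have := sl_smul p e y 0 0
    rwa [zero_smul, zero_mul] at this
  have h3 : ∀ s : Finset (Fin 4), sl p e y (∑ i ∈ s, x i • (Pi.single i (1 : ℝ) : Fin 4 → ℝ)) =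
      ∑ i ∈ s, x i * sl p e y (Pi.single i 1) := by
    intro s
    induction s using Finset.induction_on with
    | empty => simpa using hz
    | insert i s hi ih => rw [Finset.sum_insert hi, Finset.sum_insert hi, sl_add, sl_smul, ih]
  conv_lhs => rw [h2]
  exact h3 _

theorem ζz (C : Ctx p e z U V ζ) : ζ z = 0 := by
  refine tendsto_nhds_unique (C.lim' z) ?_
  have h1 : Tendsto (fun y => sl p e y (z - y)) (U : Filter (Fin 4 → ℝ)) (𝓝 0) := by
    have h2 : Tendsto (fun y : Fin 4 → ℝ => ∑ i, (z - y) i * sl p e y (Pi.single i 1))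
        (U : Filter (Fin 4 → ℝ)) (𝓝 (∑ i, 0 * ζ (Pi.single i 1))) := by
      refine tendsto_finset_sum _ fun i _ => Tendsto.mul ?_ (C.lim' _)
      have h3 : Tendsto (fun y : Fin 4 → ℝ => (z - y) i) (𝓝 z) (𝓝 ((z - z) i)) := by
        have : Continuous (fun y : Fin 4 → ℝ => (z - y) i) := by fun_prop
        exact this.tendsto z
      rw [sub_self] at h3
      exact h3.mono_left C.hU
    simp only [zero_mul, Finset.sum_const_zero] at h2
    refine h2.congr fun y => ?_
    exact (sl_sum p e y (z - y)).symm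
  refine h1.congr' ?_
  filter_upwards [C.sU] with y hy
  have h4 : sl p e y (z - y) + sl p e y y = sl p e y z := by
    rw [← sl_add, sub_add_cancel]
  rw [sl_self C.hyp hy, add_zero] at h4
  exact h4

/-- passing to the unnormalised kernel -/
theorem sosF_dd (C : Ctx p e z U V ζ)
    (H : SosF (U : Filter (Fin 4 → ℝ)) (V : Filter (Fin 4 → ℝ)) (sl p e)) :
    SosF (U : Filter (Fin 4 → ℝ)) (V : Filter (Fin 4 → ℝ)) (fun y x => dd p y x) := by
  have h1 : SosF (U : Filter (Fin 4 → ℝ)) (V : Filter (Fin 4 → ℝ))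
      (fun y (_ : Fin 4 → ℝ) => dd p y e) :=
    SosF.left (by filter_upwards [C.sU] with y hy using hy.2.le)
  refine (h1.mul H).congr ?_
  refine EqF.of_eventually (fun y => y ∈ smT p e) (fun _ => True) C.sU (by simp)
    fun y x hy _ => ?_
  rw [sl, mul_div_cancel₀ _ hy.2.ne']

end Ctx

/-! ### coordinates -/

section Co

variable {e z f w : Fin 4 → ℝ}

theorem det_frame (li : LinearIndependent ℝ ![z, e, f, w]) :
    IsUnit ((Matrix.of ![z, e, f, w])ᵀ).det := by
  rw [Matrix.det_transpose]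
  have h1 : LinearIndependent ℝ (Matrix.of ![z, e, f, w]).row := li
  have h2 := Matrix.linearIndependent_rows_iff_isUnit.1 h1
  exact (Matrix.isUnit_iff_isUnit_det _).1 h2

theorem frame_mulVec (z e f w c : Fin 4 → ℝ) :
    (Matrix.of ![z, e, f, w])ᵀ *ᵥ c = c 0 • z + c 1 • e + c 2 • f + c 3 • w := by
  funext i
  simp only [Matrix.mulVec, dotProduct, Matrix.transpose_apply, Matrix.of_apply,
    Fin.sum_univ_four, Pi.add_apply, Pi.smul_apply, smul_eq_mul]
  show z i * c 0 + e i * c 1 + f i * c 2 + w i * c 3 =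
    c 0 * z i + c 1 * e i + c 2 * f i + c 3 * w i
  ring

theorem co_spec (li : LinearIndependent ℝ ![z, e, f, w]) (y : Fin 4 → ℝ) :
    y = co e z f w y 0 • z + co e z f w y 1 • e + co e z f w y 2 • f + co e z f w y 3 • w := by
  rw [← frame_mulVec, co, Matrix.mulVec_mulVec, Matrix.mul_nonsing_inv _ (det_frame li),
    Matrix.one_mulVec]

theorem co_unique (li : LinearIndependent ℝ ![z, e, f, w]) {y c : Fin 4 → ℝ}
    (h : y = c 0 • z + c 1 • e + c 2 • f + c 3 • w) : co e z f w y = c := by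
  rw [h, ← frame_mulVec, co, Matrix.mulVec_mulVec, Matrix.nonsing_inv_mul _ (det_frame li),
    Matrix.one_mulVec]

theorem continuous_co (e z f w : Fin 4 → ℝ) (i : Fin 4) :
    Continuous (fun y => co e z f w y i) := by
  have h1 : (fun y => co e z f w y i) =
      fun y => ∑ j, ((Matrix.of ![z, e, f, w])ᵀ)⁻¹ i j * y j := by
    funext y
    rfl
  rw [h1]
  fun_prop

theorem co_z (li : LinearIndependent ℝ ![z, e, f, w]) : co e z f w z = ![1, 0, 0, 0] := by
  refine co_unique li ?_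
  simp

theorem tendsto_co0 (li : LinearIndependent ℝ ![z, e, f, w]) {W : Filter (Fin 4 → ℝ)}
    (hW : W ≤ 𝓝 z) : Tendsto (fun y => co e z f w y 0) W (𝓝 1) := by
  have h1 := ((continuous_co e z f w 0).tendsto z).mono_left hW
  rw [co_z li] at h1
  simpa using h1

theorem tendsto_coi (li : LinearIndependent ℝ ![z, e, f, w]) {W : Filter (Fin 4 → ℝ)}
    (hW : W ≤ 𝓝 z) {i : Fin 4} (hi : i ≠ 0) :
    Tendsto (fun y => co e z f w y i / co e z f w y 0) W (𝓝 0) := by
  have h1 := ((continuous_co e z f w i).tendsto z).mono_left hW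
  have h0 := tendsto_co0 li hW
  have h2 : co e z f w z i = 0 := by
    rw [co_z li]
    fin_cases i
    · exact absurd rfl hi
    · rfl
    · rfl
    · rfl
  rw [h2] at h1
  have h3 := h1.div h0 one_ne_zero
  rwa [zero_div] at h3

end Co

section Sides

attribute [local irreducible] co

variable {p : MvPolynomial (Fin 4) ℝ} {e z : Fin 4 → ℝ} {U V : Ultrafilter (Fin 4 → ℝ)}
  {ζ : (Fin 4 → ℝ) →ₗ[ℝ] ℝ} {f w : Fin 4 → ℝ}

theorem Ctx.ζ_co (C : Ctx p e z U V ζ) (Fm : Fr e z ζ f w) (y : Fin 4 → ℝ) :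
    ζ y = co e z f w y 1 := by
  conv_lhs => rw [co_spec Fm.li y]
  rw [map_add, map_add, map_add, map_smul, map_smul, map_smul, map_smul, C.ζz, C.ζe, Fm.ζf, Fm.ζw]
  simp

theorem Ctx.co1_nonneg (C : Ctx p e z U V ζ) (Fm : Fr e z ζ f w) {y : Fin 4 → ℝ}
    (hy : y ∈ hypCone p e) : 0 ≤ co e z f w y 1 := by
  rw [← C.ζ_co Fm]
  exact C.ζ_nonneg hy

theorem sl_co (Fm : Fr e z ζ f w) (y x : Fin 4 → ℝ) :
    sl p e y x = co e z f w x 0 * sl p e y z + co e z f w x 1 * sl p e y e +
      co e z f w x 2 * sl p e y f + co e z f w x 3 * sl p e y w := by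
  conv_lhs => rw [co_spec Fm.li x]
  rw [sl_add, sl_add, sl_add, sl_smul, sl_smul, sl_smul, sl_smul]

theorem mem_of_cone_z (C : Ctx p e z U V ζ) : z ∈ hypCone p e := C.hz.1

/-- `0 ≤ x₀ ≤ |b| |ζ_y(f)| + |a| |ζ_y(w)|` on the functional side -/
theorem Ctx.x0_le (C : Ctx p e z U V ζ) (Fm : Fr e z ζ f w) :
    ∀ᶠ y in (U : Filter (Fin 4 → ℝ)), (crd e z f w).x0 y ≤
      |(crd e z f w).b y| * |sl p e y f| + |(crd e z f w).a y| * |sl p e y w| := by
  have h0 : ∀ᶠ y in (U : Filter (Fin 4 → ℝ)), 0 < co e z f w y 0 :=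
    (tendsto_co0 Fm.li C.hU).eventually_const_lt one_pos
  filter_upwards [C.sU, h0] with y hy h0
  have h1 := sl_self C.hyp hy
  rw [sl_co Fm, sl_e hy] at h1
  have h2 := sl_nonneg C.hyp hy C.hz.1
  have h3 : co e z f w y 1 ≤ |co e z f w y 2| * |sl p e y f| + |co e z f w y 3| * |sl p e y w| := by
    rw [← abs_mul, ← abs_mul]
    have h4 := neg_abs_le (co e z f w y 2 * sl p e y f)
    have h5 := neg_abs_le (co e z f w y 3 * sl p e y w)
    have h6 : 0 ≤ co e z f w y 0 * sl p e y z := mul_nonneg h0.le h2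
    linarith
  show co e z f w y 1 / co e z f w y 0 ≤ |co e z f w y 2 / co e z f w y 0| * _ +
    |co e z f w y 3 / co e z f w y 0| * _
  rw [abs_div, abs_div, abs_of_pos h0, div_le_iff₀ h0]
  have : (|co e z f w y 2| / co e z f w y 0 * |sl p e y f| +
      |co e z f w y 3| / co e z f w y 0 * |sl p e y w|) * co e z f w y 0 =
      |co e z f w y 2| * |sl p e y f| + |co e z f w y 3| * |sl p e y w| := by
    field_simp
  rw [this]
  exact h3

theorem Ctx.x0_nonneg (C : Ctx p e z U V ζ) (Fm : Fr e z ζ f w) :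
    ∀ᶠ y in (U : Filter (Fin 4 → ℝ)), 0 ≤ (crd e z f w).x0 y := by
  have h0 : ∀ᶠ y in (U : Filter (Fin 4 → ℝ)), 0 < co e z f w y 0 :=
    (tendsto_co0 Fm.li C.hU).eventually_const_lt one_pos
  filter_upwards [C.sU, h0] with y hy h0
  exact div_nonneg (C.co1_nonneg Fm hy.1.1) h0.le

theorem Ctx.y0_nonneg (C : Ctx p e z U V ζ) (Fm : Fr e z ζ f w) :
    ∀ᶠ y in (V : Filter (Fin 4 → ℝ)), 0 ≤ (crd e z f w).y0 y := by
  have h0 : ∀ᶠ y in (V : Filter (Fin 4 → ℝ)), 0 < co e z f w y 0 :=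
    (tendsto_co0 Fm.li C.hV).eventually_const_lt one_pos
  filter_upwards [C.sV, h0] with y hy h0
  exact div_nonneg (C.co1_nonneg Fm hy.1.1) h0.le

/-- **0.1** -/
theorem Ctx.x0_small (C : Ctx p e z U V ζ) (Fm : Fr e z ζ f w) :
    Tendsto (fun y => (crd e z f w).x0 y / (|(crd e z f w).b y| + |(crd e z f w).a y|))
      (U : Filter (Fin 4 → ℝ)) (𝓝 0) := by
  have hf := C.lim' f
  have hw := C.lim' w
  rw [Fm.ζf] at hf
  rw [Fm.ζw] at hw
  have h1 : Tendsto (fun y => |sl p e y f| + |sl p e y w|) (U : Filter (Fin 4 → ℝ)) (𝓝 0) := by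
    have := hf.abs.add hw.abs
    simpa using this
  refine squeeze_zero' ?_ ?_ h1
  · filter_upwards [C.x0_nonneg Fm] with y hy
    exact div_nonneg hy (by positivity)
  · filter_upwards [C.x0_le Fm] with y hy
    have hb := abs_nonneg ((crd e z f w).b y)
    have ha := abs_nonneg ((crd e z f w).a y)
    refine div_le_of_le_mul₀ (by positivity) (by positivity) (hy.trans ?_)
    nlinarith [mul_nonneg hb (abs_nonneg (sl p e y w)), mul_nonneg ha (abs_nonneg (sl p e y f))]

/-- the direction of the point side is tangent to the kernel of `ζ`, or the kernel is SOS -/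
theorem Ctx.transversal (C : Ctx p e z U V ζ) (Fm : Fr e z ζ f w) :
    Tendsto (fun x => (crd e z f w).y0 x / (|(crd e z f w).b' x| + |(crd e z f w).a' x|))
      (V : Filter (Fin 4 → ℝ)) (𝓝 0) ∨
    SosF (U : Filter (Fin 4 → ℝ)) (V : Filter (Fin 4 → ℝ)) (sl p e) := by
  by_cases h : Tendsto (fun x => (crd e z f w).y0 x / (|(crd e z f w).b' x| +
      |(crd e z f w).a' x|)) (V : Filter (Fin 4 → ℝ)) (𝓝 0)
  · exact Or.inl h
  · right
    set y0 : (Fin 4 → ℝ) → ℝ := (crd e z f w).y0 with hy0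
    set b : (Fin 4 → ℝ) → ℝ := (crd e z f w).b' with hb
    set a : (Fin 4 → ℝ) → ℝ := (crd e z f w).a' with ha
    have h0 : ∀ᶠ y in (V : Filter (Fin 4 → ℝ)), 0 < co e z f w y 0 :=
      (tendsto_co0 Fm.li C.hV).eventually_const_lt one_pos
    -- a positive lower bound
    have hc : ∃ c : ℝ, 0 < c ∧ ∀ᶠ x in (V : Filter (Fin 4 → ℝ)), c * (|b x| + |a x|) ≤ y0 x := by
      by_contra hcon
      push Not at hcon
      apply h
      rw [Metric.tendsto_nhds]
      intro c hc
      have h1 := hcon c hc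
      filter_upwards [h1, C.y0_nonneg Fm] with x hx hx0
      rw [Real.dist_eq, sub_zero, abs_of_nonneg (div_nonneg hx0 (by positivity))]
      have h3 : 0 < |b x| + |a x| := by
        rcases (add_nonneg (abs_nonneg (b x)) (abs_nonneg (a x))).eq_or_lt with h4 | h4
        · rw [← h4, mul_zero] at hx
          exact absurd hx (not_lt.2 hx0)
        · exact h4
      rw [div_lt_iff₀ h3]
      exact hx
    obtain ⟨c, hc, hlow⟩ := hc
    -- bounded quotients
    have hq : ∀ g : (Fin 4 → ℝ) → ℝ, (∀ᶠ x in (V : Filter (Fin 4 → ℝ)), c * |g x| ≤ y0 x) →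
        ∃ l : ℝ, Tendsto (fun x => g x / y0 x) (V : Filter (Fin 4 → ℝ)) (𝓝 l) := by
      intro g hg
      obtain ⟨l, -, hl⟩ := exists_tendsto V (a := fun x => g x / y0 x) (c := c⁻¹) (by
        filter_upwards [hg, C.y0_nonneg Fm] with x hx hx0
        rw [abs_div]
        have hx0' : |y0 x| = y0 x := abs_of_nonneg hx0
        rw [hx0']
        refine div_le_of_le_mul₀ hx0 (by positivity) ?_
        rw [inv_mul_eq_div, le_div_iff₀ hc]
        linarith)
      exact ⟨l, hl⟩
    obtain ⟨lb, hlb⟩ := hq b (by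
      filter_upwards [hlow] with x hx
      have := abs_nonneg (a x)
      nlinarith)
    obtain ⟨la, hla⟩ := hq a (by
      filter_upwards [hlow] with x hx
      have := abs_nonneg (b x)
      nlinarith)
    have hf := C.lim' f
    have hw := C.lim' w
    rw [Fm.ζf] at hf
    rw [Fm.ζw] at hw
    have hg : GermFR (U : Filter (Fin 4 → ℝ)) (V : Filter (Fin 4 → ℝ))
        (fun y x => 1 + sl p e y f * (b x / y0 x) + sl p e y w * (a x / y0 x)) 1 :=
      (((GermFR.const 1).add (GermFR.mulfun hf hlb)).add (GermFR.mulfun hw hla)).congr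
        (fun y x => rfl) (by ring)
    have h1 : SosF (U : Filter (Fin 4 → ℝ)) (V : Filter (Fin 4 → ℝ)) (fun y x =>
        co e z f w x 0 * (sl p e y z + y0 x *
        (1 + sl p e y f * (b x / y0 x) + sl p e y w * (a x / y0 x)))) := by
      refine (SosF.right (h0.mono fun x hx => hx.le)).mul (SosF.add (SosF.left ?_)
        ((SosF.right (C.y0_nonneg Fm)).mul (GermFR.sosF hg one_pos)))
      filter_upwards [C.sU] with y hy using sl_nonneg C.hyp hy C.hz.1
    refine h1.congr ?_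
    refine EqF.of_eventually (fun y => y ∈ smT p e) (fun x => 0 < co e z f w x 0 ∧
      c * (|b x| + |a x|) ≤ y0 x ∧ 0 ≤ y0 x) C.sU (by
        filter_upwards [h0, hlow, C.y0_nonneg Fm] with x h1 h2 h3 using ⟨h1, h2, h3⟩)
      fun y x hy hx => ?_
    obtain ⟨hx1, hx2, hx3⟩ := hx
    have e1 : y0 x * (b x / y0 x) = b x := by
      rcases hx3.eq_or_lt with h4 | h4
      · have : |b x| + |a x| ≤ 0 := by
          rw [← h4] at hx2
          nlinarith [abs_nonneg (b x), abs_nonneg (a x)]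
        have hb0 : b x = 0 := by
          have := abs_nonneg (a x)
          have := abs_nonneg (b x)
          exact abs_eq_zero.1 (by linarith)
        rw [hb0]; simp
      · exact mul_div_cancel₀ _ h4.ne'
    have e2 : y0 x * (a x / y0 x) = a x := by
      rcases hx3.eq_or_lt with h4 | h4
      · have : |b x| + |a x| ≤ 0 := by
          rw [← h4] at hx2
          nlinarith [abs_nonneg (b x), abs_nonneg (a x)]
        have ha0 : a x = 0 := by
          have := abs_nonneg (a x)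
          have := abs_nonneg (b x)
          exact abs_eq_zero.1 (by linarith)
        rw [ha0]; simp
      · exact mul_div_cancel₀ _ h4.ne'
    have e3 : co e z f w x 0 * y0 x = co e z f w x 1 := mul_div_cancel₀ _ hx1.ne'
    have e4 : co e z f w x 0 * b x = co e z f w x 2 := mul_div_cancel₀ _ hx1.ne'
    have e5 : co e z f w x 0 * a x = co e z f w x 3 := mul_div_cancel₀ _ hx1.ne'
    rw [sl_co Fm y x, sl_e hy, ← e3, ← e4, ← e5]
    linear_combination (-(co e z f w x 0 * sl p e y f)) * e1 -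
      (co e z f w x 0 * sl p e y w) * e2

end Sides

end Vale.Agent.P256.H387
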