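import Vale.Agent.P256.Bdl.B1

/-! Factors of hyperbolic polynomials, and the discriminant argument: for an irreducible
hyperbolic `p` the points of the boundary at which `p` is smooth are dense in the boundary. -/

set_option linter.all false

namespace Vale.Agent.P256.H387

open MvPolynomial Filter Topology Vale.Agent.P256

variable {n : ℕ} {p : MvPolynomial (Fin n) ℝ} {e : Fin n → ℝ}

/-! ### homogeneous factors -/

/-- substitution `x ↦ t x` -/
noncomputable def scaleT (n : ℕ) :
    MvPolynomial (Fin n) ℝ →ₐ[ℝ] Polynomial (MvPolynomial (Fin n) ℝ) :=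
  aeval fun i => Polynomial.C (X i) * Polynomial.X

theorem scaleT_homog {q : MvPolynomial (Fin n) ℝ} {k : ℕ} (hq : q.IsHomogeneous k) :
    scaleT n q = Polynomial.C q * Polynomial.X ^ k := by
  have h1 : aeval (fun i : Fin n => (Polynomial.X * Polynomial.C (X i) :
      Polynomial (MvPolynomial (Fin n) ℝ))) q = Polynomial.X ^ k *
      aeval (fun i : Fin n => (Polynomial.C (X i) : Polynomial (MvPolynomial (Fin n) ℝ))) q :=
    aeval_smul hq Polynomial.X _
  have h2 : scaleT n = aeval (fun i : Fin n => (Polynomial.X * Polynomial.C (X i) :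
      Polynomial (MvPolynomial (Fin n) ℝ))) := by
    unfold scaleT
    congr 1
    funext i
    exact mul_comm _ _
  have h3 : (aeval (fun i : Fin n => (Polynomial.C (X i) : Polynomial (MvPolynomial (Fin n) ℝ))) :
      MvPolynomial (Fin n) ℝ →ₐ[ℝ] _) =
      (Algebra.ofId (MvPolynomial (Fin n) ℝ) (Polynomial (MvPolynomial (Fin n) ℝ))).restrictScalars ℝ := by
    apply MvPolynomial.algHom_ext
    intro i
    simp [Algebra.ofId_apply]
  rw [h2, h1, h3, mul_comm]
  rfl

theorem coeff_scaleT (q : MvPolynomial (Fin n) ℝ) (k : ℕ) :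
    (scaleT n q).coeff k = homogeneousComponent k q := by
  have h1 : scaleT n q = ∑ j ∈ Finset.range (q.totalDegree + 1),
      Polynomial.C (homogeneousComponent j q) * Polynomial.X ^ j := by
    conv_lhs => rw [← sum_homogeneousComponent q, map_sum]
    exact Finset.sum_congr rfl fun j _ => scaleT_homog (homogeneousComponent_isHomogeneous j q)
  rw [h1, Polynomial.finsetSum_coeff]
  simp only [Polynomial.coeff_C_mul_X_pow]
  rw [Finset.sum_ite_eq]
  split_ifs with h
  · rfl
  · rw [homogeneousComponent_eq_zero]
    simpa using h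

/-- factors of homogeneous polynomials are homogeneous -/
theorem homog_of_mul {a b : MvPolynomial (Fin n) ℝ} {d : ℕ} (h : (a * b).IsHomogeneous d)
    (h0 : a * b ≠ 0) : ∃ k, a.IsHomogeneous k := by
  have h1 : scaleT n a * scaleT n b = Polynomial.C (a * b) * Polynomial.X ^ d := by
    rw [← map_mul, scaleT_homog h]
  have hinj : ∀ q : MvPolynomial (Fin n) ℝ, q ≠ 0 → scaleT n q ≠ 0 := by
    intro q hq hs
    apply hq
    rw [← sum_homogeneousComponent q]
    refine Finset.sum_eq_zero fun j _ => ?_
    rw [← coeff_scaleT, hs, Polynomial.coeff_zero]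
  have ha : scaleT n a ≠ 0 := hinj a (left_ne_zero_of_mul h0)
  have hb : scaleT n b ≠ 0 := hinj b (right_ne_zero_of_mul h0)
  have hC : (Polynomial.C (a * b) : Polynomial (MvPolynomial (Fin n) ℝ)) ≠ 0 := by
    rwa [Ne, Polynomial.C_eq_zero]
  have e1 : (scaleT n a).natDegree + (scaleT n b).natDegree = d := by
    rw [← Polynomial.natDegree_mul ha hb, h1, Polynomial.natDegree_C_mul_X_pow _ _ h0]
  have e2 : (scaleT n a).natTrailingDegree + (scaleT n b).natTrailingDegree = d := by
    rw [← Polynomial.natTrailingDegree_mul ha hb, h1, Polynomial.natTrailingDegree_mul_X_pow hC,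
      Polynomial.natTrailingDegree_C, zero_add]
  have e3 := Polynomial.natTrailingDegree_le_natDegree (scaleT n a)
  have e4 := Polynomial.natTrailingDegree_le_natDegree (scaleT n b)
  have e5 : (scaleT n a).natTrailingDegree = (scaleT n a).natDegree := by omega
  refine ⟨(scaleT n a).natDegree, ?_⟩
  have h2 : a = homogeneousComponent (scaleT n a).natDegree a := by
    conv_lhs => rw [← sum_homogeneousComponent a]
    refine Finset.sum_eq_single _ (fun j _ hj => ?_) (fun hj => ?_)
    · rw [← coeff_scaleT]
      rcases lt_or_gt_of_ne hj with h | h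
      · exact Polynomial.coeff_eq_zero_of_lt_natTrailingDegree (by omega)
      · exact Polynomial.coeff_eq_zero_of_natDegree_lt h
    · rw [homogeneousComponent_eq_zero]
      simpa using hj
  have h3 : (homogeneousComponent (scaleT n a).natDegree a).IsHomogeneous
      (scaleT n a).natDegree := homogeneousComponent_isHomogeneous _ a
  rwa [← h2] at h3

/-- each factor of a hyperbolic polynomial is hyperbolic, up to sign -/
theorem hyp_of_mul {a b : MvPolynomial (Fin n) ℝ} (hp : IsHyperbolic (a * b) e) :
    IsHyperbolic a e ∨ IsHyperbolic (-a) e := by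
  obtain ⟨⟨d, hd⟩, he, hr⟩ := hp
  rw [map_mul] at he
  have hne : a * b ≠ 0 := by
    intro h
    rw [← map_mul, h, map_zero] at he
    exact lt_irrefl _ he
  obtain ⟨k, hk⟩ := homog_of_mul hd hne
  have hr' : ∀ (x : Fin n → ℝ) (t : ℂ), aeval (fun i => t * (e i : ℂ) - (x i : ℂ)) a = 0 →
      t.im = 0 := fun x t h => hr x t (by rw [map_mul, h, zero_mul])
  have hae : eval e a ≠ 0 := left_ne_zero_of_mul he.ne'
  rcases lt_or_gt_of_ne hae with h | h
  · right
    refine ⟨⟨k, ?_⟩, by rw [map_neg]; linarith, fun x t ht => hr' x t (by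
      rw [map_neg, neg_eq_zero] at ht; exact ht)⟩
    have := (homogeneousSubmodule (Fin n) ℝ k).neg_mem ((mem_homogeneousSubmodule k a).2 hk)
    exact (mem_homogeneousSubmodule k (-a)).1 this
  · exact Or.inl ⟨⟨k, hk⟩, h, hr'⟩

theorem hypCone_mul (a b : MvPolynomial (Fin n) ℝ) (e : Fin n → ℝ) :
    hypCone (a * b) e = hypCone a e ∩ hypCone b e := by
  ext x
  constructor
  · intro h
    exact ⟨fun t ht => h t (by rw [map_mul, ht, zero_mul]), fun t ht => h t (by
      rw [map_mul, ht, mul_zero])⟩
  · rintro ⟨h1, h2⟩ t ht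
    rw [map_mul] at ht
    rcases mul_eq_zero.1 ht with h | h
    · exact h1 t h
    · exact h2 t h

theorem hypCone_neg (a : MvPolynomial (Fin n) ℝ) (e : Fin n → ℝ) :
    hypCone (-a) e = hypCone a e := by
  ext x
  constructor
  · exact fun h t ht => h t (by rw [map_neg, ht, neg_zero])
  · intro h t ht
    rw [map_neg, neg_eq_zero] at ht
    exact h t ht

/-- **Reduction to irreducible hyperbolic polynomials.** -/
theorem shad_of_irreducible (hp : IsHyperbolic p e)
    (H : ∀ q r : MvPolynomial (Fin n) ℝ, p = q * r → Irreducible q → IsHyperbolic q e →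
      GShad (hypCone q e)) : GShad (hypCone p e) := by
  have key : ∀ a : MvPolynomial (Fin n) ℝ, ∀ b, p = a * b → GShad (hypCone a e) := by
    intro a
    refine WfDvdMonoid.induction_on_irreducible a ?_ ?_ ?_
    · intro b hb
      exfalso
      have := hp.2.1
      rw [hb, zero_mul, map_zero] at this
      exact lt_irrefl _ this
    · intro u hu b hb
      have h1 : hypCone u e = Set.univ := by
        rw [Set.eq_univ_iff_forall]
        intro x t ht
        exfalso
        have := hu.map (eval (t • e - x))
        rw [ht] at this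
        exact not_isUnit_zero this
      rw [h1]
      exact GShad.univ
    · intro a i ha hi ih b hb
      rw [hypCone_mul]
      refine GShad.inter ?_ (ih (i * b) (by rw [hb]; ring))
      have h1 : p = i * (a * b) := by rw [hb]; ring
      have h2 : IsHyperbolic (i * (a * b)) e := h1 ▸ hp
      rcases hyp_of_mul h2 with h | h
      · exact H i (a * b) h1 hi h
      · rw [← hypCone_neg]
        exact H (-i) (-(a * b)) (by rw [h1]; ring) ((Associated.neg_left (Associated.refl i)).symm.irreducible hi) h
  exact key p 1 (mul_one p).symm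

end Vale.Agent.P256.H387
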