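import Vale.Agent.P256.H387.LMR

/-! Realification of Hermitian matrices and the Cauchy-Schwarz inequality for kernels
`⟨v(l), M(x) ξ(l)⟩² ≤ ⟨v, M v⟩ ⟨ξ, M ξ⟩` in the sense of sums of squares. -/

set_option linter.all false

namespace Vale.Agent.P256.H387

open Filter Topology Matrix Vale.Agent.P256 Vale.Agent.P256.H326
open scoped ComplexOrder

variable {L X : Type*} {F : Filter L} {G : Filter X}

section Realify

variable {ι : Type*} [Fintype ι]

/-- real form of a complex matrix -/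
def rl (M : Matrix ι ι ℂ) : Matrix (ι ⊕ ι) (ι ⊕ ι) ℝ :=
  Matrix.fromBlocks (M.map Complex.re) (-(M.map Complex.im)) (M.map Complex.im) (M.map Complex.re)

/-- real form of a complex vector -/
def rv (v : ι → ℂ) : ι ⊕ ι → ℝ := Sum.elim (fun i => (v i).re) (fun i => (v i).im)

/-- complex vector of a real one -/
def cv (w : ι ⊕ ι → ℝ) : ι → ℂ := fun i => ⟨w (Sum.inl i), w (Sum.inr i)⟩

theorem rv_cv (w : ι ⊕ ι → ℝ) : rv (cv w) = w := by
  funext i; rcases i with i | i <;> rfl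

theorem rl_mulVec (M : Matrix ι ι ℂ) (v : ι → ℂ) : rl M *ᵥ rv v = rv (M *ᵥ v) := by
  funext i
  rcases i with i | i
  · simp only [rl, rv, Matrix.mulVec, dotProduct, Fintype.sum_sum_type, Matrix.fromBlocks_apply₁₁,
      Matrix.fromBlocks_apply₁₂, Sum.elim_inl, Sum.elim_inr, Matrix.map_apply, Matrix.neg_apply,
      Complex.re_sum, Complex.mul_re, ← Finset.sum_add_distrib]
    exact Finset.sum_congr rfl fun j _ => by ring
  · simp only [rl, rv, Matrix.mulVec, dotProduct, Fintype.sum_sum_type, Matrix.fromBlocks_apply₂₁,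
      Matrix.fromBlocks_apply₂₂, Sum.elim_inl, Sum.elim_inr, Matrix.map_apply,
      Complex.im_sum, Complex.mul_im, ← Finset.sum_add_distrib]
    exact Finset.sum_congr rfl fun j _ => by ring

theorem rv_dot (u v : ι → ℂ) : rv u ⬝ᵥ rv v = (star u ⬝ᵥ v).re := by
  simp only [rv, dotProduct, Fintype.sum_sum_type, Sum.elim_inl, Sum.elim_inr, Complex.re_sum,
    Pi.star_apply, Complex.star_def, Complex.mul_re, Complex.conj_re, Complex.conj_im,
    ← Finset.sum_add_distrib]
  exact Finset.sum_congr rfl fun j _ => by ring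

theorem rl_add (M N : Matrix ι ι ℂ) : rl (M + N) = rl M + rl N := by
  ext (i | i) (j | j) <;> simp [rl, add_comm]

theorem rl_smul (c : ℝ) (M : Matrix ι ι ℂ) : rl (c • M) = c • rl M := by
  ext (i | i) (j | j) <;> simp [rl]

theorem rl_herm {M : Matrix ι ι ℂ} (h : M.IsHermitian) : (rl M).IsHermitian := by
  have h1 : ∀ i j, M i j = star (M j i) := fun i j => (congrFun (congrFun h i) j).symm
  ext (i | i) (j | j)
  · simp only [rl, Matrix.conjTranspose_apply, Matrix.fromBlocks_apply₁₁, Matrix.map_apply,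
      star_trivial]
    rw [h1 i j]; simp
  · simp only [rl, Matrix.conjTranspose_apply, Matrix.fromBlocks_apply₁₂,
      Matrix.fromBlocks_apply₂₁, Matrix.map_apply, star_trivial, Matrix.neg_apply]
    rw [h1 i j]; simp
  · simp only [rl, Matrix.conjTranspose_apply, Matrix.fromBlocks_apply₁₂,
      Matrix.fromBlocks_apply₂₁, Matrix.map_apply, star_trivial, Matrix.neg_apply]
    rw [h1 i j]; simp
  · simp only [rl, Matrix.conjTranspose_apply, Matrix.fromBlocks_apply₂₂, Matrix.map_apply,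
      star_trivial]
    rw [h1 i j]; simp

theorem rl_form (M : Matrix ι ι ℂ) (v : ι → ℂ) :
    rv v ⬝ᵥ (rl M *ᵥ rv v) = (star v ⬝ᵥ (M *ᵥ v)).re := by
  rw [rl_mulVec, rv_dot]

theorem rl_psd {M : Matrix ι ι ℂ} (h : M.PosSemidef) : (rl M).PosSemidef := by
  refine Matrix.PosSemidef.of_dotProduct_mulVec_nonneg (rl_herm h.1) fun w => ?_
  rw [star_trivial, ← rv_cv w, rl_form]
  exact (Complex.le_def.1 (h.dotProduct_mulVec_nonneg (cv w))).1

end Realify

/-- **Cauchy-Schwarz for kernels**: `M(x)` positive semidefinite, `v, ξ` functions of `l`. -/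
theorem sosF_cs {ι : Type*} [Fintype ι] {M : X → Matrix ι ι ℝ}
    (hM : ∀ᶠ x in G, (M x).PosSemidef) (v ξ : L → ι → ℝ) :
    SosF F G (fun l x => (v l ⬝ᵥ (M x *ᵥ v l)) * (ξ l ⬝ᵥ (M x *ᵥ ξ l)) -
      (v l ⬝ᵥ (M x *ᵥ ξ l)) ^ 2) := by
  classical
  have hc : ∀ x, ∃ B : Matrix ι ι ℝ, (M x).PosSemidef → M x = Bᵀ * B := by
    intro x
    by_cases h : (M x).PosSemidef
    · obtain ⟨B, hB⟩ := psd_factor h
      exact ⟨B, fun _ => hB⟩
    · exact ⟨0, fun h' => absurd h' h⟩
  choose B hB using hc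
  have hfr : ∀ (w : L → ι → ℝ) (k : ι), FR (fun l x => (B x *ᵥ w l) k) := by
    intro w k
    show FR (fun l x => ∑ i, B x k i * w l i)
    refine FR.sum _ fun i _ => ?_
    exact (FR.mulfun (fun l => w l i) (fun x => B x k i)).congr fun l x => by ring
  have h1 : SosF F G (fun l x => ∑ k, ∑ k', 1 / 2 *
      ((B x *ᵥ v l) k * (B x *ᵥ ξ l) k' - (B x *ᵥ v l) k' * (B x *ᵥ ξ l) k) ^ 2) := by
    refine SosF.sum _ fun k _ => SosF.sum _ fun k' _ => SosF.smul (by norm_num) (SosF.sq ?_)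
    exact ((hfr v k).mul (hfr ξ k')).sub ((hfr v k').mul (hfr ξ k))
  refine h1.congr (EqF.of_eventually (fun _ => True) (fun x => (M x).PosSemidef) (by simp) hM ?_)
  intro l x _ hx
  have e1 : ∀ u w : ι → ℝ, u ⬝ᵥ (M x *ᵥ w) = ∑ k, (B x *ᵥ u) k * (B x *ᵥ w) k := by
    intro u w
    rw [hB x hx, ← Matrix.mulVec_mulVec, Matrix.dotProduct_mulVec, Matrix.vecMul_transpose]
    rfl
  rw [e1, e1, e1]
  set a : ι → ℝ := B x *ᵥ v l
  set b : ι → ℝ := B x *ᵥ ξ l
  have e2 : ∑ k, ∑ k', 1 / 2 * (a k * b k' - a k' * b k) ^ 2 =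
      (∑ k, a k * a k) * (∑ k, b k * b k) - (∑ k, a k * b k) ^ 2 := by
    have h3 : ∀ k k', 1 / 2 * (a k * b k' - a k' * b k) ^ 2 =
        1 / 2 * (a k * a k) * (b k' * b k') + 1 / 2 * (b k * b k) * (a k' * a k') -
          (a k * b k) * (a k' * b k') := fun k k' => by ring
    simp only [h3, Finset.sum_sub_distrib, Finset.sum_add_distrib, ← Finset.mul_sum,
      ← Finset.sum_mul]
    ring
  rw [e2]

end Vale.Agent.P256.H387
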