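import Vale.Agent.P256.H909.HV
import Vale.Agent.P256.H387.Herm
import Vale.Agent.P256.C5.L

/-! Hyperbolicity cones in three variables are spectrahedral shadows (Hermitian determinantal
representation). -/

set_option linter.all false

namespace Vale.Agent.P256.H387

open MvPolynomial Filter Topology Matrix Vale.Agent.P256 Vale.Agent.P256.H326
open scoped ComplexOrder

theorem rl_psd_iff {ι : Type*} [Fintype ι] {M : Matrix ι ι ℂ} (hM : M.IsHermitian) :
    (rl M).PosSemidef ↔ M.PosSemidef := by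
  refine ⟨fun h => ?_, rl_psd⟩
  refine Matrix.PosSemidef.of_dotProduct_mulVec_nonneg hM fun v => ?_
  rw [Complex.le_def]
  constructor
  · have := h.dotProduct_mulVec_nonneg (rv v)
    rw [star_trivial, rl_form] at this
    simpa using this
  · have h1 : (star v ⬝ᵥ (M *ᵥ v)).im = 0 := by
      have h2 : star (star v ⬝ᵥ (M *ᵥ v)) = star v ⬝ᵥ (M *ᵥ v) := by
        have h3 : star (star v ⬝ᵥ (M *ᵥ v)) = star (M *ᵥ v) ⬝ᵥ v := by
          rw [Matrix.star_dotProduct, star_star, dotProduct_comm]
        rw [h3, Matrix.star_mulVec, hM, ← Matrix.dotProduct_mulVec]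
      exact Complex.conj_eq_iff_im.1 h2
    simpa using h1.symm

/-- eigenvalue criterion for the pencil -/
theorem psd_iff_roots {ι : Type*} [Fintype ι] [DecidableEq ι] {N : Matrix ι ι ℂ}
    (hN : N.IsHermitian) :
    N.PosSemidef ↔ ∀ t : ℝ, ((t : ℂ) • (1 : Matrix ι ι ℂ) - N).det = 0 → 0 ≤ t := by
  constructor
  · intro h t ht
    obtain ⟨v, hv0, hv⟩ := Matrix.exists_mulVec_eq_zero_iff.2 ht
    rw [Matrix.sub_mulVec, Matrix.smul_mulVec, Matrix.one_mulVec, sub_eq_zero] at hv
    have h1 := h.dotProduct_mulVec_nonneg v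
    rw [← hv, dotProduct_smul, smul_eq_mul] at h1
    have h2 : 0 < star v ⬝ᵥ v := Matrix.dotProduct_star_self_pos_iff.2 hv0
    have h3 := (Complex.le_def.1 h1).1
    have h4 := (Complex.lt_def.1 h2)
    simp only [Complex.zero_re, Complex.mul_re, Complex.ofReal_re, Complex.ofReal_im, zero_mul,
      sub_zero] at h3 h4
    by_contra hneg
    push Not at hneg
    have : t * (star v ⬝ᵥ v).re < 0 := mul_neg_of_neg_of_pos hneg h4.1
    linarith
  · intro h
    rw [hN.posSemidef_iff_eigenvalues_nonneg]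
    intro i
    apply h
    refine Matrix.exists_mulVec_eq_zero_iff.1 ⟨(hN.eigenvectorBasis i), ?_, ?_⟩
    · have := (hN.eigenvectorBasis.orthonormal.ne_zero i)
      intro h0
      apply this
      ext j
      exact congrFun h0 j
    · rw [Matrix.sub_mulVec, Matrix.smul_mulVec, Matrix.one_mulVec, hN.mulVec_eigenvectorBasis i]
      simp

/-- cones of polynomials that depend on a Hermitian pencil in two extra directions -/
theorem gshad_of_span {n : ℕ} {q : MvPolynomial (Fin n) ℝ} {e : Fin n → ℝ}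
    (hq : IsHyperbolic q e) {a b : Fin n → ℝ} (t s u : (Fin n → ℝ) →ₗ[ℝ] ℝ)
    (hx : ∀ x, x = t x • e + s x • a + u x • b) : GShad (hypCone q e) := by
  classical
  obtain ⟨d, hd⟩ := hq.1
  obtain ⟨A, G, hA, hG, h⟩ := H909.helton_vinnikov hq hd a b
  have hpe : ((eval e q : ℝ) : ℂ) ≠ 0 := by
    exact_mod_cast hq.2.1.ne'
  let N : (Fin n → ℝ) → Matrix (Fin d) (Fin d) ℂ := fun x =>
    t x • (1 : Matrix (Fin d) (Fin d) ℂ) + s x • A + u x • G
  have hN : ∀ x, (N x).IsHermitian := by
    intro x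
    have h1 : ∀ (c : ℝ) {B : Matrix (Fin d) (Fin d) ℂ}, B.IsHermitian → (c • B).IsHermitian := by
      intro c B hB
      show (c • B)ᴴ = c • B
      rw [Matrix.conjTranspose_smul, star_trivial, hB]
    exact ((h1 _ Matrix.isHermitian_one).add (h1 _ hA)).add (h1 _ hG)
  have hroot : ∀ (x : Fin n → ℝ) (τ : ℝ), eval (τ • e - x) q = 0 ↔
      ((τ : ℂ) • (1 : Matrix (Fin d) (Fin d) ℂ) - N x).det = 0 := by
    intro x τ
    have h1 : τ • e - x = (τ - t x) • e + (-(s x)) • a + (-(u x)) • b := by
      conv_lhs => rw [hx x]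
      module
    have h2 := h (τ - t x) (-(s x)) (-(u x))
    rw [← h1] at h2
    have h3 : ((τ - t x : ℝ) : ℂ) • (1 : Matrix (Fin d) (Fin d) ℂ) + ((-(s x) : ℝ) : ℂ) • A +
        ((-(u x) : ℝ) : ℂ) • G = (τ : ℂ) • (1 : Matrix (Fin d) (Fin d) ℂ) - N x := by
      show _ = (τ : ℂ) • (1 : Matrix (Fin d) (Fin d) ℂ) -
        (t x • (1 : Matrix (Fin d) (Fin d) ℂ) + s x • A + u x • G)
      ext i j
      simp only [Matrix.add_apply, Matrix.sub_apply, Matrix.smul_apply, smul_eq_mul,
        Complex.real_smul]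
      push_cast
      ring
    rw [h3] at h2
    constructor
    · intro h4
      rw [h4] at h2
      simp only [Complex.ofReal_zero] at h2
      rcases mul_eq_zero.1 h2.symm with h5 | h5
      · exact absurd h5 hpe
      · exact h5
    · intro h4
      rw [h4, mul_zero] at h2
      exact_mod_cast h2
  let M : (Fin n → ℝ) →ₗ[ℝ] Matrix (Fin d ⊕ Fin d) (Fin d ⊕ Fin d) ℝ :=
    { toFun := fun x => rl (N x)
      map_add' := fun x y => by
        rw [← rl_add]
        congr 1
        show t (x + y) • (1 : Matrix (Fin d) (Fin d) ℂ) + s (x + y) • A + u (x + y) • G =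
          (t x • (1 : Matrix (Fin d) (Fin d) ℂ) + s x • A + u x • G) +
          (t y • (1 : Matrix (Fin d) (Fin d) ℂ) + s y • A + u y • G)
        rw [map_add, map_add, map_add]
        module
      map_smul' := fun c x => by
        rw [RingHom.id_apply, ← rl_smul]
        congr 1
        show t (c • x) • (1 : Matrix (Fin d) (Fin d) ℂ) + s (c • x) • A + u (c • x) • G =
          c • (t x • (1 : Matrix (Fin d) (Fin d) ℂ) + s x • A + u x • G)
        rw [map_smul, map_smul, map_smul]
        simp only [smul_eq_mul]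
        module }
  have hset : hypCone q e = {x | (M x).PosSemidef} := by
    ext x
    show (∀ τ : ℝ, eval (τ • e - x) q = 0 → 0 ≤ τ) ↔ (rl (N x)).PosSemidef
    rw [rl_psd_iff (hN x), psd_iff_roots (hN x)]
    exact forall_congr' fun τ => by rw [hroot]
  rw [hset]
  refine GShad.of_lmi M fun x => ?_
  have := rl_herm (hN x)
  show (rl (N x))ᵀ = rl (N x)
  rw [← Matrix.conjTranspose_eq_transpose_of_trivial]
  exact this

theorem gshad_three {q : MvPolynomial (Fin 3) ℝ} {e : Fin 3 → ℝ} (hq : IsHyperbolic q e) :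
    GShad (hypCone q e) := by
  by_cases he : e = 0
  · have h0 := hq.2.1
    rw [he] at h0
    rw [K_univ_of_eval_zero_ne hq h0.ne']
    exact GShad.univ
  · obtain ⟨i, hi⟩ := Function.ne_iff.1 he
    have hi' : e i ≠ 0 := by simpa using hi
    refine gshad_of_span hq (a := Pi.single (i + 1) 1) (b := Pi.single (i + 2) 1)
      ((e i)⁻¹ • LinearMap.proj i)
      (LinearMap.proj (i + 1) - (e (i + 1) * (e i)⁻¹) • LinearMap.proj i)
      (LinearMap.proj (i + 2) - (e (i + 2) * (e i)⁻¹) • LinearMap.proj i) ?_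
    intro x
    ext j
    fin_cases i <;> fin_cases j <;>
      simp [Pi.single_apply] at hi' ⊢ <;> field_simp <;> ring

end Vale.Agent.P256.H387
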