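import Vale.Agent.P256.H387.Frame
import Vale.Agent.P256.H387.Three
import Vale.Agent.P256.H326.Smooth

/-! Frame for four variables: only singular boundary points of irreducible polynomials with a
pointed cone have to be treated. -/

set_option linter.all false

namespace Vale.Agent.P256.H387

open MvPolynomial Filter Topology Vale.Agent.P256 Vale.Agent.P256.H326

variable {n : ℕ} {p : MvPolynomial (Fin n) ℝ} {e : Fin n → ℝ}

/-- **Frame, general case, shadows in the hypothesis.** -/
theorem main_ind (hp : IsHyperbolic p e)
    (H : ∀ (m : ℕ) (A : (Fin n → ℝ) →ₗ[ℝ] (Fin m → ℝ)) (q : MvPolynomial (Fin m) ℝ)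
      (r : MvPolynomial (Fin n) ℝ), 3 ≤ m → m ≤ n → Function.Surjective A →
      (∀ x, eval x p = eval (A x) q * eval x r) → IsHyperbolic q (A e) → Irreducible q →
      (∀ x ∈ hypCone q (A e), -x ∈ hypCone q (A e) → x = 0) → GShad (hypCone q (A e))) :
    GShad (hypCone p e) := by
  refine shad_of_irreducible hp fun q r hqr hirr hq => ?_
  -- remove the lineality space
  have key : ∀ (m : ℕ) (A : (Fin n → ℝ) →ₗ[ℝ] (Fin m → ℝ)) (q : MvPolynomial (Fin m) ℝ),
      m ≤ n → Function.Surjective A → (∀ x, eval x p = eval (A x) q * eval x r) →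
      IsHyperbolic q (A e) → Irreducible q → GShad (hypCone q (A e)) := by
    intro m
    induction m with
    | zero =>
      intro A q hm hA hqr hq hirr
      exact shadow_of_le_two hq (by omega)
    | succ m ih =>
      intro A q hm hA hqr hq hirr
      by_cases hm3 : m + 1 ≤ 2
      · exact shadow_of_le_two hq hm3
      by_cases hpt : ∀ x ∈ hypCone q (A e), -x ∈ hypCone q (A e) → x = 0
      · exact H (m + 1) A q r (by omega) hm hA hqr hq hirr hpt
      · push Not at hpt
        obtain ⟨v, hv, hv', hv0⟩ := hpt
        obtain ⟨d, hd⟩ := hq.1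
        obtain ⟨B, q', hq', hqh, hB, hBs⟩ :=
          lineality_reduction_surj hq hd hv0 (eval_add_of_lin hq hv hv')
        rw [hypCone_comp B hB]
        refine GShad.preimage ?_ B
        refine ih (B.comp A) q' (by omega) (hBs.comp hA) (fun x => ?_) hqh ?_
        · rw [hqr, hB]
          rfl
        · -- irreducibility passes to the quotient
          have hpull : ∃ φ : MvPolynomial (Fin m) ℝ →ₐ[ℝ] MvPolynomial (Fin (m + 1)) ℝ,
              ∀ (f : MvPolynomial (Fin m) ℝ) (x : Fin (m + 1) → ℝ),
                eval x (φ f) = eval (B x) f := by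
            refine ⟨aeval fun j => ∑ i, C (B (Pi.single i 1) j) * X i, fun f x => ?_⟩
            rw [lr_eval_aeval]
            congr 2
            funext j
            have h2 : B x = ∑ i, x i • B (Pi.single i 1) := by
              conv_lhs => rw [show x = ∑ i, x i • (Pi.single i (1 : ℝ) : Fin (m + 1) → ℝ) by
                ext i; simp [Finset.sum_apply, Pi.single_apply]]
              rw [map_sum]
              exact Finset.sum_congr rfl fun i _ => map_smul B _ _
            rw [h2]
            simp only [map_sum, map_mul, eval_C, eval_X, Finset.sum_apply, Pi.smul_apply,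
              smul_eq_mul]
            exact Finset.sum_congr rfl fun i _ => mul_comm _ _
          obtain ⟨φ, hφ⟩ := hpull
          have hqφ : q = φ q' := MvPolynomial.funext fun x => by rw [hφ, hB]
          have hunit : ∀ f : MvPolynomial (Fin m) ℝ, IsUnit (φ f) → IsUnit f := by
            intro f hf
            obtain ⟨c, hc0, hc⟩ := (MvPolynomial.isUnit_iff_eq_C_of_isReduced).1 hf
            have : f = C c := by
              apply MvPolynomial.funext
              intro y
              obtain ⟨x, rfl⟩ := hBs y
              rw [← hφ, hc, eval_C, eval_C]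
            rw [this]
            exact hc0.map C
          constructor
          · intro hu
            exact hirr.not_isUnit (by rw [hqφ]; exact hu.map φ)
          · intro a b hab
            rcases hirr.isUnit_or_isUnit (show q = φ a * φ b by rw [← map_mul, ← hab, hqφ])
              with h | h
            · exact Or.inl (hunit a h)
            · exact Or.inr (hunit b h)
  have h1 := key n LinearMap.id q le_rfl Function.surjective_id
    (fun x => by rw [hqr, map_mul]; rfl) hq hirr
  exact h1


/-- the local statement at the singular points -/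
def LocalAt (q : MvPolynomial (Fin n) ℝ) (e : Fin n → ℝ) : Prop :=
  ∀ z ∈ bdT q e, dd q z e = 0 → ∀ U V : Ultrafilter (Fin n → ℝ),
    (U : Filter (Fin n → ℝ)) ≤ 𝓝 z → (V : Filter (Fin n → ℝ)) ≤ 𝓝 z → smT q e ∈ U → smT q e ∈ V →
    SosF (U : Filter (Fin n → ℝ)) (V : Filter (Fin n → ℝ)) (fun y x => dd q y x)

theorem e_mem_cone (hp : IsHyperbolic p e) : e ∈ hypCone p e := (e_inOpen hp).mem hp

theorem dd_nonneg_bd (hp : IsHyperbolic p e) {z : Fin n → ℝ} (hz : z ∈ hypCone p e)
    (hz0 : eval z p = 0) : 0 ≤ dd p z e :=
  K_dd_nonneg hp hz hz0 (e_mem_cone hp)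

/-- smooth limit points are automatic -/
theorem ultraSos_of_local (hp : IsHyperbolic p e) (H : LocalAt p e) : UltraSos p e := by
  intro z hz U V hU hV hUs hVs
  rcases (dd_nonneg_bd hp hz.1 hz.2.1).eq_or_lt with h0 | h0
  · exact H z hz h0.symm U V hU hV hUs hVs
  · refine smooth_sosF hp hz.2.1 h0 U hU hV ?_ ?_
    · filter_upwards [hUs] with y hy
      exact ⟨hy.1.1, hy.1.2.1⟩
    · filter_upwards [hVs] with y hy
      exact hy.1.2.1

/-- **Frame in four variables.** -/
theorem n4_of_local {p : MvPolynomial (Fin 4) ℝ} {e : Fin 4 → ℝ} (hp : IsHyperbolic p e)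
    (H : ∀ (q : MvPolynomial (Fin 4) ℝ) (e' : Fin 4 → ℝ), IsHyperbolic q e' → Irreducible q →
      (∀ x ∈ hypCone q e', -x ∈ hypCone q e' → x = 0) → LocalAt q e') :
    IsSpectrahedralShadow (hypCone p e) := by
  refine GShad.shadow (main_ind hp fun m A q r hm3 hm4 hA hqr hq hirr hpt => ?_)
  have hm : m = 3 ∨ m = 4 := by omega
  rcases hm with rfl | rfl
  · exact gshad_three hq
  · exact GShad.of_shadow (shadow_of_ultra (by norm_num) hq hpt hirr
      (ultraSos_of_local hq (H q (A e) hq hirr hpt)))

end Vale.Agent.P256.H387
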