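import Vale.Agent.P256.H387.Iface
import Vale.Agent.P256.H201.Dom
import Vale.Agent.P256.H230.Etale

/-! The class `NK`: real Nash functions have a second order kernel calculus; closure under the
ring operations and inverses. -/

set_option linter.all false

namespace Vale.Agent.P256.H387

open MvPolynomial Filter Topology Matrix Vale.Agent.P256 Vale.Agent.P256.H326
open Vale.Agent.P256.H283 (NA)

section Bq

variable {L X : Type*} {F : Filter L} {V : Filter X}

/-- two-sided bound `± R ≤ C Q` -/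
def Bq (F : Filter L) (V : Filter X) (Q R : L → X → ℝ) : Prop :=
  ∃ C : ℝ, 0 < C ∧ SosF F V (fun l x => C * Q l x - R l x) ∧
    SosF F V (fun l x => C * Q l x + R l x)

variable {Q R R' r s : L → X → ℝ}

theorem Bq.add (H : Bq F V Q R) (H' : Bq F V Q R') : Bq F V Q (fun l x => R l x + R' l x) := by
  obtain ⟨C, hC, h1, h2⟩ := H
  obtain ⟨C', hC', h1', h2'⟩ := H'
  exact ⟨C + C', by positivity, (h1.add h1').congr' fun l x => by ring,
    (h2.add h2').congr' fun l x => by ring⟩

theorem Bq.neg (H : Bq F V Q R) : Bq F V Q (fun l x => -R l x) := by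
  obtain ⟨C, hC, h1, h2⟩ := H
  exact ⟨C, hC, h2.congr' fun l x => by ring, h1.congr' fun l x => by ring⟩

theorem Bq.zero (hQ : SosF F V Q) : Bq F V Q (fun _ _ => 0) :=
  ⟨1, one_pos, hQ.congr' fun l x => by ring, hQ.congr' fun l x => by ring⟩

theorem Bq.congr (H : Bq F V Q R) (e : EqF F V R' R) : Bq F V Q R' := by
  obtain ⟨C, hC, h1, h2⟩ := H
  obtain ⟨A, hA, B, hB, e⟩ := e
  exact ⟨C, hC, h1.congr ⟨A, hA, B, hB, fun l hl x hx => by beta_reduce; rw [e l hl x hx]⟩,
    h2.congr ⟨A, hA, B, hB, fun l hl x hx => by beta_reduce; rw [e l hl x hx]⟩⟩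

theorem Bq.congr' (H : Bq F V Q R) (e : ∀ l x, R' l x = R l x) : Bq F V Q R' :=
  H.congr ⟨Set.univ, univ_mem, Set.univ, univ_mem, fun l _ x _ => e l x⟩

theorem Bq.mul (hr : H201.Dom F V r Q) (hs : H201.Dom F V s Q) :
    Bq F V Q (fun l x => r l x * s l x) := hr.mul_le hs

theorem Bq.sum {ι : Type*} (t : Finset ι) {R : ι → L → X → ℝ} (hQ : SosF F V Q)
    (H : ∀ i ∈ t, Bq F V Q (R i)) : Bq F V Q (fun l x => ∑ i ∈ t, R i l x) := by
  classical
  induction t using Finset.induction_on with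
  | empty => exact (Bq.zero hQ).congr' fun l x => by simp
  | insert i t hi ih =>
    refine ((H i (Finset.mem_insert_self i t)).add
      (ih fun j hj => H j (Finset.mem_insert_of_mem hj))).congr' fun l x => ?_
    rw [Finset.sum_insert hi]

/-- multiplication by a function of `l` with a limit -/
theorem Bq.left_mul (hQ : SosF F V Q) {g : L → ℝ} {c : ℝ} (hg : Tendsto g F (𝓝 c))
    (H : Bq F V Q R) : Bq F V Q (fun l x => g l * R l x) := by
  obtain ⟨C, hC, h1, h2⟩ := H
  have hc : 0 < |c| + 1 := by positivity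
  have hb : ∀ᶠ l in F, |g l| ≤ |c| + 1 := by
    have := hg.abs
    exact (this.eventually_lt_const (lt_add_one _)).mono fun l hl => hl.le
  -- `g = g⁺ - g⁻` is not needed: use `(K + g)/2` and `(K - g)/2` with `K = |c| + 1`
  have hp : SosF F V (fun l (_ : X) => (|c| + 1 + g l) / 2) :=
    SosF.left (hb.mono fun l hl => by have := abs_le.1 hl; linarith)
  have hm : SosF F V (fun l (_ : X) => (|c| + 1 - g l) / 2) :=
    SosF.left (hb.mono fun l hl => by have := abs_le.1 hl; linarith)
  refine ⟨(|c| + 1) * C, by positivity, ?_, ?_⟩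
  · refine ((hp.mul h1).add (hm.mul h2)).congr' fun l x => ?_
    ring
  · refine ((hp.mul h2).add (hm.mul h1)).congr' fun l x => ?_
    ring

end Bq

section NK

theorem NK.dom {φ φ' : ℝ → ℝ} (H : NK φ φ') {L X : Type} {F : Filter L} {V : Filter X}
    {a : L → ℝ} {a' : X → ℝ} (ha : Tendsto a F (𝓝 0)) (ha' : Tendsto a' V (𝓝 0)) :
    H201.Dom F V (fun l x => φ (a' x) - φ (a l)) (fun l x => (a' x - a l) ^ 2) := by
  obtain ⟨C, hC, h1, h2, h3⟩ := H.ker ha ha'
  refine ⟨(FR.right _).sub (FR.left _), C + 1, by positivity, ?_⟩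
  have h4 : SosF F V (fun l x => (a' x - a l) ^ 2) := SosF.sq ((FR.right _).sub (FR.left _))
  exact (SosF.add h1 h4).congr' fun l x => by ring

theorem NK.bq {φ φ' : ℝ → ℝ} (H : NK φ φ') {L X : Type} {F : Filter L} {V : Filter X}
    {a : L → ℝ} {a' : X → ℝ} (ha : Tendsto a F (𝓝 0)) (ha' : Tendsto a' V (𝓝 0)) :
    Bq F V (fun l x => (a' x - a l) ^ 2)
      (fun l x => φ (a' x) - φ (a l) - (a' x - a l) * φ' (a l)) := by
  obtain ⟨C, hC, h1, h2, h3⟩ := H.ker ha ha'
  have h4 : SosF F V (fun l x => (a' x - a l) ^ 2) := SosF.sq ((FR.right _).sub (FR.left _))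
  exact ⟨C + 1, by positivity, (SosF.add h2 h4).congr' fun l x => by ring,
    (SosF.add h3 h4).congr' fun l x => by ring⟩

theorem NK.of_bq {φ φ' : ℝ → ℝ} (cont : ContinuousAt φ 0) (cont' : ContinuousAt φ' 0)
    (der : ∀ᶠ s in 𝓝 (0 : ℝ), HasDerivAt φ (φ' s) s)
    (ker : ∀ {L X : Type} {F : Filter L} {V : Filter X} {a : L → ℝ} {a' : X → ℝ},
      Tendsto a F (𝓝 0) → Tendsto a' V (𝓝 0) →
      H201.Dom F V (fun l x => φ (a' x) - φ (a l)) (fun l x => (a' x - a l) ^ 2) ∧
      Bq F V (fun l x => (a' x - a l) ^ 2)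
        (fun l x => φ (a' x) - φ (a l) - (a' x - a l) * φ' (a l))) : NK φ φ' := by
  refine ⟨cont, cont', der, fun {L X F V a a'} ha ha' => ?_⟩
  obtain ⟨⟨_, C, hC, h1⟩, D, hD, h2, h3⟩ := ker ha ha'
  have h4 : SosF F V (fun l x => (a' x - a l) ^ 2) := SosF.sq ((FR.right _).sub (FR.left _))
  refine ⟨C + D, by positivity, ?_, ?_, ?_⟩
  · exact (h1.add (h4.smul hD.le)).congr' fun l x => by ring
  · exact (h2.add (h4.smul hC.le)).congr' fun l x => by ring
  · exact (h3.add (h4.smul hC.le)).congr' fun l x => by ring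

theorem NK.congr {φ φ' ψ ψ' : ℝ → ℝ} (H : NK φ φ') (e : ∀ᶠ s in 𝓝 (0 : ℝ), ψ s = φ s)
    (e' : ∀ᶠ s in 𝓝 (0 : ℝ), ψ' s = φ' s) : NK ψ ψ' := by
  refine NK.of_bq (H.cont.congr (e.mono fun s hs => hs.symm))
    (H.cont'.congr (e'.mono fun s hs => hs.symm)) ?_ fun {L X F V a a'} ha ha' => ⟨?_, ?_⟩
  · filter_upwards [H.der, e.eventually_nhds, e'] with s h1 h2 h3
    rw [h3]
    exact h1.congr_of_eventuallyEq h2
  · refine (H.dom ha ha').congr ((FR.right _).sub (FR.left _)) ?_
    refine EqF.of_eventually _ _ (ha.eventually e) (ha'.eventually e) fun l x hl hx => ?_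
    rw [hl, hx]
  · refine (H.bq ha ha').congr ?_
    refine EqF.of_eventually _ _ ((ha.eventually e).and (ha.eventually e')) (ha'.eventually e)
      fun l x hl hx => ?_
    rw [hl.1, hx, hl.2]

theorem NK.const (c : ℝ) : NK (fun _ => c) (fun _ => 0) := by
  refine NK.of_bq continuousAt_const continuousAt_const
    (Eventually.of_forall fun s => hasDerivAt_const s c) fun {L X F V a a'} ha ha' => ⟨?_, ?_⟩
  · have h4 : SosF F V (fun l x => (a' x - a l) ^ 2) := SosF.sq ((FR.right _).sub (FR.left _))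
    exact ⟨(FR.const 0).congr fun l x => by ring, 1, one_pos, h4.congr' fun l x => by ring⟩
  · have h4 : SosF F V (fun l x => (a' x - a l) ^ 2) := SosF.sq ((FR.right _).sub (FR.left _))
    exact (Bq.zero h4).congr' fun l x => by ring

theorem NK.id : NK (fun s => s) (fun _ => 1) := by
  refine NK.of_bq continuousAt_id continuousAt_const
    (Eventually.of_forall fun s => hasDerivAt_id s) fun {L X F V a a'} ha ha' => ⟨?_, ?_⟩
  · exact H201.Dom.self ((FR.right _).sub (FR.left _))
  · have h4 : SosF F V (fun l x => (a' x - a l) ^ 2) := SosF.sq ((FR.right _).sub (FR.left _))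
    exact (Bq.zero h4).congr' fun l x => by ring

theorem NK.add {φ φ' ψ ψ' : ℝ → ℝ} (H : NK φ φ') (K : NK ψ ψ') :
    NK (fun s => φ s + ψ s) (fun s => φ' s + ψ' s) := by
  refine NK.of_bq (H.cont.add K.cont) (H.cont'.add K.cont')
    (by filter_upwards [H.der, K.der] with s h1 h2 using h1.add h2)
    fun {L X F V a a'} ha ha' => ⟨?_, ?_⟩
  · exact ((H.dom ha ha').add (K.dom ha ha')).congr' fun l x => by ring
  · exact ((H.bq ha ha').add (K.bq ha ha')).congr' fun l x => by ring

theorem NK.mul {φ φ' ψ ψ' : ℝ → ℝ} (H : NK φ φ') (K : NK ψ ψ') :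
    NK (fun s => φ s * ψ s) (fun s => φ' s * ψ s + φ s * ψ' s) := by
  refine NK.of_bq (H.cont.mul K.cont) ((H.cont'.mul K.cont).add (H.cont.mul K.cont'))
    (by filter_upwards [H.der, K.der] with s h1 h2 using h1.mul h2)
    fun {L X F V a a'} ha ha' => ⟨?_, ?_⟩
  · have tφ : Tendsto (fun x => φ (a' x)) V (𝓝 (φ 0)) := H.cont.tendsto.comp ha'
    have tψ : Tendsto (fun l => ψ (a l)) F (𝓝 (ψ 0)) := K.cont.tendsto.comp ha
    have h1 := (H.dom ha ha').germ (GermFR.left (G := V) tψ)
    have h2 := (K.dom ha ha').germ (GermFR.right (F := F) tφ)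
    exact (h1.add h2).congr' fun l x => by ring
  · have h4 : SosF F V (fun l x => (a' x - a l) ^ 2) := SosF.sq ((FR.right _).sub (FR.left _))
    have tφ : Tendsto (fun l => φ (a l)) F (𝓝 (φ 0)) := H.cont.tendsto.comp ha
    have tψ : Tendsto (fun l => ψ (a l)) F (𝓝 (ψ 0)) := K.cont.tendsto.comp ha
    have h1 := (H.bq ha ha').left_mul h4 tψ
    have h2 := (K.bq ha ha').left_mul h4 tφ
    have h3 := Bq.mul (H.dom ha ha') (K.dom ha ha')
    exact ((h1.add h2).add h3).congr' fun l x => by ring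

theorem NK.smul {φ φ' : ℝ → ℝ} (c : ℝ) (H : NK φ φ') :
    NK (fun s => c * φ s) (fun s => c * φ' s) :=
  ((NK.const c).mul H).congr (Eventually.of_forall fun s => rfl)
    (Eventually.of_forall fun s => by ring)

theorem NK.neg {φ φ' : ℝ → ℝ} (H : NK φ φ') : NK (fun s => -φ s) (fun s => -φ' s) :=
  (H.smul (-1)).congr (Eventually.of_forall fun s => by ring)
    (Eventually.of_forall fun s => by ring)

theorem NK.sub {φ φ' ψ ψ' : ℝ → ℝ} (H : NK φ φ') (K : NK ψ ψ') :
    NK (fun s => φ s - ψ s) (fun s => φ' s - ψ' s) :=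
  (H.add K.neg).congr (Eventually.of_forall fun s => by ring)
    (Eventually.of_forall fun s => by ring)

theorem NK.sum {ι : Type*} (t : Finset ι) {φ φ' : ι → ℝ → ℝ} (H : ∀ i ∈ t, NK (φ i) (φ' i)) :
    NK (fun s => ∑ i ∈ t, φ i s) (fun s => ∑ i ∈ t, φ' i s) := by
  classical
  induction t using Finset.induction_on with
  | empty =>
    exact (NK.const 0).congr (Eventually.of_forall fun s => by simp)
      (Eventually.of_forall fun s => by simp)
  | insert i t hi ih =>
    refine ((H i (Finset.mem_insert_self i t)).add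
      (ih fun j hj => H j (Finset.mem_insert_of_mem hj))).congr
      (Eventually.of_forall fun s => ?_) (Eventually.of_forall fun s => ?_)
    · rw [Finset.sum_insert hi]
    · rw [Finset.sum_insert hi]

theorem NK.inv {φ φ' : ℝ → ℝ} (H : NK φ φ') (h0 : φ 0 ≠ 0) :
    NK (fun s => (φ s)⁻¹) (fun s => -φ' s / φ s ^ 2) := by
  have hne : ∀ᶠ s in 𝓝 (0 : ℝ), φ s ≠ 0 := H.cont.eventually_ne h0
  refine NK.of_bq (H.cont.inv₀ h0) ((H.cont'.neg).div (H.cont.pow 2) (pow_ne_zero 2 h0))
    (by filter_upwards [H.der, hne] with s h1 h2 using h1.inv h2)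
    fun {L X F V a a'} ha ha' => ⟨?_, ?_⟩
  · have tl : Tendsto (fun l => (φ (a l))⁻¹) F (𝓝 (φ 0)⁻¹) :=
      (H.cont.tendsto.comp ha).inv₀ h0
    have tr : Tendsto (fun x => (φ (a' x))⁻¹) V (𝓝 (φ 0)⁻¹) :=
      (H.cont.tendsto.comp ha').inv₀ h0
    have h1 := ((H.dom ha ha').germ (GermFR.left (G := V) tl)).germ (GermFR.right (F := F) tr)
    refine h1.neg.congr ((FR.right _).sub (FR.left _)) ?_
    refine EqF.of_eventually _ _ (ha.eventually hne) (ha'.eventually hne) fun l x hl hx => ?_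
    field_simp
    ring
  · have h4 : SosF F V (fun l x => (a' x - a l) ^ 2) := SosF.sq ((FR.right _).sub (FR.left _))
    have tl : Tendsto (fun l => (φ (a l))⁻¹) F (𝓝 (φ 0)⁻¹) :=
      (H.cont.tendsto.comp ha).inv₀ h0
    have tr : Tendsto (fun x => (φ (a' x))⁻¹) V (𝓝 (φ 0)⁻¹) :=
      (H.cont.tendsto.comp ha').inv₀ h0
    have h1 := (((H.dom ha ha').germ (GermFR.left (G := V) tl)).germ
      (GermFR.left (G := V) tl)).germ (GermFR.right (F := F) tr)
    have h2 := Bq.mul h1 (H.dom ha ha')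
    have t2 : Tendsto (fun l => -((φ (a l))⁻¹ * (φ (a l))⁻¹)) F (𝓝 (-((φ 0)⁻¹ * (φ 0)⁻¹))) :=
      (tl.mul tl).neg
    have h3 := (H.bq ha ha').left_mul h4 t2
    refine (h2.add h3).congr ?_
    refine EqF.of_eventually _ _ (ha.eventually hne) (ha'.eventually hne) fun l x hl hx => ?_
    field_simp
    ring

end NK

/-- **Real Nash functions have a second order kernel calculus.** -/
theorem nk_of_na {φ : ℝ → ℝ} (hφ : NA 0 (fun s => (φ s : ℂ))) : NK φ (deriv φ) := by
  have han : AnalyticAt ℝ φ 0 := by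
    have h1 := (Complex.reCLM.analyticAt _).comp hφ.an
    exact h1
  obtain ⟨h, P, E, hh, hP, hdet, hE⟩ := H230.etale_family (τ := Unit) (s₀ := 0)
    (fun _ => φ) (fun _ => hφ)
  set γ : ℝ → Unit ⊕ Unit → ℝ := H230.pt h with hγ
  -- derivatives of the lifted point
  set γ' : ℝ → Unit ⊕ Unit → ℝ := fun s => Sum.elim (fun _ => 1) (fun t => deriv (h t) s)
    with hγ'
  have hder : ∀ᶠ s in 𝓝 (0 : ℝ), ∀ v, HasDerivAt (fun r => γ r v) (γ' s v) s := by
    have h1 : ∀ᶠ s in 𝓝 (0 : ℝ), DifferentiableAt ℝ (h ()) s :=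
      (hh ()).eventually_analyticAt.mono fun s hs => hs.differentiableAt
    filter_upwards [h1] with s hs
    rintro (u | u)
    · exact hasDerivAt_id s
    · exact hs.hasDerivAt
  have hcont : ContinuousAt γ 0 := by
    rw [continuousAt_pi]
    rintro (u | u)
    · exact continuousAt_id
    · exact (hh u).continuousAt
  have hdetn : ∀ᶠ s in 𝓝 (0 : ℝ), (Jt P (γ s)).det ≠ 0 := by
    have h1 : Continuous (fun z => (Jt P z).det) := by
      refine Continuous.matrix_det (continuous_matrix fun i j => ?_)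
      exact MvPolynomial.continuous_eval _
    exact (h1.continuousAt.comp hcont).eventually_ne hdet
  -- the derivative of the étale coordinate
  have hDh : ∀ᶠ s in 𝓝 (0 : ℝ), γ' s (Sum.inr ()) = Dh P (γ s) () () := by
    filter_upwards [hder, hP.eventually_nhds, hdetn] with s h1 h2 h3
    have h4 := hasDerivAt_eval_comp (P ()) h1
    have h5 : HasDerivAt (fun r => eval (γ r) (P ())) 0 s := by
      refine (hasDerivAt_const s (0 : ℝ)).congr_of_eventuallyEq ?_
      filter_upwards [h2] with r hr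
      exact hr ()
    have h6 := h4.unique h5
    rw [Fintype.sum_sum_type] at h6
    simp only [Finset.univ_unique, Finset.sum_singleton] at h6
    have e1 : γ' s (Sum.inl PUnit.unit) = 1 := rfl
    have hJ : (Jt P (γ s)).det = eval (γ s) (pderiv (Sum.inr ()) (P ())) := by
      rw [Matrix.det_unique]
      rfl
    rw [hJ] at h3
    have hinv : (Jt P (γ s))⁻¹ () () = (eval (γ s) (pderiv (Sum.inr ()) (P ())))⁻¹ := by
      rw [Matrix.inv_def, Ring.inverse_eq_inv', Matrix.smul_apply, hJ,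
        Matrix.adjugate_subsingleton, Matrix.one_apply_eq, smul_eq_mul, mul_one]
    have hD : Dh P (γ s) () () = -((eval (γ s) (pderiv (Sum.inr ()) (P ())))⁻¹ *
        eval (γ s) (pderiv (Sum.inl ()) (P ()))) := by
      rw [Dh, Matrix.neg_apply, Matrix.mul_apply]
      simp only [Finset.univ_unique, Finset.sum_singleton]
      rw [← hinv]
      rfl
    rw [hD]
    have h7 : γ' s (Sum.inr ()) * eval (γ s) (pderiv (Sum.inr ()) (P ())) =
        -eval (γ s) (pderiv (Sum.inl ()) (P ())) := by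
      have e2 : (1 : ℝ) * eval (γ s) (pderiv (Sum.inl ()) (P ())) +
        γ' s (Sum.inr ()) * eval (γ s) (pderiv (Sum.inr ()) (P ())) = 0 := h6
      linarith
    field_simp
    linarith
  -- the derivative of φ
  have hφ' : ∀ᶠ s in 𝓝 (0 : ℝ), deriv φ s = eval (γ s) (pderiv (Sum.inl ()) (E ())) +
      Dh P (γ s) () () * eval (γ s) (pderiv (Sum.inr ()) (E ())) := by
    filter_upwards [hder, hDh] with s h1 h2
    have h4 := hasDerivAt_eval_comp (E ()) h1
    have h5 : (fun r => eval (γ r) (E ())) = φ := by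
      funext r
      exact (hE () r).symm
    rw [h5] at h4
    rw [h4.deriv, Fintype.sum_sum_type]
    simp only [Finset.univ_unique, Finset.sum_singleton]
    have e1 : γ' s (Sum.inl PUnit.unit) = 1 := rfl
    have e2 : γ' s (Sum.inr PUnit.unit) = Dh P (γ s) () () := h2
    rw [e1, e2, one_mul]
  refine NK.of_bq han.continuousAt han.deriv.continuousAt
    (han.eventually_analyticAt.mono fun s hs => hs.differentiableAt.hasDerivAt)
    fun {L X F V a a'} ha ha' => ?_
  have h4 : SosF F V (fun l x => (a' x - a l) ^ 2) := SosF.sq ((FR.right _).sub (FR.left _))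
  have hY : Tendsto (fun l => γ (a l)) F (𝓝 (γ 0)) := hcont.tendsto.comp ha
  have hZ : Tendsto (fun x => γ (a' x)) V (𝓝 (γ 0)) := hcont.tendsto.comp ha'
  have hPY : ∀ᶠ l in F, ∀ i, eval (γ (a l)) (P i) = 0 := ha.eventually hP
  have hPZ : ∀ᶠ x in V, ∀ i, eval (γ (a' x)) (P i) = 0 := ha'.eventually hP
  obtain ⟨ek, hek, eqk⟩ := etale2 hdet hY hZ hPY hPZ
  set D : Unit ⊕ Unit → L → X → ℝ := dk (fun l => γ (a l)) (fun x => γ (a' x)) with hD
  have hDl : ∀ l x, D (Sum.inl ()) l x = a' x - a l := fun l x => rfl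
  have hDfr : ∀ v, FR (D v) := fun v => dk_fr _ _ v
  have hDg : ∀ v, GermFR F V (D v) 0 := fun v => dk_germ hY hZ v
  -- the étale coordinate is dominated
  have hdomr : H201.Dom F V (D (Sum.inr ())) (fun l x => (a' x - a l) ^ 2) := by
    have tD : Tendsto (fun l => Dh P (γ (a l)) () ()) F (𝓝 (Dh P (γ 0) () ())) :=
      tendsto_Dh hdet hY () ()
    have hself : H201.Dom F V (D (Sum.inl ())) (fun l x => (a' x - a l) ^ 2) :=
      H201.Dom.self (hDfr _)
    have h5 : H201.Dom F V (fun l x => (Dh P (γ (a l)) () () +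
        ek () (Sum.inl ()) (Sum.inl ()) l x * D (Sum.inl ()) l x) * D (Sum.inl ()) l x)
        (fun l x => (a' x - a l) ^ 2) :=
      hself.germ ((GermFR.left tD).add ((hek () _ _).mul (hDg _)))
    refine H201.Dom.of_unit (j := fun l x => -((ek () (Sum.inl ()) (Sum.inr ()) l x +
      ek () (Sum.inr ()) (Sum.inl ()) l x) * D (Sum.inl ()) l x +
      ek () (Sum.inr ()) (Sum.inr ()) l x * D (Sum.inr ()) l x)) (hDfr _) ?_ ?_
    · refine (((((hek () _ _).add (hek () _ _)).mul (hDg _)).add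
        ((hek () _ _).mul (hDg _))).neg).congr (fun l x => rfl) ?_
      ring
    · refine h5.congr ?_ ?_
      · refine ((FR.const 1).add ?_).mul (hDfr _)
        have h6 : FR (fun l x => (ek () (Sum.inl ()) (Sum.inr ()) l x +
          ek () (Sum.inr ()) (Sum.inl ()) l x) * D (Sum.inl ()) l x +
          ek () (Sum.inr ()) (Sum.inr ()) l x * D (Sum.inr ()) l x) :=
          (((germ_fr (hek () _ _)).add (germ_fr (hek () _ _))).mul (hDfr _)).add
            ((germ_fr (hek () _ _)).mul (hDfr _))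
        exact h6.neg
      · obtain ⟨A, hA, B, hB, e⟩ := eqk ()
        refine ⟨A, hA, B, hB, fun l hl x hx => ?_⟩
        have e1 := e l hl x hx
        simp only [Fintype.sum_sum_type, Finset.univ_unique, Finset.sum_singleton] at e1
        beta_reduce
        change D (Sum.inr ()) l x = Dh P (γ (a l)) () () * D (Sum.inl ()) l x + _ at e1
        have e2 : D (Sum.inr ()) l x = Dh P (γ (a l)) () () * D (Sum.inl ()) l x +
          (ek () (Sum.inl ()) (Sum.inl ()) l x * D (Sum.inl ()) l x * D (Sum.inl ()) l x +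
          ek () (Sum.inl ()) (Sum.inr ()) l x * D (Sum.inl ()) l x * D (Sum.inr ()) l x +
          (ek () (Sum.inr ()) (Sum.inl ()) l x * D (Sum.inr ()) l x * D (Sum.inl ()) l x +
          ek () (Sum.inr ()) (Sum.inr ()) l x * D (Sum.inr ()) l x * D (Sum.inr ()) l x)) := e1
        linear_combination e2
  have hdom : ∀ v, H201.Dom F V (D v) (fun l x => (a' x - a l) ^ 2) := by
    rintro (u | u)
    · exact H201.Dom.self (hDfr _)
    · exact hdomr
  obtain ⟨M, hM, eM⟩ := diff2 hY hZ (E ())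
  have hphi : ∀ r, φ r = eval (γ r) (E ()) := fun r => hE () r
  have hMb : ∀ u v, Bq F V (fun l x => (a' x - a l) ^ 2)
      (fun l x => M u v l x * D u l x * D v l x) := fun u v =>
    Bq.mul ((hdom u).germ (hM u v)) (hdom v)
  have tE : ∀ v, Tendsto (fun l => eval (γ (a l)) (pderiv v (E ()))) F
      (𝓝 (eval (γ 0) (pderiv v (E ())))) := fun v => left_eval hY _
  constructor
  · have h5 : H201.Dom F V (fun l x => ∑ u, eval (γ (a l)) (pderiv u (E ())) * D u l x +
        ∑ u, ∑ v, M u v l x * D u l x * D v l x) (fun l x => (a' x - a l) ^ 2) := by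
      refine (H201.Dom.sum _ h4 fun u _ => (hdom u).germ (GermFR.left (tE u))).add
        (H201.Dom.sum _ h4 fun u _ => H201.Dom.sum _ h4 fun v _ => ?_)
      exact (hdom v).germ (h := fun l x => M u v l x * D u l x) ((hM u v).mul (hDg u))
    refine h5.congr' fun l x => ?_
    rw [hphi, hphi]
    exact eM l x
  · -- second order
    have hη : Bq F V (fun l x => (a' x - a l) ^ 2)
        (fun l x => D (Sum.inr ()) l x - Dh P (γ (a l)) () () * D (Sum.inl ()) l x) := by
      have h6 : Bq F V (fun l x => (a' x - a l) ^ 2)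
          (fun l x => ∑ u, ∑ v, ek () u v l x * D u l x * D v l x) :=
        Bq.sum _ h4 fun u _ => Bq.sum _ h4 fun v _ =>
          Bq.mul ((hdom u).germ (hek () u v)) (hdom v)
      refine h6.congr ?_
      obtain ⟨A, hA, B, hB, e⟩ := eqk ()
      refine ⟨A, hA, B, hB, fun l hl x hx => ?_⟩
      have e1 := e l hl x hx
      have e2 : D (Sum.inr ()) l x = ∑ s, Dh P (γ (a l)) () s * D (Sum.inl s) l x +
        ∑ u, ∑ v, ek () u v l x * D u l x * D v l x := e1
      have e3 : ∑ s : Unit, Dh P (γ (a l)) () s * D (Sum.inl s) l x =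
        Dh P (γ (a l)) () () * D (Sum.inl ()) l x := by
        simp only [Finset.univ_unique, Finset.sum_singleton]
      beta_reduce
      rw [e2, e3]
      ring
    have h7 : Bq F V (fun l x => (a' x - a l) ^ 2)
        (fun l x => eval (γ (a l)) (pderiv (Sum.inr ()) (E ())) *
          (D (Sum.inr ()) l x - Dh P (γ (a l)) () () * D (Sum.inl ()) l x)) :=
      hη.left_mul h4 (tE _)
    have h8 : Bq F V (fun l x => (a' x - a l) ^ 2)
        (fun l x => ∑ u, ∑ v, M u v l x * D u l x * D v l x) :=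
      Bq.sum _ h4 fun u _ => Bq.sum _ h4 fun v _ => hMb u v
    refine (h7.add h8).congr ?_
    refine EqF.of_eventually _ (fun _ => True) (ha.eventually hφ') (by simp)
      fun l x hl _ => ?_
    have e1 := eM l x
    have e2 : eval (γ (a' x)) (E ()) - eval (γ (a l)) (E ()) =
        ∑ u, eval (γ (a l)) (pderiv u (E ())) * D u l x +
        ∑ u, ∑ v, M u v l x * D u l x * D v l x := e1
    have e3 : ∑ u, eval (γ (a l)) (pderiv u (E ())) * D u l x =
        eval (γ (a l)) (pderiv (Sum.inl ()) (E ())) * D (Sum.inl ()) l x +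
        eval (γ (a l)) (pderiv (Sum.inr ()) (E ())) * D (Sum.inr ()) l x := by
      rw [Fintype.sum_sum_type]
      simp only [Finset.univ_unique, Finset.sum_singleton]
    rw [hphi, hphi, e2, e3, hl, ← hDl l x]
    ring

end Vale.Agent.P256.H387
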