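import Vale.Agent.P256.H387.Lift

/-! The matrix criterion for pencils `M = Σ_c b_c B_c + Ĝ(z)` where `b_c` are linear coordinates
(with one-sided scales `ε_c`) and `z = (s, h(s))` are étale (Nash) coordinates. -/

set_option linter.all false

namespace Vale.Agent.P256.H387

open Filter Topology Matrix MvPolynomial Vale.Agent.P256 Vale.Agent.P256.H326

variable {L X : Type*} {F : Filter L} {G : Filter X}
variable {ι κ σ τ : Type*} [Fintype ι] [Fintype κ] [Fintype σ] [Fintype τ]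
  [DecidableEq ι] [DecidableEq σ] [DecidableEq τ]

/-- extended tangent vector `(v, Dh v)` -/
noncomputable def ext (P : τ → MvPolynomial (σ ⊕ τ) ℝ) (z : σ ⊕ τ → ℝ) (v : σ → ℝ) :
    σ ⊕ τ → ℝ := Sum.elim v (Dh P z *ᵥ v)

/-- first total derivative of a polynomial in direction `v` -/
noncomputable def td1 (P : τ → MvPolynomial (σ ⊕ τ) ℝ) (z : σ ⊕ τ → ℝ)
    (q : MvPolynomial (σ ⊕ τ) ℝ) (v : σ → ℝ) : ℝ :=
  ∑ u, eval z (pderiv u q) * ext P z v u

/-- second total derivative of a polynomial in direction `v` -/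
noncomputable def td2 (P : τ → MvPolynomial (σ ⊕ τ) ℝ) (z : σ ⊕ τ → ℝ)
    (q : MvPolynomial (σ ⊕ τ) ℝ) (v : σ → ℝ) : ℝ :=
  ∑ u, ∑ u', eval z (pderiv u (pderiv u' q)) * ext P z v u * ext P z v u' -
    ∑ t, eval z (pderiv (Sum.inr t) q) * ∑ i, (Jt P z)⁻¹ t i *
      ∑ u, ∑ u', eval z (pderiv u (pderiv u' (P i))) * ext P z v u * ext P z v u'

/-- values of a polynomial matrix -/
noncomputable def ev (Gh : ι → ι → MvPolynomial (σ ⊕ τ) ℝ) (z : σ ⊕ τ → ℝ) : Matrix ι ι ℝ :=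
  Matrix.of fun i j => eval z (Gh i j)

theorem td2_aux {υ τ' : Type*} [Fintype υ] [Fintype τ'] (x : υ → ℝ) (D : υ → υ → ℝ) (T : τ' → ℝ)
    (J : τ' → τ' → ℝ) (E : τ' → υ → υ → ℝ) :
    ∑ u, ∑ v, (1 / 2 * D u v + ∑ t, T t * (-∑ i, J t i * (1 / 2 * E i u v))) * x u * x v =
      1 / 2 * (∑ u, ∑ v, D u v * x u * x v -
        ∑ t, T t * ∑ i, J t i * ∑ u, ∑ v, E i u v * x u * x v) := by
  have h1 : ∑ t, T t * ∑ i, J t i * ∑ u, ∑ v, E i u v * x u * x v =
      ∑ u, ∑ v, (∑ t, T t * ∑ i, J t i * E i u v) * x u * x v := by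
    simp only [Finset.mul_sum, Finset.sum_mul]
    calc ∑ t, ∑ i, ∑ u, ∑ v, T t * (J t i * (E i u v * x u * x v))
        = ∑ p : τ' × τ', ∑ q : υ × υ, T p.1 * (J p.1 p.2 * (E p.2 q.1 q.2 * x q.1 * x q.2)) := by
          simp only [Fintype.sum_prod_type]
      _ = ∑ q : υ × υ, ∑ p : τ' × τ', T p.1 * (J p.1 p.2 * (E p.2 q.1 q.2 * x q.1 * x q.2)) :=
          Finset.sum_comm
      _ = ∑ u, ∑ v, ∑ t, ∑ i, T t * (J t i * E i u v) * x u * x v := by
          simp only [Fintype.sum_prod_type]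
          refine Finset.sum_congr rfl fun u _ => Finset.sum_congr rfl fun v _ =>
            Finset.sum_congr rfl fun t _ => Finset.sum_congr rfl fun i _ => ?_
          ring
  rw [h1, ← Finset.sum_sub_distrib, Finset.mul_sum]
  refine Finset.sum_congr rfl fun u _ => ?_
  rw [← Finset.sum_sub_distrib, Finset.mul_sum]
  refine Finset.sum_congr rfl fun v _ => ?_
  have h2 : ∑ t, T t * (-∑ i, J t i * (1 / 2 * E i u v)) =
      -(1 / 2) * ∑ t, T t * ∑ i, J t i * E i u v := by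
    rw [Finset.mul_sum]
    refine Finset.sum_congr rfl fun t _ => ?_
    have : ∑ i, J t i * (1 / 2 * E i u v) = 1 / 2 * ∑ i, J t i * E i u v := by
      rw [Finset.mul_sum]
      exact Finset.sum_congr rfl fun i _ => by ring
    rw [this]; ring
  rw [h2]; ring

theorem swap_ij {ι' υ : Type*} [Fintype ι'] [Fintype υ] (a : ι' → ι' → ℝ)
    (c : ι' → ι' → υ → υ → ℝ) (x y : υ → ℝ) :
    ∑ u, ∑ v, (∑ i, ∑ j, a i j * c i j u v) * x u * y v =
      ∑ i, ∑ j, a i j * ∑ u, ∑ v, c i j u v * x u * y v := by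
  simp only [Finset.mul_sum, Finset.sum_mul]
  calc ∑ u, ∑ v, ∑ i, ∑ j, a i j * c i j u v * x u * y v
      = ∑ p : υ × υ, ∑ q : ι' × ι', a q.1 q.2 * c q.1 q.2 p.1 p.2 * x p.1 * y p.2 := by
        simp only [Fintype.sum_prod_type]
    _ = ∑ q : ι' × ι', ∑ p : υ × υ, a q.1 q.2 * c q.1 q.2 p.1 p.2 * x p.1 * y p.2 :=
        Finset.sum_comm
    _ = _ := by
        simp only [Fintype.sum_prod_type]
        refine Finset.sum_congr rfl fun i _ => Finset.sum_congr rfl fun j _ =>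
            Finset.sum_congr rfl fun u _ => Finset.sum_congr rfl fun v _ => ?_
        ring

theorem sosF_pencil {B : κ → Matrix ι ι ℝ} {Gh : ι → ι → MvPolynomial (σ ⊕ τ) ℝ}
    {P : τ → MvPolynomial (σ ⊕ τ) ℝ} {z0 : σ ⊕ τ → ℝ} (hdet : (Jt P z0).det ≠ 0)
    {Y : L → σ ⊕ τ → ℝ} {Z : X → σ ⊕ τ → ℝ} (hY : Tendsto Y F (𝓝 z0)) (hZ : Tendsto Z G (𝓝 z0))
    (hPY : ∀ᶠ l in F, ∀ i, eval (Y l) (P i) = 0) (hPZ : ∀ᶠ x in G, ∀ i, eval (Z x) (P i) = 0)
    {bL : L → κ → ℝ} {bX : X → κ → ℝ} {b0 : κ → ℝ} (hbX : ∀ c, Tendsto (fun x => bX x c) G (𝓝 (b0 c)))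
    (hM : ∀ᶠ x in G, (∑ c, bX x c • B c + ev Gh (Z x)).PosSemidef)
    (h0 : (∑ c, b0 c • B c + ev Gh z0).PosSemidef)
    {ξ : L → ι → ℝ} {ξ0 : ι → ℝ} (hξ : ∀ i, Tendsto (fun l => ξ l i) F (𝓝 (ξ0 i)))
    (hker : ∀ᶠ l in F, (∑ c, bL l c • B c + ev Gh (Y l)) *ᵥ ξ l = 0)
    {ε : κ → L → ℝ} {β : κ → L → ι → ℝ} {β0 : κ → ι → ℝ}
    (hβ : ∀ c i, Tendsto (fun l => β c l i) F (𝓝 (β0 c i)))
    (hBξ : ∀ c, ∀ᶠ l in F, B c *ᵥ ξ l = ε c l • β c l)
    (hpos : ∀ (w : κ → ℝ) (v : σ → ℝ), (w ≠ 0 ∨ v ≠ 0) → ∃ q : ι → ℝ,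
      1 / 2 * ∑ i, ∑ j, ξ0 i * ξ0 j * td2 P z0 (Gh i j) v <
        2 * ∑ i, q i * (∑ c, w c * β0 c i + ∑ j, td1 P z0 (Gh i j) v * ξ0 j) -
          ∑ i, ∑ j, (∑ c, b0 c • B c + ev Gh z0) i j * q i * q j)
    {S : L → X → ℝ}
    (hS : EqF F G S (fun l x => ∑ c, (bX x c - bL l c) * (ξ l ⬝ᵥ (B c *ᵥ ξ l)) +
      ∑ i, ∑ j, ξ l i * ξ l j * td1 P (Y l) (Gh i j) (fun s => dk Y Z (Sum.inl s) l x))) :
    SosF F G S := by
  classical
  -- expansions of the entries
  choose A hA eA using fun i j => diff1 hY hZ (Gh i j)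
  choose M2 hM2 eM2 using fun i j => diff2 hY hZ (Gh i j)
  obtain ⟨e2, he2, ee2⟩ := etale2 hdet hY hZ hPY hPZ
  choose R hR eR using fun t => syz_of_eq hY hZ (q := P t)
    (by filter_upwards [hPY] with l hl using hl t) (by filter_upwards [hPZ] with x hx using hx t)
  have hξg : ∀ i, GermFR F G (fun l (_ : X) => ξ l i) (ξ0 i) := fun i => GermFR.left (hξ i)
  have hMX : ∀ i j, Tendsto (fun x => (∑ c, bX x c • B c + ev Gh (Z x)) i j) G
      (𝓝 ((∑ c, b0 c • B c + ev Gh z0) i j)) := by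
    intro i j
    have h1 : ∀ x, (∑ c, bX x c • B c + ev Gh (Z x)) i j =
        ∑ c, bX x c * B c i j + eval (Z x) (Gh i j) := by
      intro x
      rw [Matrix.add_apply, Matrix.sum_apply]
      rfl
    have h2 : (∑ c, b0 c • B c + ev Gh z0) i j =
        ∑ c, b0 c * B c i j + eval z0 (Gh i j) := by
      rw [Matrix.add_apply, Matrix.sum_apply]
      rfl
    rw [h2]
    simp only [h1]
    exact (tendsto_finsetSum _ fun c _ => (hbX c).mul_const _).add
      (((MvPolynomial.continuous_eval (Gh i j)).tendsto z0).comp hZ)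
  refine sosF_lmr (F := F) (G := G) (ι := ι) (κ := κ ⊕ (σ ⊕ τ)) (σ := τ)
    (M := fun x => ∑ c, bX x c • B c + ev Gh (Z x)) (M0 := ∑ c, b0 c • B c + ev Gh z0)
    hM h0 hMX ξ
    (d := Sum.elim (fun c l x => ε c l * (bX x c - bL l c)) (fun u => dk Y Z u))
    ?_
    (A := Sum.elim (fun c i l _ => β c l i) (fun u i l x => ∑ j, A i j u l x * ξ l j))
    (α := Sum.elim (fun c i => β0 c i) (fun u i => ∑ j, eval z0 (pderiv u (Gh i j)) * ξ0 j))
    ?_ ?_
    (e := fun a b => Sum.elim (fun _ => fun _ _ => (0 : ℝ)) (fun u => Sum.elim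
      (fun _ => fun _ _ => (0 : ℝ)) (fun v l x => ∑ i, ∑ j, ξ l i * ξ l j *
        (M2 i j u v l x + ∑ t, eval (Y l) (pderiv (Sum.inr t) (Gh i j)) * e2 t u v l x)) b) a)
    (e0 := fun a b => Sum.elim (fun _ => (0 : ℝ)) (fun u => Sum.elim
      (fun _ => (0 : ℝ)) (fun v => ∑ i, ∑ j, ξ0 i * ξ0 j *
        (1 / 2 * eval z0 (pderiv u (pderiv v (Gh i j))) +
          ∑ t, eval z0 (pderiv (Sum.inr t) (Gh i j)) *
          (-∑ i', (Jt P z0)⁻¹ t i' * (1 / 2 * eval z0 (pderiv u (pderiv v (P i'))))))) b) a)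
    ?_
    (R := fun t => Sum.elim (fun _ => fun _ _ => (0 : ℝ)) (fun u => R t u))
    (ρ := fun t => Sum.elim (fun _ => (0 : ℝ)) (fun u => eval z0 (pderiv u (P t))))
    ?_ ?_ ?_ ?_
  · rintro (c | u)
    · refine (FR.left (fun l => ε c l)).mul ((FR.right (fun x => bX x c)).sub
        (FR.left (fun l => bL l c)))
    · exact dk_fr Y Z u
  · rintro (c | u) i
    · exact GermFR.left (hβ c i)
    · exact GermFR.sum _ fun j _ => (hA i j u).mul (hξg j)
  · intro i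
    have hk : ∀ᶠ l in F, ((∑ c, bL l c • B c + ev Gh (Y l)) *ᵥ ξ l = 0) ∧
        ∀ c, B c *ᵥ ξ l = ε c l • β c l := by
      filter_upwards [hker, eventually_all.2 hBξ] with l h1 h2 using ⟨h1, h2⟩
    refine EqF.of_eventually _ (fun _ => True) hk (by simp) fun l x hl _ => ?_
    obtain ⟨hl1, hl2⟩ := hl
    have h1 : ((∑ c, bX x c • B c + ev Gh (Z x)) *ᵥ ξ l) i =
        ((∑ c, bX x c • B c + ev Gh (Z x)) *ᵥ ξ l) i -
        ((∑ c, bL l c • B c + ev Gh (Y l)) *ᵥ ξ l) i := by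
      rw [hl1]; simp
    rw [h1]
    have h2 : ∀ (b : κ → ℝ) (Q : Matrix ι ι ℝ), ((∑ c, b c • B c + Q) *ᵥ ξ l) i =
        ∑ c, b c * (B c *ᵥ ξ l) i + (Q *ᵥ ξ l) i := by
      intro b Q
      rw [Matrix.add_mulVec, Matrix.sum_mulVec, Pi.add_apply, Finset.sum_apply]
      congr 1
      refine Finset.sum_congr rfl fun c _ => ?_
      rw [Matrix.smul_mulVec, Pi.smul_apply, smul_eq_mul]
    rw [h2, h2, Fintype.sum_sum_type]
    simp only [Sum.elim_inl, Sum.elim_inr]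
    have h3 : ∀ c, (B c *ᵥ ξ l) i = ε c l * β c l i := by
      intro c
      rw [hl2 c, Pi.smul_apply, smul_eq_mul]
    have h4 : (ev Gh (Z x) *ᵥ ξ l) i - (ev Gh (Y l) *ᵥ ξ l) i =
        ∑ u, dk Y Z u l x * ∑ j, A i j u l x * ξ l j := by
      have : (ev Gh (Z x) *ᵥ ξ l) i - (ev Gh (Y l) *ᵥ ξ l) i =
          ∑ j, (eval (Z x) (Gh i j) - eval (Y l) (Gh i j)) * ξ l j := by
        simp only [Matrix.mulVec, dotProduct, ev, Matrix.of_apply, ← Finset.sum_sub_distrib]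
        exact Finset.sum_congr rfl fun j _ => by ring
      rw [this]
      simp only [eA, Finset.sum_mul, Finset.mul_sum]
      rw [Finset.sum_comm]
      exact Finset.sum_congr rfl fun u _ => Finset.sum_congr rfl fun j _ => by ring
    have h5 : ∑ c, bX x c * (B c *ᵥ ξ l) i - ∑ c, bL l c * (B c *ᵥ ξ l) i =
        ∑ c, ε c l * (bX x c - bL l c) * β c l i := by
      rw [← Finset.sum_sub_distrib]
      refine Finset.sum_congr rfl fun c _ => ?_
      rw [h3]; ring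
    linarith
  · rintro (c | u) (c' | v)
    · exact GermFR.const 0
    · exact GermFR.const 0
    · exact GermFR.const 0
    · refine GermFR.sum _ fun i _ => GermFR.sum _ fun j _ => ((hξg i).mul (hξg j)).mul
        ((hM2 i j u v).add (GermFR.sum _ fun t _ =>
          (GermFR.left (left_eval hY _)).mul (he2 t u v)))
  · rintro t (c | u)
    · exact GermFR.const 0
    · exact hR t u
  · intro t
    obtain ⟨A1, hA1, B1, hB1, e1⟩ := eR t
    refine ⟨A1, hA1, B1, hB1, fun l hl x hx => ?_⟩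
    have h1 := e1 l hl x hx
    show ∑ j : κ ⊕ (σ ⊕ τ), _ = (0 : ℝ)
    rw [Fintype.sum_sum_type]
    simp only [Sum.elim_inl, Sum.elim_inr, zero_mul, Finset.sum_const_zero, zero_add]
    exact h1
  · intro w hw hsyz
    -- the étale components are determined
    set v : σ → ℝ := fun s => w (Sum.inr (Sum.inl s)) with hv
    set wc : κ → ℝ := fun c => w (Sum.inl c) with hwc
    have hext : ∀ u : σ ⊕ τ, w (Sum.inr u) = ext P z0 v u := by
      have hvec : Jt P z0 *ᵥ (fun t => w (Sum.inr (Sum.inr t))) = -(Js P z0 *ᵥ v) := by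
        funext i
        have h1 := hsyz i
        rw [Fintype.sum_sum_type, Fintype.sum_sum_type] at h1
        simp only [Sum.elim_inl, Sum.elim_inr, zero_mul, Finset.sum_const_zero, zero_add] at h1
        simp only [Matrix.mulVec, dotProduct, Pi.neg_apply]
        have e1 : ∑ x, Jt P z0 i x * w (Sum.inr (Sum.inr x)) =
          ∑ x, eval z0 (pderiv (Sum.inr x) (P i)) * w (Sum.inr (Sum.inr x)) := rfl
        have e2 : ∑ x, Js P z0 i x * v x =
          ∑ x, eval z0 (pderiv (Sum.inl x) (P i)) * w (Sum.inr (Sum.inl x)) := rfl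
        rw [e1, e2]
        linarith
      have hunit : IsUnit (Jt P z0).det := isUnit_iff_ne_zero.2 hdet
      have hinv : (fun t => w (Sum.inr (Sum.inr t))) = Dh P z0 *ᵥ v := by
        have h2 : (fun t => w (Sum.inr (Sum.inr t))) =
            (Jt P z0)⁻¹ *ᵥ (Jt P z0 *ᵥ (fun t => w (Sum.inr (Sum.inr t)))) := by
          rw [Matrix.mulVec_mulVec, Matrix.nonsing_inv_mul _ hunit, Matrix.one_mulVec]
        rw [h2, hvec, Matrix.mulVec_neg, Matrix.mulVec_mulVec, Dh, Matrix.neg_mulVec]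
      rintro (s | t)
      · rfl
      · exact congrFun hinv t
    have hne : wc ≠ 0 ∨ v ≠ 0 := by
      by_contra hcon
      push Not at hcon
      obtain ⟨h1, h2⟩ := hcon
      apply hw
      funext a
      rcases a with c | u
      · exact congrFun h1 c
      · rw [hext u, h2]
        rcases u with s | t
        · rfl
        · simp [ext]
    obtain ⟨q, hq⟩ := hpos wc v hne
    refine ⟨q, lt_of_eq_of_lt ?_ (hq.trans_eq ?_)⟩
    · -- the quadratic form
      rw [Fintype.sum_sum_type]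
      simp only [Sum.elim_inl, Sum.elim_inr, zero_mul, Finset.sum_const_zero, zero_add]
      have h1 : ∀ u : σ ⊕ τ, ∑ b : κ ⊕ (σ ⊕ τ), Sum.elim (fun _ => (0 : ℝ)) (fun v =>
          ∑ i, ∑ j, ξ0 i * ξ0 j * (1 / 2 * eval z0 (pderiv u (pderiv v (Gh i j))) +
          ∑ t, eval z0 (pderiv (Sum.inr t) (Gh i j)) *
          (-∑ i', (Jt P z0)⁻¹ t i' * (1 / 2 * eval z0 (pderiv u (pderiv v (P i'))))))) b *
          w (Sum.inr u) * w b = ∑ v', (∑ i, ∑ j, ξ0 i * ξ0 j *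
          (1 / 2 * eval z0 (pderiv u (pderiv v' (Gh i j))) +
          ∑ t, eval z0 (pderiv (Sum.inr t) (Gh i j)) *
          (-∑ i', (Jt P z0)⁻¹ t i' * (1 / 2 * eval z0 (pderiv u (pderiv v' (P i'))))))) *
          ext P z0 v u * ext P z0 v v' := by
        intro u
        rw [Fintype.sum_sum_type]
        simp only [Sum.elim_inl, Sum.elim_inr, zero_mul, Finset.sum_const_zero, zero_add, hext]
      rw [Finset.sum_congr rfl fun u _ => h1 u]
      rw [swap_ij (fun i j => ξ0 i * ξ0 j) (fun i j u v' =>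
        (1 / 2 * eval z0 (pderiv u (pderiv v' (Gh i j))) +
          ∑ t, eval z0 (pderiv (Sum.inr t) (Gh i j)) *
          (-∑ i', (Jt P z0)⁻¹ t i' * (1 / 2 * eval z0 (pderiv u (pderiv v' (P i')))))))
        (ext P z0 v) (ext P z0 v), Finset.mul_sum]
      refine Finset.sum_congr rfl fun i _ => ?_
      rw [Finset.mul_sum]
      refine Finset.sum_congr rfl fun j _ => ?_
      rw [td2_aux (ext P z0 v) (fun u v' => eval z0 (pderiv u (pderiv v' (Gh i j))))
        (fun t => eval z0 (pderiv (Sum.inr t) (Gh i j))) (fun t i' => (Jt P z0)⁻¹ t i')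
        (fun i' u v' => eval z0 (pderiv u (pderiv v' (P i'))))]
      unfold td2
      ring
    · congr 2
      refine Finset.sum_congr rfl fun i _ => ?_
      congr 1
      rw [Fintype.sum_sum_type]
      simp only [Sum.elim_inl, Sum.elim_inr, hext]
      congr 1
      simp only [td1, Finset.sum_mul, Finset.mul_sum]
      rw [Finset.sum_comm]
      exact Finset.sum_congr rfl fun u _ => Finset.sum_congr rfl fun j _ => by ring
  · -- the kernel itself
    obtain ⟨A0, hA0, B0', hB0', e0'⟩ := hS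
    choose A1 hA1 B1 hB1 eq1 using ee2
    refine ⟨A0 ∩ ((⋂ t, A1 t) ∩ {l | (∑ c, bL l c • B c + ev Gh (Y l)) *ᵥ ξ l = 0}),
      inter_mem hA0 (inter_mem (iInter_mem.2 hA1) hker), B0' ∩ ⋂ t, B1 t,
      inter_mem hB0' (iInter_mem.2 hB1), fun l hl x hx => ?_⟩
    obtain ⟨hl0, hl1, hl2⟩ := hl
    obtain ⟨hx0, hx1⟩ := hx
    rw [e0' l hl0 x hx0]
    have hq : ∀ i j, eval (Z x) (Gh i j) - eval (Y l) (Gh i j) =
        td1 P (Y l) (Gh i j) (fun s => dk Y Z (Sum.inl s) l x) +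
        ∑ u, ∑ v, (M2 i j u v l x + ∑ t, eval (Y l) (pderiv (Sum.inr t) (Gh i j)) * e2 t u v l x) *
          dk Y Z u l x * dk Y Z v l x := by
      intro i j
      rw [eM2 i j l x]
      have h1 : ∑ u, eval (Y l) (pderiv u (Gh i j)) * dk Y Z u l x =
          td1 P (Y l) (Gh i j) (fun s => dk Y Z (Sum.inl s) l x) +
          ∑ t, eval (Y l) (pderiv (Sum.inr t) (Gh i j)) *
            ∑ u, ∑ v, e2 t u v l x * dk Y Z u l x * dk Y Z v l x := by
        unfold td1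
        rw [Fintype.sum_sum_type, Fintype.sum_sum_type, add_assoc]
        congr 1
        rw [← Finset.sum_add_distrib]
        refine Finset.sum_congr rfl fun t _ => ?_
        have h2 := eq1 t l (Set.mem_iInter.1 hl1 t) x (Set.mem_iInter.1 hx1 t)
        simp only at h2
        rw [h2]
        simp only [ext, Sum.elim_inr, Matrix.mulVec, dotProduct]
        ring
      rw [h1, add_assoc]
      congr 1
      have h3 : ∑ t, eval (Y l) (pderiv (Sum.inr t) (Gh i j)) *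
            ∑ u, ∑ v, e2 t u v l x * dk Y Z u l x * dk Y Z v l x =
          ∑ u, ∑ v, (∑ t, eval (Y l) (pderiv (Sum.inr t) (Gh i j)) * e2 t u v l x) *
            dk Y Z u l x * dk Y Z v l x := by
        simp only [Finset.mul_sum, Finset.sum_mul]
        rw [Finset.sum_comm]
        refine Finset.sum_congr rfl fun u _ => ?_
        rw [Finset.sum_comm]
        refine Finset.sum_congr rfl fun v _ => Finset.sum_congr rfl fun t _ => ?_
        ring
      rw [h3, ← Finset.sum_add_distrib]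
      refine Finset.sum_congr rfl fun u _ => ?_
      rw [← Finset.sum_add_distrib]
      refine Finset.sum_congr rfl fun v _ => ?_
      ring
    have hT : ∑ i, ∑ j, (∑ c, bX x c • B c + ev Gh (Z x)) i j * ξ l i * ξ l j =
        ∑ c, (bX x c - bL l c) * (ξ l ⬝ᵥ (B c *ᵥ ξ l)) +
        ∑ i, ∑ j, ξ l i * ξ l j * (eval (Z x) (Gh i j) - eval (Y l) (Gh i j)) := by
      rw [← dot_mulVec_eq]
      have h1 : ξ l ⬝ᵥ ((∑ c, bX x c • B c + ev Gh (Z x)) *ᵥ ξ l) =
          ξ l ⬝ᵥ ((∑ c, bX x c • B c + ev Gh (Z x)) *ᵥ ξ l) -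
          ξ l ⬝ᵥ ((∑ c, bL l c • B c + ev Gh (Y l)) *ᵥ ξ l) := by
        rw [show (∑ c, bL l c • B c + ev Gh (Y l)) *ᵥ ξ l = 0 from hl2]; simp
      have h2 : ∀ (b : κ → ℝ) (Q : Matrix ι ι ℝ), ξ l ⬝ᵥ ((∑ c, b c • B c + Q) *ᵥ ξ l) =
          ∑ c, b c * (ξ l ⬝ᵥ (B c *ᵥ ξ l)) + ξ l ⬝ᵥ (Q *ᵥ ξ l) := by
        intro b Q
        rw [Matrix.add_mulVec, Matrix.sum_mulVec, dotProduct_add, dotProduct_sum]
        congr 1
        refine Finset.sum_congr rfl fun c _ => ?_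
        rw [Matrix.smul_mulVec, dotProduct_smul, smul_eq_mul]
      rw [h1, h2, h2, dot_mulVec_eq, dot_mulVec_eq (ev Gh (Y l))]
      have h3 : ∑ i, ∑ j, ξ l i * ξ l j * (eval (Z x) (Gh i j) - eval (Y l) (Gh i j)) =
          ∑ i, ∑ j, ev Gh (Z x) i j * ξ l i * ξ l j - ∑ i, ∑ j, ev Gh (Y l) i j * ξ l i * ξ l j := by
        simp only [← Finset.sum_sub_distrib, ev, Matrix.of_apply]
        refine Finset.sum_congr rfl fun i _ => Finset.sum_congr rfl fun j _ => ?_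
        ring
      have h4 : ∑ c, (bX x c - bL l c) * (ξ l ⬝ᵥ (B c *ᵥ ξ l)) =
          ∑ c, bX x c * (ξ l ⬝ᵥ (B c *ᵥ ξ l)) - ∑ c, bL l c * (ξ l ⬝ᵥ (B c *ᵥ ξ l)) := by
        rw [← Finset.sum_sub_distrib]
        exact Finset.sum_congr rfl fun c _ => by ring
      rw [h3, h4]
      ring
    have hE : ∑ a : κ ⊕ (σ ⊕ τ), ∑ b : κ ⊕ (σ ⊕ τ), (Sum.elim (fun _ => fun _ _ => (0 : ℝ))
        (fun u => Sum.elim
        (fun _ => fun _ _ => (0 : ℝ)) (fun v l x => ∑ i, ∑ j, ξ l i * ξ l j *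
          (M2 i j u v l x + ∑ t, eval (Y l) (pderiv (Sum.inr t) (Gh i j)) * e2 t u v l x)) b) a :
          L → X → ℝ) l x *
        (Sum.elim (fun c l x => ε c l * (bX x c - bL l c)) (fun u => dk Y Z u) a :
          L → X → ℝ) l x *
        (Sum.elim (fun c l x => ε c l * (bX x c - bL l c)) (fun u => dk Y Z u) b :
          L → X → ℝ) l x =
        ∑ i, ∑ j, ξ l i * ξ l j * ∑ u, ∑ v,
          (M2 i j u v l x + ∑ t, eval (Y l) (pderiv (Sum.inr t) (Gh i j)) * e2 t u v l x) *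
          dk Y Z u l x * dk Y Z v l x := by
      rw [← swap_ij (fun i j => ξ l i * ξ l j) (fun i j u v =>
        (M2 i j u v l x + ∑ t, eval (Y l) (pderiv (Sum.inr t) (Gh i j)) * e2 t u v l x))
        (fun u => dk Y Z u l x) (fun v => dk Y Z v l x)]
      simp only [Fintype.sum_sum_type, Sum.elim_inl, Sum.elim_inr, zero_mul,
        Finset.sum_const_zero, zero_add, add_zero]
    show _ = ∑ i, ∑ j, (∑ c, bX x c • B c + ev Gh (Z x)) i j * ξ l i * ξ l j - _
    rw [hT]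
    refine Eq.trans ?_ (congrArg (fun t => ∑ c, (bX x c - bL l c) * (ξ l ⬝ᵥ (B c *ᵥ ξ l)) +
        ∑ i, ∑ j, ξ l i * ξ l j * (eval (Z x) (Gh i j) - eval (Y l) (Gh i j)) - t) hE.symm)
    simp only [hq, mul_add, Finset.sum_add_distrib]
    ring

end Vale.Agent.P256.H387
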